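import Vale.Agent.P162.Sch

set_option linter.unusedSectionVars false
set_option linter.unusedVariables false
set_option linter.unusedSimpArgs false

open Matrix Finset

namespace Vale.Agent.P162

variable {n m k : Type*} [Fintype n] [DecidableEq n] [Fintype m] [DecidableEq m]
  [Fintype k] [DecidableEq k]

lemma three_lines {ι : Type*} [Fintype ι] (K : ι → ℂ) (c : ι → ℝ) {a b θ : ℝ} (h0 : 0 ≤ θ)
    (h1 : θ ≤ 1) (F : ℂ → ℂ) (hF : ∀ z, F z = ∑ i, K i * Complex.exp (c i * z))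
    (ha : ∀ z : ℂ, z.re = 0 → ‖F z‖ ≤ a) (hb : ∀ z : ℂ, z.re = 1 → ‖F z‖ ≤ b) :
    ‖F θ‖ ≤ a ^ (1 - θ) * b ^ θ := by
  have hd : Differentiable ℂ F := by
    rw [show F = _ from funext hF]; fun_prop
  have := Complex.HadamardThreeLines.norm_le_interp_of_mem_verticalClosedStrip₀₁' F
    (z := (θ : ℂ)) (a := a) (b := b) (by simpa [Complex.HadamardThreeLines.verticalClosedStrip]
      using ⟨h0, h1⟩) hd.diffContOnCl ?_ (fun z hz => ha z hz) (fun z hz => hb z hz)
  · simpa using this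
  · refine ⟨∑ i, ‖K i‖ * Real.exp |c i|, ?_⟩
    rintro _ ⟨z, hz, rfl⟩
    simp only [Function.comp, hF]
    refine (norm_sum_le _ _).trans (sum_le_sum fun i _ => ?_)
    rw [norm_mul, Complex.norm_exp]
    refine mul_le_mul_of_nonneg_left (Real.exp_le_exp.2 ?_) (norm_nonneg _)
    obtain ⟨z0, z1⟩ : 0 ≤ z.re ∧ z.re ≤ 1 := hz
    simp only [Complex.mul_re, Complex.ofReal_re, Complex.ofReal_im, zero_mul, sub_zero]
    nlinarith [le_abs_self (c i), abs_nonneg (c i)]

noncomputable def pwr (x ρ : ℝ) : ℝ := if 0 < x then x ^ ρ else 0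

noncomputable def pwc (x : ℝ) (z : ℂ) : ℂ := if 0 < x then Complex.exp (Real.log x * z) else 0

lemma pwr_eq {x ρ : ℝ} (hx : 0 ≤ x) (hρ : ρ ≠ 0) : pwr x ρ = x ^ ρ := by
  unfold pwr
  split_ifs with h
  · rfl
  · rw [le_antisymm (not_lt.1 h) hx, Real.zero_rpow hρ]

lemma pwr_nonneg (x ρ : ℝ) : 0 ≤ pwr x ρ := by
  unfold pwr; split_ifs with h
  · positivity
  · rfl

lemma pwc_eq (x : ℝ) (z : ℂ) :
    pwc x z = pwr x z.re * Complex.exp ((Real.log x * z.im : ℝ) * Complex.I) := by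
  unfold pwc pwr
  split_ifs with h
  · rw [Real.rpow_def_of_pos h, Complex.ofReal_exp, ← Complex.exp_add]
    congr 1
    conv_lhs => rw [← Complex.re_add_im z]
    push_cast; ring
  · simp

lemma cbound (N : Matrix n n ℝ) (u v χ φ : n → ℝ) (hu : u ⬝ᵥ u ≤ 1) :
    ‖∑ i, ∑ j, (u i : ℂ) * Complex.exp (χ i * Complex.I) * N i j *
      Complex.exp (φ j * Complex.I) * v j‖ ≤
    √((N *ᵥ fun j => Real.cos (φ j) * v j) ⬝ᵥ (N *ᵥ fun j => Real.cos (φ j) * v j) +
      (N *ᵥ fun j => Real.sin (φ j) * v j) ⬝ᵥ (N *ᵥ fun j => Real.sin (φ j) * v j)) := by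
  set a := N *ᵥ fun j => Real.cos (φ j) * v j
  set b := N *ᵥ fun j => Real.sin (φ j) * v j
  have e : ∀ i, ∑ j, (u i : ℂ) * Complex.exp (χ i * Complex.I) * N i j *
      Complex.exp (φ j * Complex.I) * v j =
      (u i : ℂ) * Complex.exp (χ i * Complex.I) * (a i + b i * Complex.I) := by
    intro i
    simp only [a, b, mulVec, dotProduct, Complex.exp_mul_I (φ _)]
    push_cast
    rw [sum_mul, ← sum_add_distrib, mul_sum]
    exact sum_congr rfl fun j _ => by ring
  simp only [e]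
  refine (norm_sum_le _ _).trans ?_
  simp only [norm_mul, Complex.norm_exp_ofReal_mul_I, mul_one, Complex.norm_real,
    Complex.norm_add_mul_I]
  apply Real.le_sqrt_of_sq_le
  refine (Finset.sum_mul_sq_le_sq_mul_sq _ _ _).trans ?_
  have e1 : ∑ i, ‖u i‖ ^ 2 = u ⬝ᵥ u := by simp [dotProduct, sq]
  have e2 : ∑ i, √(a i ^ 2 + b i ^ 2) ^ 2 = a ⬝ᵥ a + b ⬝ᵥ b := by
    rw [dotProduct, dotProduct, ← sum_add_distrib]
    exact sum_congr rfl fun i _ => by rw [Real.sq_sqrt (by positivity)]; ring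
  rw [e1, e2]
  have := dot_self_nonneg a
  have := dot_self_nonneg b
  nlinarith

lemma cs_dot (v φ : n → ℝ) :
    (fun j => Real.cos (φ j) * v j) ⬝ᵥ (fun j => Real.cos (φ j) * v j) +
      (fun j => Real.sin (φ j) * v j) ⬝ᵥ (fun j => Real.sin (φ j) * v j) = v ⬝ᵥ v := by
  simp only [dotProduct, ← sum_add_distrib]
  refine sum_congr rfl fun j _ => ?_
  have := Real.cos_sq_add_sin_sq (φ j)
  linear_combination (v j * v j) * this

lemma diag_quad (c v : n → ℝ) (X : Matrix n n ℝ) :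
    (fun j => c j * v j) ⬝ᵥ (X *ᵥ fun j => c j * v j) =
      v ⬝ᵥ ((diagonal c * X * diagonal c) *ᵥ v) := by
  have : (fun j => c j * v j) = diagonal c *ᵥ v := by ext j; rw [mulVec_diagonal]
  rw [this, dot_tr, diagonal_transpose, mulVec_mulVec, mulVec_mulVec]

lemma sum_cs_le {q : ℝ} (hq : 2 ≤ q) (N A : Matrix n n ℝ) (φ : n → ℝ) :
    ∑ α, √((N *ᵥ fun j => Real.cos (φ j) * (eU A).col α j) ⬝ᵥ
        (N *ᵥ fun j => Real.cos (φ j) * (eU A).col α j) +
      (N *ᵥ fun j => Real.sin (φ j) * (eU A).col α j) ⬝ᵥ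
        (N *ᵥ fun j => Real.sin (φ j) * (eU A).col α j)) ^ q ≤ T q N := by
  refine le_trans (sum_le_sum fun α _ => le_trans (le_of_eq ?_)
    (jensen2 hq N _ _ ((cs_dot ((eU A).col α) φ).trans (col_unit A α)).le)) ?_
  · rw [Real.sqrt_eq_rpow, ← Real.rpow_mul (add_nonneg (dot_self_nonneg _) (dot_self_nonneg _))]
    congr 1; ring
  · simp only [diag_quad]
    rw [sum_add_distrib, ← trace_eq_sum_col (eU_orth A).2, ← trace_eq_sum_col (eU_orth A).2, T]
    simp only [trace, diag_apply, mul_diagonal, diagonal_mul, ← sum_add_distrib]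
    refine le_of_eq (sum_congr rfl fun j _ => ?_)
    have := Real.cos_sq_add_sin_sq (φ j)
    linear_combination (ab q N j j) * this

lemma opLe_ind (x : n → ℝ) : OpLe (diagonal fun i => pwr (x i) 0) 1 := by
  refine opLe_proj (diagonal_transpose _) ?_
  rw [diagonal_mul_diagonal]; congr 1; ext i; unfold pwr; split_ifs <;> simp

lemma alt_core {q r : ℝ} (hq : 2 ≤ q) (hr : 1 ≤ r) (x z : n → ℝ) (hx : ∀ i, 0 ≤ x i)
    (hz : ∀ i, 0 ≤ z i) {W : Matrix n n ℝ} (hW : OpLe W 1) :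
    T (q * r) (diagonal x * W * diagonal z) ≤
      T q (diagonal (fun i => x i ^ r) * W * diagonal (fun i => z i ^ r)) := by
  set N := diagonal x * W * diagonal z with hN
  set Nr : ℝ → Matrix n n ℝ :=
    fun ρ => diagonal (fun i => pwr (x i) ρ) * W * diagonal (fun i => pwr (z i) ρ) with hNr
  have hr0 : r ≠ 0 := by linarith
  have eNr : diagonal (fun i => x i ^ r) * W * diagonal (fun i => z i ^ r) = Nr r := by
    simp only [hNr, pwr_eq (hx _) hr0, pwr_eq (hz _) hr0]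
  have eN1 : N = Nr 1 := by
    simp only [hN, hNr, pwr_eq (hx _) one_ne_zero, pwr_eq (hz _) one_ne_zero, Real.rpow_one]
  rw [eNr]
  set y := q * r with hy
  have hy0 : 0 < y := by positivity
  set v : n → n → ℝ := fun α => (eU (Nᵀ * N)).col α with hv
  set s : n → ℝ := fun α => nrm (N *ᵥ v α) with hs
  have hs0 : ∀ α, 0 ≤ s α := fun α => nrm_nonneg _
  set u : n → n → ℝ := fun α => (s α)⁻¹ • (N *ᵥ v α) with hu
  have hu1 : ∀ α, u α ⬝ᵥ u α ≤ 1 := by
    intro α
    simp only [hu, smul_dotProduct, dotProduct_smul, smul_eq_mul, ← nrm_sq]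
    by_cases h : s α = 0
    · simp [h]
    · change (s α)⁻¹ * ((s α)⁻¹ * s α ^ 2) ≤ 1
      field_simp; rfl
  have hS : T y N = ∑ α, s α ^ y := T_eq_nrm y N
  set S := T y N
  set B := T q (Nr r)
  have hB : 0 ≤ B := T_nonneg _ _
  have hS0 : 0 ≤ S := T_nonneg _ _
  rcases hS0.eq_or_lt with h0 | h0
  · exact h0.symm.le.trans hB
  set F : ℂ → ℂ := fun ζ => ∑ α, pwc (s α) (y - r * ζ) *
    ∑ i, ∑ j, (u α i : ℂ) * pwc (x i) (r * ζ) * W i j * pwc (z j) (r * ζ) * v α j with hF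
  have hbd : ∀ ζ : ℂ, ∃ φ : n → ℝ, ‖F ζ‖ ≤ ∑ α, pwr (s α) (y - r * ζ.re) *
      √((Nr (r * ζ.re) *ᵥ fun j => Real.cos (φ j) * v α j) ⬝ᵥ
        (Nr (r * ζ.re) *ᵥ fun j => Real.cos (φ j) * v α j) +
      (Nr (r * ζ.re) *ᵥ fun j => Real.sin (φ j) * v α j) ⬝ᵥ
        (Nr (r * ζ.re) *ᵥ fun j => Real.sin (φ j) * v α j)) := by
    intro ζ
    refine ⟨fun j => Real.log (z j) * (r * ζ).im, (norm_sum_le _ _).trans
      (sum_le_sum fun α _ => ?_)⟩
    rw [norm_mul, pwc_eq, norm_mul, Complex.norm_exp_ofReal_mul_I, mul_one, Complex.norm_real,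
      Real.norm_of_nonneg (pwr_nonneg _ _)]
    have e1 : ((y : ℂ) - r * ζ).re = y - r * ζ.re := by simp
    have e2 : ((r : ℂ) * ζ).re = r * ζ.re := by simp
    rw [e1]
    refine mul_le_mul_of_nonneg_left (le_trans (le_of_eq ?_) (cbound (Nr (r * ζ.re)) (u α) (v α)
      (fun i => Real.log (x i) * (r * ζ).im) _ (hu1 α))) (pwr_nonneg _ _)
    congr 1
    refine sum_congr rfl fun i _ => sum_congr rfl fun j _ => ?_
    simp only [pwc_eq, e2, hNr, mul_diagonal, diagonal_mul]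
    push_cast; ring
  have hθ : 1 / r ≤ 1 := by rw [div_le_one (by linarith)]; exact hr
  have key := three_lines (ι := n × n × n) (fun t => if 0 < s t.1 ∧ 0 < x t.2.1 ∧ 0 < z t.2.2 then
      Complex.exp (Real.log (s t.1) * y) * u t.1 t.2.1 * W t.2.1 t.2.2 * v t.1 t.2.2 else 0)
    (fun t => r * (Real.log (x t.2.1) + Real.log (z t.2.2) - Real.log (s t.1)))
    (a := S) (b := S ^ (1 - 1 / q) * B ^ (1 / q)) (θ := 1 / r) (by positivity) hθ F ?_ ?_ ?_
  · have e : F ((1 / r : ℝ) : ℂ) = (S : ℂ) := by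
      rw [hS, hF]
      push_cast
      refine sum_congr rfl fun α _ => ?_
      have e3 : (r : ℂ) * (1 / r) = 1 := by
        have : (r : ℂ) ≠ 0 := by exact_mod_cast hr0
        field_simp
      have e4 : ∑ i, ∑ j, (u α i : ℂ) * pwc (x i) 1 * W i j * pwc (z j) 1 * v α j =
          ((u α ⬝ᵥ (N *ᵥ v α) : ℝ) : ℂ) := by
        simp only [pwc_eq, eN1, hNr, dotProduct, mulVec, mul_diagonal, diagonal_mul]
        push_cast
        refine sum_congr rfl fun i _ => ?_
        rw [mul_sum]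
        refine sum_congr rfl fun j _ => ?_
        simp; ring
      rw [e3, e4, pwc_eq]
      simp only [hu, smul_dotProduct, ← nrm_sq, smul_eq_mul]
      change _ * (((s α)⁻¹ * s α ^ 2 : ℝ) : ℂ) = _
      simp only [Complex.sub_re, Complex.ofReal_re, Complex.one_re, Complex.sub_im,
        Complex.ofReal_im, Complex.one_im, sub_zero, mul_zero, Complex.ofReal_zero, zero_mul,
        Complex.exp_zero, mul_one]
      rw [← Complex.ofReal_mul]
      congr 1
      unfold pwr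
      split_ifs with h
      · rw [Real.rpow_sub_one h.ne']; field_simp
      · rw [le_antisymm (not_lt.1 h) (hs0 α), Real.zero_rpow hy0.ne']; simp
    rw [e, Complex.norm_real, Real.norm_of_nonneg h0.le,
      Real.mul_rpow (Real.rpow_nonneg hS0 _) (Real.rpow_nonneg hB _), ← Real.rpow_mul h0.le, ← mul_assoc,
      ← Real.rpow_add h0, ← Real.rpow_mul hB] at key
    have e5 : S = S ^ (1 - 1 / r + (1 - 1 / q) * (1 / r)) * S ^ (1 / q * (1 / r)) := by
      rw [← Real.rpow_add h0]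
      have : 1 - 1 / r + (1 - 1 / q) * (1 / r) + 1 / q * (1 / r) = 1 := by ring
      rw [this, Real.rpow_one]
    conv_lhs at key => rw [e5]
    have := le_of_mul_le_mul_left key (Real.rpow_pos_of_pos h0 _)
    exact (Real.rpow_le_rpow_iff h0.le hB (by positivity)).1 this
  · intro ζ
    simp only [hF, Fintype.sum_prod_type, mul_sum]
    refine sum_congr rfl fun α _ => sum_congr rfl fun i _ => sum_congr rfl fun j _ => ?_
    unfold pwc
    by_cases h1 : 0 < s α <;> by_cases h2 : 0 < x i <;> by_cases h3 : 0 < z j <;>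
      simp only [h1, h2, h3, if_true, if_false, and_true, and_false, true_and, false_and,
        mul_zero, zero_mul]
    have : Complex.exp (((r * (Real.log (x i) + Real.log (z j) - Real.log (s α)) : ℝ) : ℂ) * ζ) *
        Complex.exp (Real.log (s α) * y) = Complex.exp (Real.log (s α) * (y - r * ζ)) *
        Complex.exp (Real.log (x i) * (r * ζ)) * Complex.exp (Real.log (z j) * (r * ζ)) := by
      simp only [← Complex.exp_add]; congr 1; push_cast; ring
    linear_combination (-(u α i : ℂ) * W i j * v α j) * this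
  · intro ζ hζ
    obtain ⟨φ, hφ⟩ := hbd ζ
    rw [hζ, mul_zero, sub_zero] at hφ
    refine hφ.trans ?_
    rw [hS]
    refine sum_le_sum fun α _ => ?_
    rw [pwr_eq (hs0 α) hy0.ne']
    refine mul_le_of_le_one_right (Real.rpow_nonneg (hs0 α) _) (Real.sqrt_le_one.2 ?_)
    have hop : OpLe (Nr 0) 1 := by
      simpa using ((opLe_ind x).mul zero_le_one hW).mul (by norm_num) (opLe_ind z)
    have hh : ∀ w, (Nr 0 *ᵥ w) ⬝ᵥ (Nr 0 *ᵥ w) ≤ w ⬝ᵥ w := by
      intro w
      rw [← nrm_sq, ← nrm_sq]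
      exact pow_le_pow_left₀ (nrm_nonneg _) (by simpa using hop w) 2
    refine (add_le_add (hh _) (hh _)).trans ?_
    rw [cs_dot]; exact (col_unit _ α).le
  · intro ζ hζ
    obtain ⟨φ, hφ⟩ := hbd ζ
    rw [hζ, mul_one] at hφ
    refine hφ.trans ?_
    have hq1 : 0 < q - 1 := by linarith
    have hc : (q / (q - 1)).HolderConjugate q := by
      rw [Real.holderConjugate_iff]
      refine ⟨by rw [lt_div_iff₀ hq1]; linarith, by field_simp; ring⟩
    refine (Real.inner_le_Lp_mul_Lq_of_nonneg univ hc (fun α _ => pwr_nonneg _ _)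
      (fun α _ => Real.sqrt_nonneg _)).trans ?_
    have hyr : y - r = r * (q - 1) := by rw [hy]; ring
    have e6 : ∑ α, pwr (s α) (y - r) ^ (q / (q - 1)) = S := by
      rw [hS]
      refine sum_congr rfl fun α _ => ?_
      rw [pwr_eq (hs0 α) (by rw [hyr]; positivity), ← Real.rpow_mul (hs0 α), hyr, hy]
      congr 1; field_simp
    have e7 : 1 / (q / (q - 1)) = 1 - 1 / q := by field_simp
    rw [e6, e7]
    refine mul_le_mul_of_nonneg_left (Real.rpow_le_rpow (sum_nonneg fun α _ => by positivity)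
      (sum_cs_le hq _ _ φ) (by positivity)) (Real.rpow_nonneg hS0 _)

lemma T_orth_conj {y : ℝ} (hy : 0 < y) {U V : Matrix n n ℝ} (hU : Uᵀ * U = 1) (hV : Vᵀ * V = 1)
    (M : Matrix n n ℝ) : T y (U * M * Vᵀ) = T y M := by
  have h : ∀ (U M : Matrix n n ℝ), Uᵀ * U = 1 → T y (U * M) = T y M := fun U M hU =>
    T_congr (by rw [transpose_mul, Matrix.mul_assoc, ← Matrix.mul_assoc Uᵀ, hU, Matrix.one_mul]) y
  rw [Matrix.mul_assoc, h _ _ hU, ← T_tr hy, transpose_mul, transpose_transpose, h _ _ hV, T_tr hy]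

lemma T_ab_mul {y ρ : ℝ} (hy : 0 < y) (X Y : Matrix n n ℝ) :
    T y (ab ρ X * ab ρ Yᵀ) = T y (diagonal (fun i => ev (Xᵀ * X) i ^ (ρ / 2)) *
      ((eU (Xᵀ * X))ᵀ * eU (Yᵀᵀ * Yᵀ)) * diagonal (fun i => ev (Yᵀᵀ * Yᵀ) i ^ (ρ / 2))) := by
  symm
  rw [← T_orth_conj hy (eU_orth (Xᵀ * X)).1 (eU_orth (Yᵀᵀ * Yᵀ)).1]
  simp only [ab, fc, Matrix.mul_assoc]

theorem alt {q y : ℝ} (hq : 2 ≤ q) (hy : q ≤ y) (X Y : Matrix n n ℝ) :
    T y (X * Y) ≤ T q (ab (y / q) X * ab (y / q) Yᵀ) := by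
  have hq0 : 0 < q := by linarith
  have hy0 : 0 < y := by linarith
  have h : ∀ (X M : Matrix n n ℝ), T y (X * M) = T y (ab 1 X * M) := fun X M =>
    T_congr (by
      rw [transpose_mul, transpose_mul, ab_symm, Matrix.mul_assoc, Matrix.mul_assoc,
        ← Matrix.mul_assoc (ab 1 X), ab_mul one_pos one_pos, one_add_one_eq_two, ab_two,
        Matrix.mul_assoc]) y
  have e : T y (X * Y) = T y (ab 1 X * ab 1 Yᵀ) := by
    rw [h, ← T_tr hy0, transpose_mul, h, ← T_tr hy0, transpose_mul, transpose_transpose, ab_symm]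
  rw [e, T_ab_mul hy0, T_ab_mul hq0]
  have hr : 1 ≤ y / q := by rw [le_div_iff₀ hq0]; linarith
  have := alt_core hq hr (fun i => ev (Xᵀ * X) i ^ ((1 : ℝ) / 2))
    (fun i => ev (Yᵀᵀ * Yᵀ) i ^ ((1 : ℝ) / 2)) (fun i => Real.rpow_nonneg (ev_nonneg _ _) _)
    (fun i => Real.rpow_nonneg (ev_nonneg _ _) _)
    (W := (eU (Xᵀ * X))ᵀ * eU (Yᵀᵀ * Yᵀ))
    (by simpa using ((opLe_orth (eU_orth _).1).tr zero_le_one).mul zero_le_one
          (opLe_orth (eU_orth _).1))
  simp only [← Real.rpow_mul (ev_nonneg _ _)] at this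
  rw [mul_div_cancel₀ _ hq0.ne', show (1 : ℝ) / 2 * (y / q) = y / q / 2 by ring] at this
  exact this

lemma alt2 {y : ℝ} (hy : 2 ≤ y) (X Y : Matrix n n ℝ) :
    T y (X * Y) ≤ (ab y X * ab y Yᵀ).trace := by
  refine (alt le_rfl hy X Y).trans (le_of_eq ?_)
  have h2 : 0 < y / 2 := by linarith
  rw [T, ab_two, transpose_mul, ab_symm, ab_symm, Matrix.mul_assoc, trace_mul_comm,
    ← Matrix.mul_assoc (ab _ X), ab_mul h2 h2, Matrix.mul_assoc, ab_mul h2 h2, add_halves]

lemma trace_mul_le (A B : Matrix n n ℝ) : 2 * (A * B).trace ≤ (Aᵀ * A).trace + (Bᵀ * B).trace := by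
  have := T_nonneg 2 (Aᵀ - B)
  rw [T, ab_two, transpose_sub, transpose_transpose, Matrix.sub_mul, Matrix.mul_sub,
    Matrix.mul_sub, trace_sub, trace_sub, trace_sub, ← transpose_mul, trace_transpose,
    trace_mul_comm A Aᵀ] at this
  linarith

lemma T_sq_le {y : ℝ} (hy : 2 ≤ y) (X : Matrix n n ℝ) : T y (X * X) ≤ T (2 * y) X := by
  have h0 : 0 < y := by linarith
  have h1 := alt2 hy X X
  have h2 := trace_mul_le (ab y X) (ab y Xᵀ)
  rw [ab_symm, ab_symm, ab_mul h0 h0, ab_mul h0 h0, ← two_mul, ← T, ← T, T_tr (by linarith)] at h2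
  linarith

lemma T_pow_le (X : Matrix n n ℝ) (j : ℕ) : T 2 (X ^ 2 ^ j) ≤ T (2 ^ (j + 1)) X := by
  have : ∀ (j : ℕ) (y : ℝ), 2 ≤ y → T y (X ^ 2 ^ j) ≤ T (2 ^ j * y) X := by
    intro j
    induction j with
    | zero => intro y hy; simp
    | succ j ih =>
      intro y hy
      rw [pow_succ 2 j, pow_mul, sq]
      refine (T_sq_le hy _).trans ((ih _ (by linarith)).trans (le_of_eq ?_))
      congr 1; ring
  simpa [pow_succ] using this j 2 le_rfl

end Vale.Agent.P162
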