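import Vale.Agent.P162.Par

set_option linter.unusedSectionVars false
set_option linter.unusedVariables false
set_option linter.unusedSimpArgs false

open Matrix Finset Equiv Function Filter Topology

namespace Vale.Agent.P162

section
variable {G : Type*} [Group G] [Fintype G] [DecidableEq G]

lemma dirichlet {q : G → ℝ} (h : ∑ g, q g = 1) (F : G → ℝ) :
    ∑ g, ∑ π, ∑ σ, q π * q σ * (F (π * g) - F (σ * g)) ^ 2 =
      2 * (F ⬝ᵥ F - (cm q *ᵥ F) ⬝ᵥ (cm q *ᵥ F)) := by
  have h1 : ∀ g, ∑ π, ∑ σ, q π * q σ * (F (π * g) - F (σ * g)) ^ 2 =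
      2 * (∑ π, q π * F (π * g) ^ 2 - (cm q *ᵥ F) g * (cm q *ᵥ F) g) := fun g => by
    have e : ∀ π σ, q π * q σ * (F (π * g) - F (σ * g)) ^ 2 =
        (q π * F (π * g) ^ 2) * q σ + q π * (q σ * F (σ * g) ^ 2) -
          2 * ((q π * F (π * g)) * (q σ * F (σ * g))) := fun π σ => by ring
    simp only [e, sum_sub_distrib, sum_add_distrib, ← mul_sum, ← sum_mul, h, cm_mulVec]
    ring
  simp only [h1, ← mul_sum, sum_sub_distrib]
  rw [sum_comm]
  have h2 : ∀ π : G, ∑ g, q π * F (π * g) ^ 2 = q π * (F ⬝ᵥ F) := fun π => by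
    rw [← mul_sum, dotProduct]
    congr 1
    exact Fintype.sum_equiv (Equiv.mulLeft π) _ _ fun g => by simp [sq]
  simp only [h2, ← sum_mul, h, one_mul]; rfl

lemma conv_pos {α β : G → ℝ} (h : ∀ g, 0 ≤ α g) (h' : ∀ g, 0 ≤ β g) {a b : G} (ha : 0 < α a)
    (hb : 0 < β b) : 0 < conv α β (b * a) :=
  sum_pos' (fun _ _ => mul_nonneg (h _) (h' _)) ⟨a, mem_univ _, by simpa using mul_pos ha hb⟩
end

variable {D : Type*} [Fintype D] [DecidableEq D]

lemma step_one (t : D) : 0 < step t 1 :=
  sum_pos' (fun c _ => by split_ifs <;> positivity) ⟨fun _ => false, mem_univ _, by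
    rw [if_pos (by ext1 z; simp [lay_apply])]; positivity⟩

lemma qL_one (L : List D) : 0 < qL L 1 := by
  induction L with
  | nil => simp [qL, pt]
  | cons t L ih => simpa [qL] using conv_pos (step_nonneg t) (qL_nonneg L) (step_one t) ih

lemma qL_swap {L : List D} {t : D} (ht : t ∈ L) (z : D → Bool) :
    0 < qL L (Equiv.swap z (flp t z)) := by
  induction L with
  | nil => simp at ht
  | cons s L ih =>
    rcases List.mem_cons.1 ht with h | h
    · subst h
      have := step_left t z 1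
      rw [mul_one] at this
      simpa [qL] using conv_pos (step_nonneg t) (qL_nonneg L) (this ▸ step_one t) (qL_one L)
    · simpa [qL] using conv_pos (step_nonneg s) (qL_nonneg L) (step_one s) (ih h)

lemma edge_gen (H : Subgroup (Perm (D → Bool))) (h : ∀ t z, Equiv.swap z (flp t z) ∈ H) :
    H = ⊤ := by
  have key : ∀ s : Finset D, ∀ x y : D → Bool, (∀ t ∉ s, x t = y t) → Equiv.swap x y ∈ H := by
    intro s
    induction s using Finset.induction_on with
    | empty =>
      intro x y hxy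
      rw [show x = y from funext fun t => hxy t (by simp), swap_self]; exact H.one_mem
    | insert t s ht ih =>
      intro x y hxy
      by_cases e : x t = y t
      · exact ih x y fun u hu => by
          by_cases e' : u = t
          · rw [e', e]
          · exact hxy u (by simp [e', hu])
      · refine SubmonoidClass.swap_mem_trans H (h t x) (ih _ _ fun u hu => ?_)
        rw [flp_apply]
        by_cases e' : u = t
        · subst e'; revert e; rw [update_self]; cases x u <;> cases y u <;> simp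
        · rw [update_of_ne e']; exact hxy u (by simp [e', hu])
  rw [eq_top_iff, ← Perm.closure_isSwap, Subgroup.closure_le]
  rintro _ ⟨x, y, -, rfl⟩
  exact key univ x y (by simp)

lemma ev_lt_one (d : ℕ) (i : Perm (Fin d → Bool)) :
    ev ((cm (qd d) * pr (orth (Ws (Fin d → Bool) 1)))ᵀ *
      (cm (qd d) * pr (orth (Ws (Fin d → Bool) 1)))) i < 1 := by
  rw [ev_tmul, ← mulVec_mulVec]
  set v := (eU ((cm (qd d) * pr (orth (Ws (Fin d → Bool) 1)))ᵀ *
      (cm (qd d) * pr (orth (Ws (Fin d → Bool) 1))))).col i with hv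
  have h1 : v ⬝ᵥ v = 1 := col_unit _ _
  have h2 := pr_mem (orth (Ws (Fin d → Bool) 1)) v
  have h3 := opLe_pr (orth (Ws (Fin d → Bool) 1)) v
  set F := pr (orth (Ws (Fin d → Bool) 1)) *ᵥ v
  have h4 : F ⬝ᵥ F ≤ 1 := by
    rw [← h1, ← nrm_sq, ← nrm_sq]; exact pow_le_pow_left₀ (nrm_nonneg _) (by simpa using h3) 2
  by_contra hc
  have h5 := dirichlet (q := qd d) (sum_qL _) F
  have h0 : ∀ g π σ, 0 ≤ qd d π * qd d σ * (F (π * g) - F (σ * g)) ^ 2 := fun g π σ =>
    mul_nonneg (mul_nonneg (qL_nonneg _ _) (qL_nonneg _ _)) (sq_nonneg _)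
  have h6 : ∀ t z g, F (Equiv.swap z (flp t z) * g) = F g := fun t z g => by
    have a1 := single_le_sum (f := fun σ => qd d (Equiv.swap z (flp t z)) * qd d σ *
      (F (Equiv.swap z (flp t z) * g) - F (σ * g)) ^ 2) (fun σ _ => h0 g _ σ) (mem_univ 1)
    have a2 := single_le_sum (f := fun π => ∑ σ, qd d π * qd d σ * (F (π * g) - F (σ * g)) ^ 2)
      (fun π _ => sum_nonneg fun σ _ => h0 g π σ) (mem_univ (Equiv.swap z (flp t z)))
    have a3 := single_le_sum
      (f := fun g => ∑ π, ∑ σ, qd d π * qd d σ * (F (π * g) - F (σ * g)) ^ 2)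
      (fun g _ => sum_nonneg fun π _ => sum_nonneg fun σ _ => h0 g π σ) (mem_univ g)
    have a4 : 0 < qd d (Equiv.swap z (flp t z)) * qd d 1 :=
      mul_pos (qL_swap (List.mem_finRange t) z) (qL_one _)
    simp only [one_mul] at a1
    have a5 : (F (Equiv.swap z (flp t z) * g) - F g) ^ 2 ≤ 0 := by
      by_contra a6
      have := mul_pos a4 (not_le.1 a6)
      linarith
    exact sub_eq_zero.1 (pow_eq_zero_iff two_ne_zero |>.1 (le_antisymm a5 (sq_nonneg _)))
  let H : Subgroup (Perm (Fin d → Bool)) :=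
    { carrier := {τ | ∀ g, F (τ * g) = F g}
      mul_mem' := fun ha hb g => by rw [mul_assoc, ha, hb]
      one_mem' := fun g => by rw [one_mul]
      inv_mem' := fun {τ} ha g => by rw [← ha, mul_inv_cancel_left] }
  have h7 : H = ⊤ := edge_gen H h6
  have h8 : F ∈ Ws (Fin d → Bool) 1 := by
    rw [Ws_one]
    intro g g' _
    have : g * g'⁻¹ ∈ H := by rw [h7]; trivial
    simpa using this g'
  rw [eq_zero_of_orth h8 h2] at hc
  simp at hc

lemma claim_ex (d : ℕ) : ∃ y, 16 ≤ y ∧ Claim d y := by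
  have h := tendsto_finsetSum univ fun i _ =>
    tendsto_pow_atTop_nhds_zero_of_lt_one (ev_nonneg _ i) (ev_lt_one d i)
  rw [sum_const_zero] at h
  obtain ⟨j, h1, h2⟩ := ((h.eventually (gt_mem_nhds (show (0 : ℝ) < 1 / 2 by norm_num))).and
    (eventually_ge_atTop 8)).exists
  refine ⟨2 * j, by have : (8 : ℝ) ≤ j := by exact_mod_cast h2
                    linarith, ?_⟩
  rw [Claim, T_eq]
  simp only [mul_div_cancel_left₀ _ (two_ne_zero' ℝ), Real.rpow_natCast]
  exact h1.le

lemma claim_upto (D₀ : ℕ) : ∃ y, 16 ≤ y ∧ ∀ d ≤ D₀, Claim d y := by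
  induction D₀ with
  | zero => obtain ⟨y, h1, h2⟩ := claim_ex 0; exact ⟨y, h1, fun d hd => by rwa [Nat.le_zero.1 hd]⟩
  | succ n ih =>
    obtain ⟨y, h1, h2⟩ := ih
    obtain ⟨z, h3, h4⟩ := claim_ex (n + 1)
    refine ⟨max y z, le_max_of_le_left h1, fun d hd => ?_⟩
    rcases Nat.of_le_succ hd with h | h
    · exact (h2 d h).mono (by linarith) (le_max_left _ _)
    · rw [h]; exact h4.mono (by linarith) (le_max_right _ _)

theorem claim_all : ∃ Y, 16 ≤ Y ∧ ∀ d, Claim d Y := by
  obtain ⟨y, hy, h⟩ := claim_upto (2 ^ 93)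
  have key : ∀ j : ℕ, ∀ d ≤ 2 ^ 93 * 2 ^ j, Claim d (y * (2 * (j + 1) / (j + 2)) ^ 2) := by
    intro j
    induction j with
    | zero => intro d hd; simpa using h d (by simpa using hd)
    | succ j ih =>
      intro d hd
      have hj : (0 : ℝ) ≤ j := Nat.cast_nonneg j
      have h1 : (1 : ℝ) ≤ 2 * (j + 1) / (j + 2) := by rw [le_div_iff₀ (by positivity)]; linarith
      have h2 : y ≤ y * (2 * (j + 1) / (j + 2)) ^ 2 :=
        le_mul_of_one_le_right (by linarith) (one_le_pow₀ h1)
      have h3 : y * (2 * (j + 1) / (j + 2)) ^ 2 * (1 + (((j + 1) * (j + 3) : ℕ) : ℝ)⁻¹) ^ 2 =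
          y * (2 * ((j + 1 : ℕ) + 1) / ((j + 1 : ℕ) + 2)) ^ 2 := by
        rw [mul_assoc, ← mul_pow]; congr 2; push_cast; field_simp; ring
      rw [← h3]
      by_cases hd' : d ≤ 2 ^ 93 * 2 ^ j
      · exact (ih d hd').mono (by linarith) (le_mul_of_one_le_right (by linarith)
          (one_le_pow₀ (le_add_of_nonneg_right (by positivity))))
      · have h4 := pow_eight (x := j + 80) (by omega)
        have h5 : ((j + 1) * (j + 3)) ^ 4 ≤ ((j + 80) * (j + 80)) ^ 4 :=
          Nat.pow_le_pow_left (Nat.mul_le_mul (by omega) (by omega)) 4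
        rw [mul_pow (j + 80), ← pow_add] at h5
        rw [pow_add] at h4
        rw [pow_succ 2 j] at hd
        have := step_claim (a := d / 2) (b := d - d / 2) (p := (j + 1) * (j + 3))
          (by linarith) (ih _ (by omega)) (ih _ (by omega)) (Nat.mul_pos (by omega) (by omega))
          (by norm_num only at h4 h5 hd' ⊢; omega) (by omega) (by omega)
        rwa [show d / 2 + (d - d / 2) = d by omega] at this
  refine ⟨y * 4, by linarith, fun d => ?_⟩
  have hd : (0 : ℝ) ≤ d := Nat.cast_nonneg d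
  refine (key d d (le_trans Nat.lt_two_pow_self.le (Nat.le_mul_of_pos_left _ (by norm_num)))).mono
    (by positivity) (mul_le_mul_of_nonneg_left ?_ (by linarith))
  rw [show (4 : ℝ) = 2 ^ 2 by norm_num]
  refine pow_le_pow_left₀ (by positivity) ?_ 2
  rw [div_le_iff₀ (by positivity)]; linarith

end Vale.Agent.P162
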