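import Vale.Agent.P162.Lev2

set_option linter.unusedSectionVars false
set_option linter.unusedVariables false
set_option linter.unusedSimpArgs false

open Finset Equiv Function

namespace Vale.Agent.P162

variable {ι A : Type*} [Fintype ι] [DecidableEq ι] [Fintype A] [DecidableEq A]

lemma sum_update (F : (ι → A) → ℝ) (z : ι) :
    ∑ f : ι → A, ∑ l, F (update f z l) = Fintype.card A * ∑ f, F f := by
  have hi : Involutive fun p : (ι → A) × A => (update p.1 z p.2, p.1 z) := by
    rintro ⟨f, l⟩; simp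
  rw [← Fintype.sum_prod_type', ← Equiv.sum_comp hi.toPerm]
  simp [Fintype.sum_prod_type, mul_sum]

lemma wlem [Nonempty A] (τ : ι → ℕ) (g : ι → (ι → A) → ℝ) (c : ι → ℝ) (h : (ι → A) → ℝ)
    (hg : ∀ z f, 0 ≤ g z f) (hh : ∀ f, 0 ≤ h f) (hc : ∀ z, 0 ≤ c z) (s : Finset ι)
    (hdep : ∀ z ∈ s, ∀ z' ∈ s, z ≠ z' → τ z ≤ τ z' → ∀ f l, g z (update f z' l) = g z f)
    (hh' : ∀ z ∈ s, ∀ f l, h (update f z l) = h f)
    (hav : ∀ z ∈ s, ∀ f, ∑ l, g z (update f z l) ≤ c z * Fintype.card A) :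
    ∑ f, h f * ∏ z ∈ s, g z f ≤ (∏ z ∈ s, c z) * ∑ f, h f := by
  induction s using Finset.induction_on_max_value τ with
  | empty => simp
  | insert a s ha hmax ih =>
    have ih' := ih (fun z hz z' hz' => hdep z (mem_insert_of_mem hz) z' (mem_insert_of_mem hz'))
      (fun z hz => hh' z (mem_insert_of_mem hz)) (fun z hz => hav z (mem_insert_of_mem hz))
    have hA : (0 : ℝ) < Fintype.card A := by exact_mod_cast Fintype.card_pos
    rw [prod_insert ha, mul_assoc]
    refine le_trans ?_ (mul_le_mul_of_nonneg_left ih' (hc a))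
    refine le_of_mul_le_mul_left ?_ hA
    rw [← sum_update _ a, mul_sum, mul_sum]
    refine sum_le_sum fun f _ => ?_
    have e : ∀ l, h (update f a l) * ∏ z ∈ insert a s, g z (update f a l) =
        (h f * ∏ z ∈ s, g z f) * g a (update f a l) := by
      intro l
      rw [prod_insert ha, hh' a (mem_insert_self _ _), prod_congr rfl fun z hz =>
        hdep z (mem_insert_of_mem hz) a (mem_insert_self _ _) (fun e => ha (e ▸ hz)) (hmax z hz) f l]
      ring
    simp only [e]
    rw [← mul_sum]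
    have h0 : 0 ≤ h f * ∏ z ∈ s, g z f := mul_nonneg (hh f) (prod_nonneg fun z _ => hg z f)
    nlinarith [mul_le_mul_of_nonneg_left (hav a (mem_insert_self _ _) f) h0]

lemma exists_half (R : Finset ι) (r : ι → ι → Prop) (hs : ∀ a b, r a b → r b a)
    (h : ∀ a ∈ R, ∃ b, b ≠ a ∧ r a b) :
    ∃ L ⊆ R, R.card ≤ 2 * L.card ∧ ∀ a ∈ L, ∃ b, b ∉ L ∧ r a b := by
  classical
  obtain ⟨I, hI, hmax⟩ := exists_max_image
    (R.powerset.filter fun I => ∀ a ∈ I, ∀ b ∈ I, b ≠ a → ¬ r a b) card ⟨∅, by simp⟩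
  obtain ⟨hI1, hI2⟩ := mem_filter.1 hI
  have hIR := mem_powerset.1 hI1
  by_cases hc : R.card ≤ 2 * I.card
  · refine ⟨I, hIR, hc, fun a ha => ?_⟩
    obtain ⟨b, hb, hab⟩ := h a (hIR ha)
    exact ⟨b, fun hbI => hI2 a ha b hbI hb hab, hab⟩
  · refine ⟨R \ I, sdiff_subset, by rw [card_sdiff_of_subset hIR]; omega, fun a ha => ?_⟩
    obtain ⟨ha1, ha2⟩ := mem_sdiff.1 ha
    by_contra hn
    push Not at hn
    have hn' : ∀ b ∈ I, ¬ r a b := fun b hb => hn b (by simp [hb])
    have := hmax (insert a I) (mem_filter.2 ⟨mem_powerset.2 (insert_subset ha1 hIR), ?_⟩)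
    · rw [card_insert_of_notMem ha2] at this; omega
    · intro x hx y hy hxy
      rcases mem_insert.1 hx with rfl | hx' <;> rcases mem_insert.1 hy with rfl | hy'
      · exact absurd rfl hxy
      · exact hn' y hy'
      · exact fun hr => hn' x hx' (hs _ _ hr)
      · exact hI2 x hx' y hy' hxy

open Classical in
lemma cov [Nonempty A] (r : A → A → Prop) (hs : ∀ a b, r a b → r b a) {D θ : ℝ}
    (hD : ∀ a, ((univ.filter fun b => r b a).card : ℝ) ≤ D) (h0 : 0 ≤ θ) (h1 : θ ≤ 1)
    (hθ : Fintype.card ι * D ≤ θ ^ 2 * Fintype.card A) (R : Finset ι) (h : (ι → A) → ℝ)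
    (hh : ∀ f, 0 ≤ h f) (hh' : ∀ z ∈ R, ∀ f l, h (update f z l) = h f) :
    ∑ f, h f * (if ∀ a ∈ R, ∃ b, b ≠ a ∧ r (f a) (f b) then 1 else 0) ≤
      (2 * θ) ^ R.card * ∑ f, h f := by
  let g : Finset ι → ι → (ι → A) → ℝ := fun L a f => if ∃ b, b ∉ L ∧ r (f a) (f b) then 1 else 0
  have hg : ∀ L a f, 0 ≤ g L a f := fun L a f => by simp only [g]; split_ifs <;> norm_num
  have e1 : ∀ f : ι → A, (if ∀ a ∈ R, ∃ b, b ≠ a ∧ r (f a) (f b) then (1 : ℝ) else 0) ≤
      ∑ L ∈ R.powerset.filter (fun L => R.card ≤ 2 * L.card), ∏ a ∈ L, g L a f := by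
    intro f
    have hn : ∀ L ∈ R.powerset.filter (fun L => R.card ≤ 2 * L.card), 0 ≤ ∏ a ∈ L, g L a f :=
      fun L _ => prod_nonneg fun a _ => hg L a f
    split_ifs with hc
    · obtain ⟨L, hL1, hL2, hL3⟩ := exists_half R (fun a b => r (f a) (f b)) (fun a b => hs _ _) hc
      refine le_trans (le_of_eq ?_) (single_le_sum hn (mem_filter.2 ⟨mem_powerset.2 hL1, hL2⟩))
      exact (prod_eq_one fun a ha => if_pos (hL3 a ha)).symm
    · exact sum_nonneg hn
  refine (sum_le_sum fun f _ => mul_le_mul_of_nonneg_left (e1 f) (hh f)).trans ?_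
  simp only [mul_sum _ _ (h _)]
  rw [sum_comm]
  have hS : 0 ≤ ∑ f, h f := sum_nonneg fun f _ => hh f
  refine (sum_le_card_nsmul _ _ (θ ^ R.card * ∑ f, h f) fun L hL => ?_).trans ?_
  · obtain ⟨hL1, hL2⟩ := mem_filter.1 hL
    refine (wlem (fun _ => 0) (g L) (fun _ => θ ^ 2) h (hg L) hh (fun _ => by positivity) L ?_
      (fun z hz => hh' z (mem_powerset.1 hL1 hz)) ?_).trans ?_
    · intro z hz z' hz' hne _ f l
      simp only [g, update_of_ne hne]
      congr 1
      refine propext (exists_congr fun b => and_congr_right fun hb => ?_)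
      rw [update_of_ne (fun e : b = z' => hb (e ▸ hz'))]
    · intro z hz f
      refine le_trans ?_ hθ
      simp only [g, update_self, sum_boole]
      have : (univ.filter fun l => ∃ b, b ∉ L ∧ r l (update f z l b)) ⊆
          univ.biUnion fun b => univ.filter fun l => r l (f b) := by
        intro l hl
        obtain ⟨b, hb1, hb2⟩ := (mem_filter.1 hl).2
        rw [update_of_ne (fun e : b = z => hb1 (e ▸ hz))] at hb2
        exact mem_biUnion.2 ⟨b, mem_univ _, mem_filter.2 ⟨mem_univ _, hb2⟩⟩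
      have h2 := (card_le_card this).trans card_biUnion_le
      refine le_trans (Nat.cast_le.2 h2) ?_
      push_cast
      simpa using sum_le_card_nsmul univ _ D fun b _ => hD (f b)
    · rw [prod_const, ← pow_mul]
      exact mul_le_mul_of_nonneg_right (pow_le_pow_of_le_one h0 h1 hL2) hS
  · rw [nsmul_eq_mul, mul_pow, mul_assoc]
    refine mul_le_mul_of_nonneg_right ?_ (by positivity)
    have := (card_filter_le R.powerset (fun L => R.card ≤ 2 * L.card)).trans
      (card_powerset R).le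
    exact_mod_cast this

lemma card_agree (I : Finset ι) (z : ι → A) :
    (univ.filter fun y : ι → A => ∀ τ ∈ I, y τ = z τ).card =
      Fintype.card A ^ (Fintype.card ι - I.card) := by
  have : (univ.filter fun y : ι → A => ∀ τ ∈ I, y τ = z τ) =
      Fintype.piFinset fun τ => if τ ∈ I then {z τ} else univ := by
    ext y
    simp only [mem_filter, mem_univ, true_and, Fintype.mem_piFinset]
    refine forall_congr' fun τ => ?_
    split_ifs with h <;> simp [h]
  rw [this, Fintype.card_piFinset]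
  simp only [apply_ite card, card_singleton, card_univ]
  rw [prod_ite, prod_const_one, one_mul, prod_const, ← card_compl]
  congr 2; ext; simp

lemma card_fix (S : Finset A) :
    (univ.filter fun σ : Perm A => ∀ x ∈ S, σ x = x).card = (Fintype.card A - S.card).factorial := by
  rw [← Fintype.card_subtype, ← card_compl, ← Fintype.card_coe, ← Fintype.card_perm]
  refine (Fintype.card_congr ((Perm.subtypeEquivSubtypePerm (· ∈ Sᶜ)).trans
    (Equiv.subtypeEquivRight (by simp)))).symm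

open Classical in
lemma card_fiber {e : ι → A} (he : Injective e) (S : Finset ι) (v : ι → A) :
    ((univ.filter fun g : Perm A => ∀ τ ∈ S, g (e τ) = v τ).card : ℝ) =
      if Set.InjOn v S then ((Fintype.card A - S.card).factorial : ℝ) else 0 := by
  split_ifs with h
  · obtain ⟨σ, hσ⟩ := Perm.exists_extending_pair (fun x : S => e x) (fun x : S => v x)
      (he.comp Subtype.val_injective) (fun a b hab => Subtype.ext (h a.2 b.2 hab))
    rw [← card_image_of_injective S he, ← card_fix]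
    norm_cast
    refine card_equiv (Equiv.mulLeft σ⁻¹) fun g => ?_
    simp only [mem_filter, mem_univ, true_and, coe_mulLeft, Perm.coe_mul, comp_apply, mem_image,
      forall_exists_index, and_imp, forall_apply_eq_imp_iff₂]
    refine forall₂_congr fun τ hτ => ?_
    rw [Perm.inv_eq_iff_eq, hσ ⟨τ, hτ⟩]
  · norm_cast
    rw [card_eq_zero, filter_eq_empty_iff]
    intro g _ hg
    exact h fun a ha b hb hab => he (g.injective (by rw [hg a ha, hg b hb, hab]))

lemma sym_prod (f g : (ι → A) → ℝ) (hf : ∀ z, 0 ≤ f z) (hg : ∀ z, 0 ≤ g z) (S S' : Finset ι)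
    (hf1 : ∀ z z', (∀ τ ∈ S', z τ = z' τ) → f z = f z')
    (hg1 : ∀ z z', (∀ τ ∈ S, z τ = z' τ) → g z = g z') (hU : ∀ τ, τ ∈ S ∨ τ ∈ S')
    (hf2 : ∀ σ : Perm ι, (∀ x ∈ (S ∩ S')ᶜ, σ x = x) → ∀ z, f (z ∘ σ) = f z)
    (hg2 : ∀ z, g z ≠ 0 → Set.InjOn z ↑(S ∩ S')) :
    (S ∩ S').card.factorial * (Fintype.card A : ℝ) ^ (Fintype.card ι - (S ∩ S').card) *
      ∑ z, f z * g z ≤ (∑ z, f z) * ∑ z, g z := by
  set I := S ∩ S'
  have e1 : ∑ p : (ι → A) × (ι → A), (if ∀ τ ∈ I, p.1 τ = p.2 τ then f p.1 * g p.2 else 0) =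
      (Fintype.card A : ℝ) ^ (Fintype.card ι - I.card) * ∑ z, f z * g z := by
    have hi : Involutive fun p : (ι → A) × (ι → A) =>
        (S'.piecewise p.1 p.2, S'.piecewise p.2 p.1) := by
      rintro ⟨a, b⟩; ext τ <;> by_cases h : τ ∈ S' <;> simp [h]
    rw [← Equiv.sum_comp hi.toPerm, Fintype.sum_prod_type, mul_sum]
    refine sum_congr rfl fun z _ => ?_
    rw [← Nat.cast_pow, ← card_agree I z, ← nsmul_eq_mul, ← sum_const, sum_filter]
    refine sum_congr rfl fun y _ => ?_
    have e : (∀ τ ∈ I, S'.piecewise z y τ = S'.piecewise y z τ) ↔ ∀ τ ∈ I, y τ = z τ :=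
      forall₂_congr fun τ hτ => by simp [(mem_inter.1 hτ).2, eq_comm]
    simp only [Involutive.coe_toPerm, e]
    split_ifs with h
    · rw [hf1 _ z fun τ hτ => by simp [hτ], hg1 _ z fun τ hτ => ?_]
      by_cases h' : τ ∈ S'
      · simp [h', h τ (mem_inter.2 ⟨hτ, h'⟩)]
      · simp [h']
    · rfl
  have e2 : ∀ σ ∈ univ.filter fun σ : Perm ι => ∀ x ∈ Iᶜ, σ x = x,
      ∑ p : (ι → A) × (ι → A), (if ∀ τ ∈ I, p.1 τ = p.2 τ then f p.1 * g p.2 else 0) =
      ∑ p : (ι → A) × (ι → A), (if ∀ τ ∈ I, p.1 (σ τ) = p.2 τ then f p.1 * g p.2 else 0) := by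
    intro σ hσ
    rw [← Equiv.sum_comp ((Equiv.arrowCongr σ.symm (Equiv.refl A)).prodCongr (Equiv.refl _))]
    refine sum_congr rfl fun p _ => ?_
    have := hf2 σ (mem_filter.1 hσ).2 p.1
    simp only [prodCongr_apply, coe_refl, Prod.map_fst, Prod.map_snd, id_eq, arrowCongr_apply,
      symm_symm, comp_apply]
    congr 2
  have e3 : I.card.factorial = (univ.filter fun σ : Perm ι => ∀ x ∈ Iᶜ, σ x = x).card := by
    rw [card_fix, card_compl, Nat.sub_sub_self (card_le_univ _)]
  rw [mul_assoc, ← e1, e3, ← nsmul_eq_mul, ← sum_const, sum_congr rfl e2, sum_comm, sum_mul_sum,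
    ← Fintype.sum_prod_type']
  refine sum_le_sum fun p _ => ?_
  rw [← sum_filter, sum_const, nsmul_eq_mul]
  by_cases h0 : g p.2 = 0
  · simp [h0]
  refine mul_le_of_le_one_left (mul_nonneg (hf _) (hg _)) ?_
  norm_cast
  rw [card_le_one]
  intro σ hσ σ' hσ'
  simp only [mem_filter, mem_univ, true_and] at hσ hσ'
  have hm : ∀ ρ : Perm ι, (∀ x ∈ Iᶜ, ρ x = x) → ∀ x ∈ I, ρ⁻¹ x ∈ I := by
    intro ρ hρ x hx
    by_contra hc
    have := hρ _ (mem_compl.2 hc)
    simp only [Perm.coe_inv, apply_symm_apply] at this hc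
    exact hc (this ▸ hx)
  rw [← inv_inj]
  ext x
  by_cases hx : x ∈ I
  · refine hg2 _ h0 (hm σ hσ.1 x hx) (hm σ' hσ'.1 x hx) ?_
    rw [← hσ.2 _ (hm σ hσ.1 x hx), ← hσ'.2 _ (hm σ' hσ'.1 x hx)]; simp
  · rw [Perm.inv_eq_iff_eq.2 (hσ.1 x (mem_compl.2 hx)).symm,
      Perm.inv_eq_iff_eq.2 (hσ'.1 x (mem_compl.2 hx)).symm]

lemma cnt_fiber {B : Type*} [Fintype B] [DecidableEq B] (m : B → ℕ) :
    (univ.filter fun ω : ι → B => ∀ j, (univ.filter fun τ => ω τ = j).card = m j).card *
      ∏ j, (m j).factorial ≤ (Fintype.card ι).factorial := by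
  set X := univ.filter fun ω : ι → B => ∀ j, (univ.filter fun τ => ω τ = j).card = m j
  rcases X.eq_empty_or_nonempty with h | ⟨ω₀, h₀⟩
  · simp [h]
  have hσ : ∀ ω : ι → B, ∃ σ : Perm ι, ω ∈ X → ω₀ ∘ σ = ω := by
    intro ω
    by_cases hω : ω ∈ X
    · refine ⟨Equiv.ofFiberEquiv (f := ω) (g := ω₀) fun j => Fintype.equivOfCardEq ?_, fun _ => ?_⟩
      · rw [Fintype.card_subtype, Fintype.card_subtype, (mem_filter.1 hω).2, (mem_filter.1 h₀).2]
      · ext τ; exact Equiv.ofFiberEquiv_map _ τ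
    · exact ⟨1, fun h => absurd h hω⟩
  choose σ hσ using hσ
  have e : ∏ j, (m j).factorial = (univ.filter fun g : Perm ι => ω₀ ∘ g = ω₀).card := by
    rw [← Fintype.card_subtype, DomMulAct.stabilizer_card]
    exact prod_congr rfl fun j _ => by rw [Fintype.card_subtype, (mem_filter.1 h₀).2]
  rw [e, ← card_product, ← Fintype.card_perm, ← card_univ]
  refine card_le_card_of_injOn (fun p => p.2 * σ p.1) (fun _ _ => mem_univ _) ?_
  rintro ⟨ω, g⟩ hp ⟨ω', g'⟩ hp' h
  simp only [coe_product, Set.mem_prod, mem_coe, mem_filter, mem_univ, true_and] at hp hp' h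
  have : ω = ω' := by
    rw [← hσ ω hp.1, ← hσ ω' hp'.1]
    conv_lhs => rw [← hp.2]
    conv_rhs => rw [← hp'.2]
    rw [comp_assoc, comp_assoc, ← Perm.coe_mul, ← Perm.coe_mul, h]
  subst this
  rw [mul_right_cancel h]

lemma multi {B : Type*} [Fintype B] [DecidableEq B] (w : ℕ → ℝ) (hw : ∀ m, 0 ≤ w m) {x : ℝ}
    (hx : 0 < x) :
    ∑ ω : ι → B, ∏ j, (((univ.filter fun τ => ω τ = j).card.factorial : ℝ) *
      w (univ.filter fun τ => ω τ = j).card) ≤ (Fintype.card ι).factorial / x ^ Fintype.card ι *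
        (∑ m ∈ range (Fintype.card ι + 1), w m * x ^ m) ^ Fintype.card B := by
  rw [← card_univ (α := B), ← prod_const, prod_univ_sum, mul_sum,
    ← sum_fiberwise_of_maps_to (s := univ) (t := Fintype.piFinset fun _ : B => range (Fintype.card ι + 1))
      (g := fun (ω : ι → B) j => (univ.filter fun τ => ω τ = j).card)
      (fun ω _ => Fintype.mem_piFinset.2 fun j => mem_range.2 (Nat.lt_succ_of_le (card_le_univ _)))]
  refine sum_le_sum fun m _ => ?_
  set X := univ.filter fun ω : ι → B => (fun j => (univ.filter fun τ => ω τ = j).card) = m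
  rw [sum_congr rfl (g := fun _ => ∏ j, ((m j).factorial : ℝ) * w (m j)) fun ω hω => by
    rw [← (mem_filter.1 hω).2], sum_const, nsmul_eq_mul]
  rcases X.eq_empty_or_nonempty with h | ⟨ω₀, h₀⟩
  · rw [h, card_empty, Nat.cast_zero, zero_mul]
    exact mul_nonneg (by positivity) (prod_nonneg fun j _ => mul_nonneg (hw _) (by positivity))
  have e : ∑ j, m j = Fintype.card ι := by
    rw [← (mem_filter.1 h₀).2, ← card_univ (α := ι)]
    exact (card_eq_sum_card_fiberwise fun _ _ => mem_univ _).symm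
  have h1 := cnt_fiber (ι := ι) m
  have h2 : (X.card : ℝ) * ∏ j, ((m j).factorial : ℝ) ≤ (Fintype.card ι).factorial := by
    have : X = univ.filter fun ω : ι → B => ∀ j, (univ.filter fun τ => ω τ = j).card = m j := by
      ext ω; simp [X, funext_iff]
    rw [this]; exact_mod_cast h1
  rw [prod_mul_distrib, prod_mul_distrib, prod_pow_eq_pow_sum, e, ← mul_assoc]
  refine (mul_le_mul_of_nonneg_right h2 (prod_nonneg fun j _ => hw _)).trans (le_of_eq ?_)
  field_simp

lemma log_fact_le (n : ℕ) (hn : 1 ≤ n) :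
    Real.log n.factorial ≤ n * Real.log n - n + 1 + Real.log n := by
  induction n, hn using Nat.le_induction with
  | base => simp
  | succ n hn ih =>
    have h0 : (0 : ℝ) < n := by exact_mod_cast hn
    rw [Nat.factorial_succ, Nat.cast_mul, Real.log_mul (by positivity) (by positivity)]
    push_cast
    have := Real.log_le_sub_one_of_pos (x := n / (n + 1)) (by positivity)
    rw [Real.log_div h0.ne' (by positivity)] at this
    have h2 : ((n : ℝ) + 1) * (Real.log n - Real.log (n + 1)) ≤ (n + 1) * (n / (n + 1) - 1) :=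
      mul_le_mul_of_nonneg_left this (by positivity)
    have h3 : ((n : ℝ) + 1) * (n / (n + 1) - 1) = -1 := by field_simp; ring
    nlinarith

lemma pow_le_exp_fact (n : ℕ) : (n : ℝ) ^ n ≤ Real.exp 1 ^ n * n.factorial := by
  have := Real.pow_div_factorial_le_exp (n : ℝ) (by positivity) n
  rw [div_le_iff₀ (by positivity)] at this
  rwa [← Real.exp_nat_mul, mul_one]

lemma fact_ratio {b z : ℕ} (h : z ≤ b) :
    ((b - z).factorial : ℝ) * b ^ z ≤ Real.exp 1 ^ z * b.factorial := by
  have h1 : b ^ z * z.factorial ≤ z ^ z * b.descFactorial z := by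
    rw [Nat.descFactorial_eq_prod_range, ← Nat.descFactorial_self, Nat.descFactorial_eq_prod_range]
    have : ∀ c : ℕ, c ^ z = ∏ i ∈ range z, c := by simp
    rw [this b, this z, ← prod_mul_distrib, ← prod_mul_distrib]
    refine prod_le_prod' fun i hi => ?_
    have := mem_range.1 hi
    obtain ⟨u, rfl⟩ := Nat.exists_eq_add_of_le this.le
    obtain ⟨v, rfl⟩ := Nat.exists_eq_add_of_le h
    rw [Nat.add_sub_cancel_left, show i + u + v - i = u + v by omega]
    nlinarith [Nat.zero_le (i * v)]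
  have h2 : (b : ℝ) ^ z ≤ Real.exp 1 ^ z * b.descFactorial z := by
    have h3 : (b : ℝ) ^ z * z.factorial ≤ z ^ z * b.descFactorial z := by exact_mod_cast h1
    have h4 := mul_le_mul_of_nonneg_right (pow_le_exp_fact z)
      (show (0 : ℝ) ≤ b.descFactorial z by positivity)
    have h5 : (0 : ℝ) < z.factorial := by positivity
    nlinarith
  rw [← Nat.factorial_mul_descFactorial h]
  push_cast
  have : (0 : ℝ) ≤ (b - z).factorial := by positivity
  nlinarith

end Vale.Agent.P162
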