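import Vale.Agent.P162.Proj

set_option linter.unusedSectionVars false
set_option linter.unusedVariables false
set_option linter.unusedSimpArgs false

open Matrix Finset

namespace Vale.Agent.P162

section pit
variable {J : Type*} [Fintype J] [DecidableEq J] {A : J → Type*} [∀ j, Fintype (A j)]
  [∀ j, DecidableEq (A j)]

def piT (N : ∀ j, Matrix (A j) (A j) ℝ) : Matrix (∀ j, A j) (∀ j, A j) ℝ :=
  of fun u v => ∏ j, N j (u j) (v j)

lemma piT_apply (N : ∀ j, Matrix (A j) (A j) ℝ) (u v : ∀ j, A j) :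
    piT N u v = ∏ j, N j (u j) (v j) := rfl

lemma piT_mul (N N' : ∀ j, Matrix (A j) (A j) ℝ) :
    piT N * piT N' = piT fun j => N j * N' j := by
  ext u w
  simp only [mul_apply, piT_apply, ← prod_mul_distrib]
  rw [prod_univ_sum, Fintype.piFinset_univ]

lemma piT_tr (N : ∀ j, Matrix (A j) (A j) ℝ) : (piT N)ᵀ = piT fun j => (N j)ᵀ := rfl

lemma piT_diag (d : ∀ j, A j → ℝ) :
    piT (fun j => diagonal (d j)) = diagonal fun u => ∏ j, d j (u j) := by
  ext u v
  by_cases h : u = v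
  · subst h; simp [piT_apply]
  · rw [diagonal_apply_ne _ h, piT_apply]
    obtain ⟨j, hj⟩ := Function.ne_iff.1 h
    exact prod_eq_zero (mem_univ j) (diagonal_apply_ne _ hj)

lemma piT_one : piT (fun j => (1 : Matrix (A j) (A j) ℝ)) = 1 := by
  have := piT_diag (A := A) fun j _ => 1
  simpa using this

lemma trace_piT (N : ∀ j, Matrix (A j) (A j) ℝ) : (piT N).trace = ∏ j, (N j).trace := by
  simp only [trace, diag_apply, piT_apply]
  rw [prod_univ_sum, Fintype.piFinset_univ]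

lemma ab_piT (y : ℝ) (N : ∀ j, Matrix (A j) (A j) ℝ) : ab y (piT N) = piT fun j => ab y (N j) := by
  have : Sp ((piT N)ᵀ * piT N) (piT fun j => eU ((N j)ᵀ * N j))
      (fun u => ∏ j, ev ((N j)ᵀ * N j) (u j)) := by
    refine ⟨?_, ?_, ?_⟩
    · rw [piT_tr, piT_mul]; simp only [(eU_orth _).1, piT_one]
    · rw [piT_tr, piT_mul]; simp only [(eU_orth _).2, piT_one]
    · rw [piT_tr, piT_mul, ← piT_diag, piT_tr, piT_mul, piT_mul]
      congr 1; ext1 j
      exact (sp_e (tmul_symm (N j))).2.2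
  rw [ab, this.fc_eq]
  simp only [← Real.finsetProd_rpow _ _ (fun j _ => ev_nonneg (N j) _)]
  rw [← piT_diag (fun j a => ev ((N j)ᵀ * N j) a ^ (y / 2)), piT_tr, piT_mul, piT_mul]
  rfl

lemma T_piT (y : ℝ) (N : ∀ j, Matrix (A j) (A j) ℝ) : T y (piT N) = ∏ j, T y (N j) := by
  rw [T, ab_piT, trace_piT]; rfl

end pit

variable {G H : Type*} [Group G] [Fintype G] [DecidableEq G] [Group H] [Fintype H] [DecidableEq H]

def cm (α : G → ℝ) : Matrix G G ℝ := of fun g h => α (h * g⁻¹)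

def conv (α β : G → ℝ) : G → ℝ := fun g => ∑ h, α h * β (g * h⁻¹)

def ex {X : Type*} [Fintype X] (α φ : X → ℝ) : ℝ := ∑ g, α g * φ g

def push {X Y : Type*} [Fintype X] [DecidableEq Y] (φ : X → Y) (α : X → ℝ) : Y → ℝ :=
  fun g => ∑ c, if φ c = g then α c else 0

def tens (B : Type*) [Fintype B] {X : Type*} (α : X → ℝ) : (B → X) → ℝ := fun c => ∏ j, α (c j)

def Rt (h : G) : Matrix G G ℝ := of fun g g' => if g' = g * h then 1 else 0

def ker (A : Matrix G G ℝ) : G → ℝ := fun g => A 1 g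

def chk (α : G → ℝ) : G → ℝ := fun g => α g⁻¹

lemma cm_apply (α : G → ℝ) (g h : G) : cm α g h = α (h * g⁻¹) := rfl

lemma cm_mulVec (α F : G → ℝ) (g : G) : (cm α *ᵥ F) g = ∑ π, α π * F (π * g) := by
  simp only [mulVec, dotProduct, cm_apply]
  exact (Fintype.sum_equiv (Equiv.mulRight g) _ _ (by simp)).symm

lemma Rt_mulVec (h : G) (F : G → ℝ) (g : G) : (Rt h *ᵥ F) g = F (g * h) := by
  simp [mulVec, dotProduct, Rt]

lemma Rt_tr (h : G) : (Rt h)ᵀ = Rt h⁻¹ := by
  ext g g'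
  simp only [Rt, transpose_apply, of_apply]
  congr 1
  rw [eq_mul_inv_iff_mul_eq]; exact propext eq_comm

lemma Rt_mul (h h' : G) : Rt h * Rt h' = Rt (h * h') :=
  mat_ext fun v => by ext g; rw [← mulVec_mulVec]; simp [Rt_mulVec, mul_assoc]

lemma Rt_one : Rt (1 : G) = 1 := mat_ext fun v => by ext g; simp [Rt_mulVec]

lemma Rt_orth (h : G) : (Rt h)ᵀ * Rt h = 1 := by rw [Rt_tr, Rt_mul, inv_mul_cancel, Rt_one]

lemma nrm_Rt (h : G) (F : G → ℝ) : nrm (Rt h *ᵥ F) = nrm F :=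
  le_antisymm (nrm_le_nrm (dot_orth (Rt_orth h) _ _).le) (nrm_le_nrm (dot_orth (Rt_orth h) _ _).ge)

lemma Rt_comm (h : G) (α : G → ℝ) : Rt h * cm α = cm α * Rt h :=
  mat_ext fun v => by
    ext g; simp only [← mulVec_mulVec, Rt_mulVec, cm_mulVec, mul_assoc]

lemma cm_tr (α : G → ℝ) : (cm α)ᵀ = cm (chk α) := by ext g h; simp [cm_apply, chk]

lemma ex_ext {X : Type*} [Fintype X] [DecidableEq X] {α β : X → ℝ} (h : ∀ φ, ex α φ = ex β φ) :
    α = β := by
  ext g
  simpa [ex] using h fun x => if x = g then 1 else 0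

lemma ex_conv (α β φ : G → ℝ) : ex (conv α β) φ = ex α fun h => ex β fun σ => φ (σ * h) := by
  simp only [ex, conv, sum_mul, mul_sum]
  rw [sum_comm]
  refine sum_congr rfl fun h _ => ?_
  exact (Fintype.sum_equiv (Equiv.mulRight h) _ _ (by simp [mul_assoc])).symm

lemma ex_push {X Y : Type*} [Fintype X] [Fintype Y] [DecidableEq Y] (φ : X → Y) (α : X → ℝ)
    (ψ : Y → ℝ) : ex (push φ α) ψ = ex α fun c => ψ (φ c) := by
  simp only [ex, push, sum_mul]
  rw [sum_comm]
  simp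

lemma ex_chk (α φ : G → ℝ) : ex (chk α) φ = ex α fun g => φ g⁻¹ :=
  Fintype.sum_equiv (Equiv.inv G) _ _ (by simp [chk])

lemma ex_comm {X Y : Type*} [Fintype X] [Fintype Y] (α : X → ℝ) (β : Y → ℝ) (φ : X → Y → ℝ) :
    ex α (fun x => ex β (φ x)) = ex β fun y => ex α fun x => φ x y := by
  simp only [ex, mul_sum]
  rw [sum_comm]
  exact sum_congr rfl fun _ _ => sum_congr rfl fun _ _ => by ring

lemma cm_mulVec_ex (α F : G → ℝ) (g : G) : (cm α *ᵥ F) g = ex α fun π => F (π * g) :=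
  cm_mulVec α F g

lemma cm_conv (α β : G → ℝ) : cm (conv α β) = cm α * cm β :=
  mat_ext fun v => by
    ext g; simp only [← mulVec_mulVec, cm_mulVec_ex, ex_conv, mul_assoc]

lemma conv_assoc (α β γ : G → ℝ) : conv (conv α β) γ = conv α (conv β γ) :=
  ex_ext fun φ => by simp only [ex_conv, mul_assoc]

lemma push_conv (φ : H →* G) (α β : H → ℝ) :
    push φ (conv α β) = conv (push φ α) (push φ β) :=
  ex_ext fun ψ => by simp only [ex_conv, ex_push, map_mul]

lemma push_chk (φ : H →* G) (α : H → ℝ) : push φ (chk α) = chk (push φ α) :=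
  ex_ext fun ψ => by simp only [ex_chk, ex_push, map_inv]

lemma cm_ker {A : Matrix G G ℝ} (h : ∀ g, Rt g * A = A * Rt g) : cm (ker A) = A := by
  ext g g'
  have := congrFun (congrFun (h g) 1) g'
  simp only [mul_apply, Rt, of_apply, one_mul, ite_mul, zero_mul, sum_ite_eq', mem_univ, if_true,
    mul_ite, mul_one, mul_zero] at this
  rw [this, cm_apply, ker, sum_eq_single (g' * g⁻¹)]
  · simp
  · intro b _ hb; rw [if_neg]; rintro rfl; simp at hb
  · simp

lemma ker_cm (α : G → ℝ) : ker (cm α) = α := by ext g; simp [ker, cm_apply]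

lemma tmul_cm (α : G → ℝ) : (cm α)ᵀ * cm α = cm (conv (chk α) α) := by rw [cm_tr, cm_conv]

lemma cm_ker_fc {α : G → ℝ} (hα : (cm α)ᵀ = cm α) (f : ℝ → ℝ) :
    cm (ker (fc f (cm α))) = fc f (cm α) :=
  cm_ker fun g => fc_comm hα (Rt_comm g α) f

lemma fc_push (φ : H →* G) {α : H → ℝ} (hα : (cm α)ᵀ = cm α) (f : ℝ → ℝ) :
    fc f (cm (push φ α)) = cm (push φ (ker (fc f (cm α)))) := by
  have hs : (cm (push φ α))ᵀ = cm (push φ α) := by
    rw [cm_tr, ← push_chk, ← ker_cm (chk α), ← cm_tr, hα, ker_cm]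
  let J : G → Matrix H G ℝ := fun g => of fun c g' => if g' = φ c * g then 1 else 0
  have hJ : ∀ g (F : G → ℝ) c, (J g *ᵥ F) c = F (φ c * g) := by
    intro g F c; simp [J, mulVec, dotProduct]
  have h1 : ∀ g (β : H → ℝ), J g * cm (push φ β) = cm β * J g := fun g β => mat_ext fun v => by
    ext c
    simp only [← mulVec_mulVec, hJ, cm_mulVec_ex, ex_push, map_mul, mul_assoc]
  refine mat_ext fun v => ?_
  ext g
  have h2 := fc_intertwine hs hα (h1 g α) f
  rw [← cm_ker_fc hα, ← h1] at h2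
  have := congrFun (congrArg (· *ᵥ v) h2) 1
  simpa only [← mulVec_mulVec, hJ, map_one, one_mul] using this

noncomputable def abk (y : ℝ) (α : G → ℝ) : G → ℝ := ker (ab y (cm α))

lemma cm_abk (y : ℝ) (α : G → ℝ) : cm (abk y α) = ab y (cm α) := by
  rw [abk, ab, tmul_cm]; exact cm_ker_fc (by rw [← tmul_cm, tmul_symm]) _

lemma ab_push (φ : H →* G) (y : ℝ) (α : H → ℝ) :
    ab y (cm (push φ α)) = cm (push φ (abk y α)) := by
  rw [ab, tmul_cm, ← push_chk, ← push_conv, fc_push φ (by rw [← tmul_cm, tmul_symm]), abk, ab,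
    tmul_cm]

lemma cm_tens (B : Type*) [Fintype B] [DecidableEq B] (α : G → ℝ) :
    cm (tens B α) = piT fun _ : B => cm α := rfl

lemma abk_tens (B : Type*) [Fintype B] [DecidableEq B] (y : ℝ) (α : G → ℝ) :
    abk y (tens B α) = tens B (abk y α) := by
  rw [abk, cm_tens, ab_piT]; rfl

lemma T_tens (B : Type*) [Fintype B] [DecidableEq B] (y : ℝ) (α : G → ℝ) :
    T y (cm (tens B α)) = T y (cm α) ^ Fintype.card B := by
  rw [cm_tens, T_piT]; simp

lemma tens_conv (B : Type*) [Fintype B] [DecidableEq B] (α β : G → ℝ) :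
    tens B (conv α β) = conv (tens B α) (tens B β) := by
  rw [← ker_cm (conv (tens B α) (tens B β)), cm_conv, cm_tens, cm_tens, piT_mul]
  simp only [← cm_conv]; rw [← cm_tens, ker_cm]

lemma tens_chk (B : Type*) [Fintype B] [DecidableEq B] (α : G → ℝ) :
    tens B (chk α) = chk (tens B α) := rfl

lemma cm_one {α : G → ℝ} (h : ∑ g, α g = 1) : cm α *ᵥ (fun _ => 1) = fun _ => 1 := by
  ext g; simp [cm_mulVec, h]

lemma sum_chk (α : G → ℝ) : ∑ g, chk α g = ∑ g, α g :=
  Fintype.sum_equiv (Equiv.inv G) _ _ (by simp [chk])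

lemma ab_one {α : G → ℝ} (h : ∑ g, α g = 1) (y : ℝ) :
    ab y (cm α) *ᵥ (fun _ => 1) = fun _ => 1 := by
  have := fc_eigvec (tmul_symm (cm α)) (v := fun _ => 1) (c := 1)
    (by rw [← mulVec_mulVec, cm_one h, cm_tr, cm_one (by rw [sum_chk, h]), one_smul])
    (fun x => x ^ (y / 2))
  simpa [ab] using this

lemma sum_abk {α : G → ℝ} (h : ∑ g, α g = 1) (y : ℝ) : ∑ g, abk y α g = 1 := by
  have := congrFun (ab_one h y) 1
  simpa [mulVec, dotProduct, abk, ker] using this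

end Vale.Agent.P162
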