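import Vale.Agent.P162.Sp2

set_option linter.unusedSectionVars false
set_option linter.unusedVariables false
set_option linter.unusedSimpArgs false

open Finset Equiv Function

namespace Vale.Agent.P162

variable {Ω A B J : Type*} [Fintype Ω] [DecidableEq Ω] [Fintype A] [DecidableEq A]
  [Fintype B] [DecidableEq B] [Fintype J] [LinearOrder J]

def av (κ : J → Ω → B) {T : ℕ} (τ : Ω → Fin T) (f : Ω → A) (z : Ω) : Finset A :=
  univ.filter fun l => ∀ y, τ y < τ z → (∃ m, κ m y = κ m z) → f y ≠ l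

def ovs (κ : J → Ω → B) (z : Ω) : Finset Ω :=
  univ.filter fun y => ∃ m m', m < m' ∧ κ m y = κ m z ∧ κ m' y = κ m' z

lemma av_update (κ : J → Ω → B) {T : ℕ} (τ : Ω → Fin T) (f : Ω → A) {z z' : Ω} (h : τ z ≤ τ z')
    (l : A) : av κ τ (update f z' l) z = av κ τ f z := by
  ext x
  simp only [av, mem_filter, mem_univ, true_and]
  refine forall₂_congr fun y hy => ?_
  rw [update_of_ne (fun e : y = z' => absurd (e ▸ hy) (not_lt.2 h))]

lemma weights [Nonempty A] (κ : J → Ω → B) {T : ℕ} (τ : Ω → Fin T) :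
    ∑ f : Ω → A, ∏ z, ind (f z ∈ av κ τ f z) / (av κ τ f z).card ≤ 1 := by
  have := wlem (A := A) (fun z => (τ z).1) (fun z (f : Ω → A) => ind (f z ∈ av κ τ f z) / (av κ τ f z).card)
    (fun _ => (Fintype.card A : ℝ)⁻¹) (fun _ => 1)
    (fun z f => div_nonneg (ind_nonneg _) (by positivity)) (fun _ => zero_le_one)
    (fun _ => by positivity) univ
    (fun z _ z' _ hne h f l => by simp only [av_update κ τ f h, update_of_ne hne])
    (fun _ _ _ _ => rfl) (fun z _ f => by
      simp only [av_update κ τ f le_rfl, update_self, ← sum_div, ind_eq_ite, sum_boole]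
      rw [inv_mul_cancel₀ (by simp), filter_mem_eq_inter, univ_inter]
      exact div_self_le_one _)
  simpa using this

lemma sum_log_le {T P : ℕ} (hT : 1 ≤ T) {a u : ℝ} (ha : 0 < a) (hu : 0 ≤ u) :
    ∑ t : Fin T, Real.log (a * (((T : ℝ) - t) / T) ^ P + u) ≤
      T * (Real.log a - P + (u / a * T ^ P + P * (1 + Real.log T) / T)) := by
  have hT0 : (0 : ℝ) < T := by exact_mod_cast hT
  have h1 : ∀ t : Fin T, Real.log (a * (((T : ℝ) - t) / T) ^ P + u) ≤
      Real.log a + P * (Real.log ((T : ℝ) - t) - Real.log T) + u / a * T ^ P := by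
    intro t
    have ht : (1 : ℝ) ≤ T - t := by
      have : (t : ℝ) + 1 ≤ T := by exact_mod_cast t.2
      linarith
    have h2 : 0 < a * (((T : ℝ) - t) / T) ^ P := by positivity
    rw [← Real.log_div (by positivity) hT0.ne', ← Real.log_pow, ← Real.log_mul ha.ne' (by positivity),
      ← sub_le_iff_le_add', ← Real.log_div (by positivity) h2.ne']
    refine (Real.log_le_sub_one_of_pos (by positivity)).trans ?_
    rw [add_div, div_self h2.ne', add_sub_cancel_left, div_le_iff₀ h2]
    have : (1 : ℝ) ≤ T ^ P * (((T : ℝ) - t) / T) ^ P := by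
      rw [← mul_pow, mul_div_cancel₀ _ hT0.ne']; exact one_le_pow₀ ht
    calc u = u * 1 := (mul_one u).symm
      _ ≤ u * (T ^ P * (((T : ℝ) - t) / T) ^ P) := by gcongr
      _ = _ := by field_simp
  refine (sum_le_sum fun t _ => h1 t).trans ?_
  have h2 : ∑ t : Fin T, Real.log ((T : ℝ) - t) = Real.log T.factorial := by
    rw [← Nat.descFactorial_self, Nat.descFactorial_eq_prod_range, Nat.cast_prod,
      Real.log_prod fun i hi => by have := mem_range.1 hi; norm_cast; omega,
      ← Fin.sum_univ_eq_sum_range (fun i => Real.log ((T - i : ℕ) : ℝ))]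
    exact sum_congr rfl fun t _ => by rw [Nat.cast_sub t.2.le]
  simp only [sum_add_distrib, ← mul_sum, sum_sub_distrib, h2, sum_const, card_univ,
    Fintype.card_fin, nsmul_eq_mul]
  have h3 := mul_le_mul_of_nonneg_left (log_fact_le T hT) (Nat.cast_nonneg (α := ℝ) P)
  have h4 : (T : ℝ) * (P * (1 + Real.log T) / T) = P * (1 + Real.log T) := by field_simp
  nlinarith

lemma elog_good [Nonempty A] (κ : J → Ω → B) (hJ : 2 ≤ Fintype.card J) {T : ℕ} (hT : 1 ≤ T)
    {f : Ω → A} (h1 : ∀ m y z, κ m y = κ m z → f y = f z → y = z)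
    (h2 : ∀ m z l, ∃ y, κ m y = κ m z ∧ f y = l) {u : ℕ} {z : Ω} (hz : (ovs κ z).card ≤ u) :
    ∑ τ : Ω → Fin T, Real.log (av κ τ f z).card ≤ (T : ℝ) ^ Fintype.card Ω *
      (Real.log (Fintype.card A) - Fintype.card J + ((u : ℝ) / Fintype.card A *
        T ^ Fintype.card J + Fintype.card J * (1 + Real.log T) / T)) := by
  set a : ℝ := (Fintype.card A : ℝ) with ha
  set P := Fintype.card J
  have ha0 : 0 < a := by rw [ha]; exact_mod_cast Fintype.card_pos
  have hT0 : (0 : ℝ) < T := by exact_mod_cast hT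
  have : Nonempty (Fin T) := ⟨⟨0, hT⟩⟩
  let s : Fin T → ℝ := fun t => ((T : ℝ) - t) / T
  have hs : ∀ t, 0 < s t := fun t => div_pos (by
    have : (t : ℝ) < T := by exact_mod_cast t.2
    linarith) hT0
  let x : Fin T → ℝ := fun t => a * s t ^ P + u
  have hx : ∀ t, 0 < x t := fun t => by have := hs t; positivity
  have hav : ∀ τ : Ω → Fin T, (0 : ℝ) < (av κ τ f z).card := fun τ => by
    norm_cast
    refine card_pos.2 ⟨f z, mem_filter.2 ⟨mem_univ _, fun y hy ⟨m, hm⟩ e => ?_⟩⟩
    exact absurd (h1 m y z hm e ▸ hy) (lt_irrefl _)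
  have k1 : ∀ l ∉ (ovs κ z).image f, ∑ τ : Ω → Fin T, (x (τ z))⁻¹ * ind (l ∈ av κ τ f z) ≤
      ∑ τ : Ω → Fin T, (x (τ z))⁻¹ * s (τ z) ^ P := by
    intro l hl
    choose y hy using fun m => h2 m z l
    have hy1 : Injective y := by
      intro m m' e
      by_contra hne
      refine hl (mem_image.2 ⟨y m, mem_filter.2 ⟨mem_univ _, ?_⟩, (hy m).2⟩)
      rcases lt_or_gt_of_ne hne with h | h
      · exact ⟨m, m', h, (hy m).1, e ▸ (hy m').1⟩
      · exact ⟨m', m, h, e ▸ (hy m').1, (hy m).1⟩
    have hy2 : z ∉ univ.image y := by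
      intro h
      obtain ⟨m, -, hm⟩ := mem_image.1 h
      obtain ⟨b, c, hbc⟩ := Fintype.exists_pair_of_one_lt_card hJ
      refine hl (mem_image.2 ⟨z, mem_filter.2 ⟨mem_univ _, ?_⟩, hm ▸ (hy m).2⟩)
      rcases lt_or_gt_of_ne hbc with h | h
      · exact ⟨_, _, h, rfl, rfl⟩
      · exact ⟨_, _, h, rfl, rfl⟩
    have hne : ∀ w ∈ univ.image y, z ≠ w := fun w hw e => hy2 (e ▸ hw)
    have := wlem (fun _ => 0) (fun w (τ : Ω → Fin T) => ind (τ z ≤ τ w) / s (τ z)) (fun _ => 1)
      (fun τ => (x (τ z))⁻¹ * s (τ z) ^ P) (fun w τ => div_nonneg (ind_nonneg _) (hs _).le)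
      (fun τ => mul_nonneg (inv_nonneg.2 (hx _).le) (pow_nonneg (hs _).le _))
      (fun _ => zero_le_one) (univ.image y)
      (fun w hw w' hw' e _ τ l => by simp only [update_of_ne e, update_of_ne (hne w' hw')])
      (fun w hw τ l => by simp only [update_of_ne (hne w hw)])
      (fun w hw τ => by
        simp only [update_of_ne (hne w hw), update_self, ← sum_div, ind_eq_ite, sum_boole]
        rw [div_le_iff₀ (hs _), filter_le_eq_Ici, Fin.card_Ici, Nat.cast_sub (τ z).2.le]
        simp only [s, Fintype.card_fin]; field_simp; rfl)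
    rw [prod_const_one, one_mul] at this
    refine le_trans (sum_le_sum fun τ _ => ?_) this
    rw [prod_div_distrib, prod_const, card_image_of_injective _ hy1, card_univ, mul_assoc,
      mul_div_cancel₀ _ (pow_pos (hs _) _).ne']
    refine mul_le_mul_of_nonneg_left ?_ (inv_nonneg.2 (hx _).le)
    by_cases h : l ∈ av κ τ f z
    · rw [ind_pos h, prod_eq_one]
      intro w hw
      obtain ⟨m, -, rfl⟩ := mem_image.1 hw
      exact ind_pos (not_lt.1 fun hlt => (mem_filter.1 h).2 _ hlt ⟨m, (hy m).1⟩ (hy m).2)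
    · rw [ind_neg h]; exact prod_nonneg fun _ _ => ind_nonneg _
  have k2 : ∑ τ : Ω → Fin T, (x (τ z))⁻¹ * (av κ τ f z).card ≤ ∑ τ : Ω → Fin T, (1 : ℝ) := by
    have e : ∀ τ : Ω → Fin T, ((av κ τ f z).card : ℝ) = ∑ l, ind (l ∈ av κ τ f z) := by
      intro τ; simp [ind_eq_ite]
    simp only [e, mul_sum]
    rw [sum_comm, ← sum_add_sum_compl ((ovs κ z).image f)]
    have b1 := sum_le_card_nsmul ((ovs κ z).image f)
      (fun l => ∑ τ : Ω → Fin T, (x (τ z))⁻¹ * ind (l ∈ av κ τ f z))
      (∑ τ : Ω → Fin T, (x (τ z))⁻¹) fun l _ => sum_le_sum fun τ _ =>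
        mul_le_of_le_one_right (inv_nonneg.2 (hx _).le) (ind_le_one _)
    have b2 := sum_le_card_nsmul ((ovs κ z).image f)ᶜ _ _ fun l hl => k1 l (mem_compl.1 hl)
    have c1 : (((ovs κ z).image f).card : ℝ) ≤ u := by exact_mod_cast card_image_le.trans hz
    have c2 : (((ovs κ z).image f)ᶜ.card : ℝ) ≤ a := by rw [ha]; exact_mod_cast card_le_univ _
    rw [nsmul_eq_mul] at b1 b2
    refine (add_le_add (b1.trans (mul_le_mul_of_nonneg_right c1 (sum_nonneg fun τ _ =>
      inv_nonneg.2 (hx _).le))) (b2.trans (mul_le_mul_of_nonneg_right c2 (sum_nonneg fun τ _ =>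
      mul_nonneg (inv_nonneg.2 (hx _).le) (pow_nonneg (hs _).le _))))).trans (le_of_eq ?_)
    rw [mul_sum, mul_sum, ← sum_add_distrib]
    refine sum_congr rfl fun τ _ => ?_
    have := (hx (τ z)).ne'
    field_simp; simp only [x]; ring
  have k3 : ∑ τ : Ω → Fin T, Real.log (av κ τ f z).card ≤ ∑ τ : Ω → Fin T, Real.log (x (τ z)) := by
    have : ∀ τ : Ω → Fin T, Real.log (av κ τ f z).card ≤
        Real.log (x (τ z)) + ((x (τ z))⁻¹ * (av κ τ f z).card - 1) := by
      intro τ
      have := Real.log_le_sub_one_of_pos (mul_pos (inv_pos.2 (hx (τ z))) (hav τ))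
      rw [Real.log_mul (inv_pos.2 (hx _)).ne' (hav τ).ne', Real.log_inv] at this
      linarith
    refine (sum_le_sum fun τ _ => this τ).trans ?_
    rw [sum_add_distrib, sum_sub_distrib]; linarith
  refine k3.trans (le_of_mul_le_mul_left ?_ hT0)
  have := sum_update (fun τ : Ω → Fin T => Real.log (x (τ z))) z
  simp only [update_self, sum_const, card_univ, Fintype.card_fun, Fintype.card_fin, nsmul_eq_mul,
    Nat.cast_pow] at this
  rw [← this, mul_left_comm]
  exact mul_le_mul_of_nonneg_left (sum_log_le hT ha0 (by positivity)) (by positivity)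

lemma count [Nonempty A] (κ : J → Ω → B) (hJ : 2 ≤ Fintype.card J) {T : ℕ} (hT : 1 ≤ T)
    (Λ : Finset (Ω → A)) (h1 : ∀ f ∈ Λ, ∀ m y z, κ m y = κ m z → f y = f z → y = z)
    (h2 : ∀ f ∈ Λ, ∀ m z l, ∃ y, κ m y = κ m z ∧ f y = l) (u : ℕ) :
    (Λ.card : ℝ) ≤ Real.exp (Fintype.card Ω *
      (Real.log (Fintype.card A) - Fintype.card J + ((u : ℝ) / Fintype.card A *
        T ^ Fintype.card J + Fintype.card J * (1 + Real.log T) / T)) +
      Fintype.card J * (univ.filter fun z => u < (ovs κ z).card).card) := by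
  set c := Real.log (Fintype.card A) - Fintype.card J + ((u : ℝ) / Fintype.card A *
        T ^ Fintype.card J + Fintype.card J * (1 + Real.log T) / T) with hc
  set b : ℝ := Fintype.card Ω * c +
    Fintype.card J * (univ.filter fun z => u < (ovs κ z).card).card with hb
  set N : ℝ := (T : ℝ) ^ Fintype.card Ω with hN
  have hT1 : (1 : ℝ) ≤ T := by exact_mod_cast hT
  have hN0 : 0 < N := by positivity
  have hav : ∀ f ∈ Λ, ∀ (τ : Ω → Fin T) z, f z ∈ av κ τ f z := fun f hf τ z =>
    mem_filter.2 ⟨mem_univ _, fun y hy ⟨m, hm⟩ e => absurd (h1 f hf m y z hm e ▸ hy) (lt_irrefl _)⟩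
  have k1 : ∀ f ∈ Λ, ∑ τ : Ω → Fin T, ∑ z, Real.log (av κ τ f z).card ≤ N * b := by
    intro f hf
    rw [sum_comm, hb, card_filter, mul_add, Nat.cast_sum, mul_sum, mul_sum, ← nsmul_eq_mul,
      ← card_univ, ← sum_const, mul_sum, ← sum_add_distrib]
    refine sum_le_sum fun z _ => ?_
    split_ifs with hz
    · refine (sum_le_card_nsmul _ _ (Real.log (Fintype.card A)) fun τ _ => Real.log_le_log
        (by exact_mod_cast card_pos.2 ⟨_, hav f hf τ z⟩) (by exact_mod_cast card_le_univ _)).trans ?_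
      rw [card_univ, Fintype.card_fun, Fintype.card_fin, nsmul_eq_mul, Nat.cast_pow, ← mul_add]
      refine mul_le_mul_of_nonneg_left ?_ hN0.le
      have := Real.log_nonneg hT1
      have : 0 ≤ (u : ℝ) / Fintype.card A * T ^ Fintype.card J +
        Fintype.card J * (1 + Real.log T) / T := by positivity
      rw [hc]; push_cast; linarith
    · simpa using elog_good κ hJ hT (h1 f hf) (h2 f hf) (not_lt.1 hz)
  have k2 : ∀ f ∈ Λ, N * Real.exp (-b) ≤
      ∑ τ : Ω → Fin T, ∏ z, ind (f z ∈ av κ τ f z) / (av κ τ f z).card := by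
    intro f hf
    have : ∀ τ : Ω → Fin T, Real.exp (-b) * (1 + b - ∑ z, Real.log (av κ τ f z).card) ≤
        ∏ z, ind (f z ∈ av κ τ f z) / (av κ τ f z).card := by
      intro τ
      have e : ∏ z, ind (f z ∈ av κ τ f z) / (av κ τ f z).card =
          Real.exp (-b) * Real.exp (b - ∑ z, Real.log (av κ τ f z).card) := by
        rw [← Real.exp_add, neg_add_eq_sub, sub_sub_cancel_left, ← sum_neg_distrib, Real.exp_sum]
        refine prod_congr rfl fun z _ => ?_
        rw [ind_pos (hav f hf τ z), Real.exp_neg,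
          Real.exp_log (by exact_mod_cast card_pos.2 ⟨_, hav f hf τ z⟩), one_div]
      rw [e]
      refine mul_le_mul_of_nonneg_left ?_ (Real.exp_pos _).le
      linarith [Real.add_one_le_exp (b - ∑ z, Real.log (av κ τ f z).card)]
    refine le_trans ?_ (sum_le_sum fun τ _ => this τ)
    rw [← mul_sum, sum_sub_distrib, sum_const, card_univ, Fintype.card_fun, Fintype.card_fin,
      nsmul_eq_mul, Nat.cast_pow, mul_comm]
    refine mul_le_mul_of_nonneg_left ?_ (Real.exp_pos _).le
    have := k1 f hf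
    linarith
  have k3 := (card_nsmul_le_sum Λ _ _ k2).trans (sum_le_univ_sum_of_nonneg fun f =>
    sum_nonneg fun τ _ => prod_nonneg fun z _ => div_nonneg (ind_nonneg _) (by positivity))
  rw [sum_comm] at k3
  have k4 := k3.trans (sum_le_card_nsmul _ _ 1 fun τ _ => weights κ τ)
  rw [card_univ, Fintype.card_fun, Fintype.card_fin, nsmul_eq_mul, nsmul_eq_mul, Nat.cast_pow,
    mul_left_comm] at k4
  have k5 := le_of_mul_le_mul_left k4 hN0
  rwa [Real.exp_neg, mul_inv_le_iff₀ (Real.exp_pos _), one_mul] at k5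

def Bad (w : ℕ) (π : A → Perm B) : ℕ :=
  (univ.filter fun p : A × B => w < (univ.filter fun i => π i p.2 = π p.1 p.2).card).card

lemma card_extend (Z : Finset (B × B)) :
    ∑ π : Perm B, ind (∀ q ∈ Z, π q.1 = q.2) ≤
      (Real.exp 1 / Fintype.card B) ^ Z.card * Fintype.card (Perm B) := by
  by_cases h : ∃ π₀ : Perm B, ∀ q ∈ Z, π₀ q.1 = q.2
  swap
  · push Not at h
    rw [sum_eq_zero fun π _ => ind_neg (by push Not; exact h π)]; positivity
  obtain ⟨π₀, h₀⟩ := h
  have e : (Z.image Prod.fst).card = Z.card := card_image_of_injOn fun q hq q' hq' e =>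
    Prod.ext e (by rw [← h₀ q hq, ← h₀ q' hq', e])
  have h1 := sum_ind_fiber (e := id) injective_id (Z.image Prod.fst) π₀
  rw [ind_pos π₀.injective.injOn, one_mul, e] at h1
  rw [sum_congr rfl fun π _ => ind_congr (q := ∀ τ ∈ Z.image Prod.fst, π (id τ) = π₀ τ) (by
    simp only [forall_mem_image, id]
    exact forall₂_congr fun q hq => by rw [h₀ q hq]), h1, Fintype.card_perm]
  rcases Z.eq_empty_or_nonempty with rfl | ⟨q, -⟩
  · simp
  have : Nonempty B := ⟨q.1⟩
  have h2 : (0 : ℝ) < Fintype.card B := by exact_mod_cast Fintype.card_pos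
  rw [div_pow, div_mul_eq_mul_div, le_div_iff₀ (by positivity)]
  exact fact_ratio (e ▸ card_le_univ _)

lemma bad_tail [Nonempty B] {w : ℕ} {θ : ℝ} (hab : Fintype.card A ≤ 2 * Fintype.card B)
    (hw : (Fintype.card B : ℝ) ^ 2 * Real.exp (4 * Real.exp (θ + 1)) ≤ 2 ^ w) :
    ∑ π : A → Perm B, Real.exp (θ * Bad w π) ≤ Real.exp 1 * Fintype.card (A → Perm B) := by
  set H : Finset (Finset A) := univ.filter fun Z => Z = ∅ ∨ w < Z.card
  have hb : (0 : ℝ) < Fintype.card B := by exact_mod_cast Fintype.card_pos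
  have k1 : ∀ π : A → Perm B, Real.exp (θ * Bad w π) ≤
      ∑ z ∈ Fintype.piFinset fun _ : B × B => H, Real.exp θ ^ (∑ q, (z q).card) *
        ∏ i, ind (∀ q ∈ univ.filter fun q => i ∈ z q, π i q.1 = q.2) := by
    intro π
    let z : B × B → Finset A := fun q =>
      if w < (univ.filter fun i => π i q.1 = q.2).card then univ.filter fun i => π i q.1 = q.2
      else ∅
    refine le_trans (le_of_eq ?_) (single_le_sum (f := fun z : B × B → Finset A =>
      Real.exp θ ^ (∑ q, (z q).card) *
        ∏ i, ind (∀ q ∈ univ.filter fun q => i ∈ z q, π i q.1 = q.2))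
      (fun z _ => mul_nonneg (by positivity) (prod_nonneg fun _ _ => ind_nonneg _)) (a := z) ?_)
    · rw [prod_eq_one, mul_one, ← Real.exp_nat_mul, mul_comm]
      · congr 3
        rw [Bad, card_eq_sum_card_fiberwise (f := fun p : A × B => (p.2, π p.1 p.2)) (t := univ)
          fun _ _ => mem_univ _]
        refine sum_congr rfl fun q _ => ?_
        obtain ⟨x, x'⟩ := q
        refine card_bij (fun p _ => p.1) ?_ ?_ ?_
        · rintro ⟨i, y⟩ hp
          simp only [mem_filter, mem_univ, true_and, Prod.mk.injEq] at hp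
          obtain ⟨h1, rfl, rfl⟩ := hp
          simp [z, h1]
        · rintro ⟨i, y⟩ hp ⟨i', y'⟩ hp' e
          simp only [mem_filter, mem_univ, true_and, Prod.mk.injEq] at hp hp' e ⊢
          exact ⟨e, hp.2.1.trans hp'.2.1.symm⟩
        · intro i hi
          simp only [z] at hi
          split_ifs at hi with h
          · obtain rfl := (mem_filter.1 hi).2
            exact ⟨(i, x), by simpa using h, rfl⟩
          · simp at hi
      · refine fun i _ => ind_pos fun q hq => ?_
        have := (mem_filter.1 hq).2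
        simp only [z] at this
        split_ifs at this with h
        · exact (mem_filter.1 this).2
        · simp at this
    · refine Fintype.mem_piFinset.2 fun q => mem_filter.2 ⟨mem_univ _, ?_⟩
      simp only [z]; split_ifs with h
      · exact Or.inr h
      · exact Or.inl rfl
  refine (sum_le_sum fun π _ => k1 π).trans ?_
  rw [sum_comm]
  set lam : ℝ := Real.exp θ * (Real.exp 1 / Fintype.card B) with hlam
  have k2 : ∀ z : B × B → Finset A, ∑ π : A → Perm B, Real.exp θ ^ (∑ q, (z q).card) *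
      ∏ i, ind (∀ q ∈ univ.filter fun q => i ∈ z q, π i q.1 = q.2) ≤
      (∏ q, lam ^ (z q).card) * Fintype.card (A → Perm B) := by
    intro z
    rw [← mul_sum, ← Fintype.piFinset_univ, ← prod_univ_sum (fun _ => univ)
      fun i (π : Perm B) => ind (∀ q ∈ univ.filter fun q => i ∈ z q, π q.1 = q.2)]
    refine (mul_le_mul_of_nonneg_left (prod_le_prod (fun _ _ => sum_nonneg fun _ _ => ind_nonneg _)
      fun i _ => card_extend _) (by positivity)).trans (le_of_eq ?_)
    rw [prod_mul_distrib, prod_pow_eq_pow_sum, prod_pow_eq_pow_sum, prod_const, Fintype.card_fun,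
      card_univ, hlam, mul_pow, mul_assoc, Nat.cast_pow]
    congr 3
    simp only [card_filter]
    rw [sum_comm]; simp
  refine (sum_le_sum fun z _ => k2 z).trans ?_
  rw [← sum_mul, ← prod_univ_sum (fun _ : B × B => H) fun _ Z => lam ^ Z.card, prod_const]
  refine mul_le_mul_of_nonneg_right ?_ (by positivity)
  have hl0 : 0 ≤ lam := by positivity
  have k3 : ∑ Z ∈ H, lam ^ Z.card ≤ 1 + ((Fintype.card B : ℝ) ^ 2)⁻¹ := by
    have e1 : ∑ Z ∈ H, lam ^ Z.card ≤
        ∑ Z : Finset A, ((if Z = ∅ then 1 else 0) + (2 ^ w)⁻¹ * (2 * lam) ^ Z.card) := by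
      rw [sum_filter]
      refine sum_le_sum fun Z _ => ?_
      by_cases h1 : Z = ∅
      · simp [h1]
      · simp only [h1, false_or, if_false, zero_add]
        split_ifs with h2
        · rw [mul_pow 2, ← mul_assoc]
          refine le_mul_of_one_le_left (pow_nonneg hl0 _) ?_
          rw [← div_eq_inv_mul, one_le_div (by positivity)]
          exact pow_le_pow_right₀ (by norm_num) h2.le
        · positivity
    refine e1.trans ?_
    rw [sum_add_distrib, ← mul_sum, sum_ite_eq', if_pos (mem_univ _)]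
    refine add_le_add_right ?_ _
    have e2 : ∑ Z : Finset A, (2 * lam) ^ Z.card = (2 * lam + 1) ^ Fintype.card A := by
      rw [← card_univ, ← sum_pow_mul_eq_add_pow, powerset_univ]; simp
    have e3 : (2 * lam + 1) ^ Fintype.card A ≤ Real.exp (4 * Real.exp (θ + 1)) := by
      refine (pow_le_pow_left₀ (by positivity) (Real.add_one_le_exp (2 * lam)) _).trans ?_
      rw [← Real.exp_nat_mul, Real.exp_le_exp, hlam, Real.exp_add]
      have : (Fintype.card A : ℝ) ≤ 2 * Fintype.card B := by exact_mod_cast hab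
      calc _ ≤ 2 * (Fintype.card B : ℝ) * (2 * (Real.exp θ * (Real.exp 1 / Fintype.card B))) := by
            gcongr
        _ = _ := by field_simp; ring
    rw [e2, ← div_eq_inv_mul, div_le_iff₀ (by positivity), ← div_eq_inv_mul,
      le_div_iff₀ (by positivity), mul_comm]
    exact le_trans (by gcongr) hw
  refine (pow_le_pow_left₀ (sum_nonneg fun _ _ => by positivity)
    (k3.trans ((add_comm _ _).le.trans (Real.add_one_le_exp _))) _).trans (le_of_eq ?_)
  rw [← Real.exp_nat_mul, card_univ, Fintype.card_prod]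
  congr 1; push_cast; field_simp

end Vale.Agent.P162
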