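import Mathlib

namespace Vale.Agent.P162

/-- With positions numbered `0, …, n-1` and `m = n/2`: the permutation of positions `g` is the
Thorp shuffle with coins `c`, i.e. for each `i < m` the cards in positions `i` and `m + i` go to
positions `2i` and `2i+1`, in this order if `c i = false` and in the other order if
`c i = true`. -/
def IsThorp (n : ℕ) (c : Fin (n / 2) → Bool) (g : Equiv.Perm (Fin n)) : Prop :=
  ∀ (x : Fin n) (i : Fin (n / 2)),
    (x.val = i.val → (g x).val = if c i then 2 * i.val + 1 else 2 * i.val) ∧
    (x.val = n / 2 + i.val → (g x).val = if c i then 2 * i.val else 2 * i.val + 1)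

/-- The law `q_n` of one Thorp shuffle: the `n/2` coins are independent and fair. -/
noncomputable def thorp (n : ℕ) (g : Equiv.Perm (Fin n)) : ℝ :=
  (Nat.card {c : Fin (n / 2) → Bool // IsThorp n c g} : ℝ) / 2 ^ (n / 2)

/-- The convolution power `q_n^{*t}`: the law after `t` independent shuffles. -/
noncomputable def law (n : ℕ) : ℕ → Equiv.Perm (Fin n) → ℝ
  | 0 => fun g => if g = 1 then 1 else 0
  | t + 1 => fun g => ∑ h : Equiv.Perm (Fin n), law n t h * thorp n (g * h⁻¹)

/-- Total variation distance from `q_n^{*t}` to the uniform law on `S_n`. -/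
noncomputable def tv (n t : ℕ) : ℝ :=
  (1 / 2) * ∑ g : Equiv.Perm (Fin n), |law n t g - 1 / (n.factorial : ℝ)|

/-- The mixing time: the least `t` with total variation distance at most `1/4`. -/
noncomputable def tmix (n : ℕ) : ℕ := sInf {t : ℕ | tv n t ≤ 1 / 4}

end Vale.Agent.P162
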