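import Vale.Agent.P162.Net

set_option linter.unusedSectionVars false
set_option linter.unusedVariables false
set_option linter.unusedSimpArgs false

open Matrix Finset Equiv Function

namespace Vale.Agent.P162

variable {D ι : Type*} [Fintype D] [DecidableEq D] [Fintype ι] [DecidableEq ι]

lemma ex_qL_congr (L : List D) : ∀ φ ψ : Perm (D → Bool) → ℝ,
    (∀ π : Perm (D → Bool), (∀ z i, i ∉ L → π z i = z i) → φ π = ψ π) →
      ex (qL L) φ = ex (qL L) ψ := by
  induction L with
  | nil => intro φ ψ h; simp only [qL, ex_pt]; exact h 1 fun _ _ _ => rfl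
  | cons t L ih =>
    intro φ ψ h
    simp only [qL, ex_conv, ex_step]
    congr 1
    refine sum_congr rfl fun c _ => ih _ _ fun π hπ => h _ fun z i hi => ?_
    simp only [List.mem_cons, not_or] at hi
    rw [Perm.mul_apply, hπ _ i hi.2, lay_apply, update_of_ne hi.1]

noncomputable def kT (L : List D) (T : Finset ι) (v v' : ι → D → Bool) : ℝ :=
  ex (qL L) fun π => ind (∀ τ ∈ T, π (v τ) = v' τ)

noncomputable def PT (t : D) (T : Finset ι) (v v' : ι → D → Bool) : ℝ :=
  (Fintype.card ((D → Bool) → Bool) : ℝ)⁻¹ *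
    ∑ c : (D → Bool) → Bool, ind (∀ τ ∈ T, (v τ t ^^ c (update (v τ) t false)) = v' τ t)

def up (t : D) (v v' : ι → D → Bool) : ι → D → Bool := fun τ => update (v τ) t (v' τ t)

lemma kT_nonneg (L : List D) (T : Finset ι) (v v' : ι → D → Bool) : 0 ≤ kT L T v v' :=
  sum_nonneg fun _ _ => mul_nonneg (qL_nonneg _ _) (ind_nonneg _)

lemma kT_cons {t : D} {L : List D} (h : t ∉ L) (T : Finset ι) (v v' : ι → D → Bool) :
    kT (t :: L) T v v' = PT t T v v' * kT L T (up t v v') v' := by
  simp only [kT, qL, ex_conv, ex_step, PT, mul_assoc, sum_mul, ← ex_mul]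
  congr 1
  refine sum_congr rfl fun c _ => ex_qL_congr L _ _ fun π hπ => ?_
  rw [← ind_and]
  refine ind_congr ⟨fun H => ?_, fun H τ hτ => ?_⟩
  · have : ∀ τ ∈ T, (v τ t ^^ c (update (v τ) t false)) = v' τ t := fun τ hτ => by
      rw [← H τ hτ, Perm.mul_apply, hπ _ t h, lay_apply, update_self]
    refine ⟨this, fun τ hτ => ?_⟩
    rw [← H τ hτ, Perm.mul_apply, lay_apply, this τ hτ]; rfl
  · rw [Perm.mul_apply, lay_apply, H.1 τ hτ]; exact H.2 τ hτ

lemma PT_insert {t : D} {T : Finset ι} {τ : ι} {v : ι → D → Bool} (v' : ι → D → Bool)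
    (h : ∀ τ' ∈ T, update (v τ') t false ≠ update (v τ) t false) :
    PT t (insert τ T) v v' = 2⁻¹ * PT t T v v' := by
  rw [PT, PT, mul_left_comm]
  congr 1
  have h2 : (Fintype.card Bool : ℝ) = 2 := by simp
  rw [eq_inv_mul_iff_mul_eq₀ (by norm_num), ← h2, ← sum_update _ (update (v τ) t false)]
  refine sum_congr rfl fun c _ => ?_
  simp only [forall_mem_insert, ind_and, update_self]
  rw [sum_congr rfl (g := fun b => ind ((v τ t ^^ b) = v' τ t) *
    ind (∀ τ ∈ T, (v τ t ^^ c (update (v τ) t false)) = v' τ t)) fun b _ => by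
      rw [ind_congr (forall₂_congr fun τ' hτ' => by rw [update_of_ne (h τ' hτ')])], ← sum_mul]
  have : ∑ b, ind ((v τ t ^^ b) = v' τ t) = 1 := by
    cases v τ t <;> cases v' τ t <;> simp [ind]
  rw [this, one_mul]

lemma PT_le (t : D) (T : Finset ι) (v v' : ι → D → Bool) :
    PT t T v v' ≤ 2⁻¹ ^ (T.image fun τ => update (v τ) t false).card := by
  by_cases h : ∃ c₀ : (D → Bool) → Bool, ∀ τ ∈ T, (v τ t ^^ c₀ (update (v τ) t false)) = v' τ t
  swap
  · rw [PT, sum_eq_zero fun c _ => ind_neg fun H => h ⟨c, H⟩, mul_zero]; positivity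
  obtain ⟨c₀, h₀⟩ := h
  set I := T.image fun τ => update (v τ) t false
  have h1 : ∑ c : (D → Bool) → Bool, ind (∀ τ ∈ T, (v τ t ^^ c (update (v τ) t false)) = v' τ t) =
      (univ.filter fun c : (D → Bool) → Bool => ∀ x ∈ I, c x = c₀ x).card := by
    simp only [ind_eq_ite, sum_boole, I, forall_mem_image]
    congr 2; ext c
    simp only [mem_filter, mem_univ, true_and]
    refine forall₂_congr fun τ hτ => ?_
    rw [← h₀ τ hτ]; simp
  rw [PT, h1, card_agree, Fintype.card_fun (α := D → Bool), Fintype.card_bool,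
    inv_mul_le_iff₀ (by positivity)]
  push_cast
  rw [pow_sub₀ _ (by norm_num) (card_le_univ I), inv_pow]

lemma PT_inj {t : D} {T : Finset ι} {v v' : ι → D → Bool} (h : PT t T v v' ≠ 0)
    (hv : Set.InjOn v T) : Set.InjOn (up t v v') T := by
  obtain ⟨c, -, hc⟩ := exists_ne_zero_of_sum_ne_zero (right_ne_zero_of_mul h)
  have H : ∀ τ ∈ T, (v τ t ^^ c (update (v τ) t false)) = v' τ t := by
    by_contra H; exact hc (ind_neg H)
  intro a ha b hb hab
  refine hv ha hb ((lay t c).injective ?_)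
  rw [lay_apply, lay_apply, H a ha, H b hb]; exact hab

lemma card_le_image {X : Type*} [DecidableEq X] (f : ι → X) (T : Finset ι) :
    T.card ≤ (T.image f).card + ((T ×ˢ T).filter fun p => p.1 ≠ p.2 ∧ f p.1 = f p.2).card := by
  induction T using Finset.induction_on with
  | empty => simp
  | insert a T ha ih =>
    have hs : ((T ×ˢ T).filter fun p => p.1 ≠ p.2 ∧ f p.1 = f p.2) ⊆
        ((insert a T ×ˢ insert a T).filter fun p => p.1 ≠ p.2 ∧ f p.1 = f p.2) :=
      filter_subset_filter _ (product_subset_product (subset_insert _ _) (subset_insert _ _))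
    rw [card_insert_of_notMem ha, image_insert]
    by_cases h : f a ∈ T.image f
    · obtain ⟨b, hb, e⟩ := mem_image.1 h
      have := card_lt_card (Finset.ssubset_iff_of_subset hs |>.2 ⟨(a, b), by
        simp [hb, e]; exact fun e => ha (e ▸ hb), by simp [ha]⟩)
      rw [insert_eq_of_mem h]; omega
    · have := card_le_card hs
      rw [card_insert_of_notMem h]; omega

def NL (L : List D) (T : Finset ι) (v : ι → D → Bool) : ℕ :=
  ((T ×ˢ T).filter fun p => ∀ i, i ∉ L → v p.1 i = v p.2 i).card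

lemma kT_le {L : List D} (hL : L.Nodup) (T : Finset ι) (v' : ι → D → Bool) :
    ∀ v : ι → D → Bool, Set.InjOn v T →
      kT L T v v' ≤ 2⁻¹ ^ (L.length * T.card) * 2 ^ NL L T v := by
  induction L with
  | nil =>
    intro v _
    simp only [kT, qL, ex_pt, List.length_nil, zero_mul, pow_zero, one_mul]
    exact (ind_le_one _).trans (one_le_pow₀ (by norm_num))
  | cons t L ih =>
    intro v hv
    obtain ⟨ht, hL'⟩ := List.nodup_cons.1 hL
    rw [kT_cons ht]
    by_cases h0 : PT t T v v' = 0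
    · rw [h0, zero_mul]; positivity
    have hu := PT_inj h0 hv
    have h1 := card_le_image (fun τ => update (v τ) t false) T
    have h2 : NL L T (up t v v') + ((T ×ˢ T).filter fun p => p.1 ≠ p.2 ∧
        update (v p.1) t false = update (v p.2) t false).card ≤ NL (t :: L) T v := by
      rw [NL, NL, ← card_union_of_disjoint]
      · refine card_le_card fun p hp => ?_
        simp only [mem_union, mem_filter, List.mem_cons, not_or] at hp ⊢
        rcases hp with ⟨a, b⟩ | ⟨a, -, b⟩
        · exact ⟨a, fun i hi => by simpa [up, update_of_ne hi.1] using b i hi.2⟩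
        · exact ⟨a, fun i hi => by simpa [update_of_ne hi.1] using congrFun b i⟩
      · rw [disjoint_filter]
        intro p hp a ⟨b, c⟩
        obtain ⟨p1, p2⟩ := mem_product.1 hp
        refine b (hu p1 p2 (funext fun i => ?_))
        by_cases hi : i = t
        · exact a i (hi ▸ ht)
        · simpa [up, update_of_ne hi] using congrFun c i
    refine (mul_le_mul (PT_le t T v v') (ih hL' _ hu) (kT_nonneg _ _ _ _) (by positivity)).trans ?_
    simp only [inv_pow, ← div_eq_inv_mul, List.length_cons]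
    rw [div_div, div_le_div_iff₀ (by positivity) (by positivity), ← pow_add, ← pow_add, ← pow_add]
    refine pow_le_pow_right₀ (by norm_num) ?_
    rw [add_mul]; omega

def pre : List D → D → Finset D
  | [], _ => ∅
  | s :: L, t => if s = t then ∅ else insert s (pre L t)

lemma pre_sub (L : List D) (t i : D) (h : i ∈ pre L t) : i ∈ L := by
  induction L with
  | nil => simp [pre] at h
  | cons s L ih =>
    simp only [pre] at h
    split_ifs at h
    · simp at h
    · rcases mem_insert.1 h with h | h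
      · simp [h]
      · simp [ih h]

def MeetAt (U : Finset D) (t : D) (x y : (D → Bool) × (D → Bool)) : Prop :=
  ∀ i, i ≠ t → if i ∈ U then x.2 i = y.2 i else x.1 i = y.1 i

lemma kT_iso {L : List D} (hL : L.Nodup) (T : Finset ι) (τ : ι) (v' : ι → D → Bool) :
    ∀ v : ι → D → Bool, (∀ τ' ∈ T, ∀ t ∈ L, ¬ MeetAt (pre L t) t (v τ, v' τ) (v τ', v' τ')) →
      kT L (insert τ T) v v' =
        2⁻¹ ^ L.length * ind (∀ i, i ∉ L → v τ i = v' τ i) * kT L T v v' := by
  induction L with
  | nil => intro v _; simp [kT, qL, ex_pt, ind_and, funext_iff]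
  | cons t L ih =>
    intro v h
    obtain ⟨ht, hL'⟩ := List.nodup_cons.1 hL
    rw [kT_cons ht, kT_cons ht, PT_insert, ih hL', List.length_cons, pow_succ,
      ind_congr (q := ∀ i, i ∉ t :: L → v τ i = v' τ i)]
    · ring
    · refine ⟨fun H i hi => ?_, fun H i hi => ?_⟩
      · simp only [List.mem_cons, not_or] at hi
        simpa [up, update_of_ne hi.1] using H i hi.2
      · by_cases e : i = t
        · simp [up, e]
        · simpa [up, update_of_ne e] using H i (by simp [e, hi])
    · intro τ' hτ' s hs H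
      have hst : t ≠ s := fun e => ht (e ▸ hs)
      refine h τ' hτ' s (List.mem_cons_of_mem _ hs) fun i hi => ?_
      have := H i hi
      simp only [pre, if_neg hst, mem_insert]
      by_cases e : i = t
      · subst e
        simpa [up, fun h => ht (pre_sub L s i h)] using this
      · simpa [up, e, update_of_ne e] using this
    · intro τ' hτ' H
      refine h τ' hτ' t (by simp) fun i hi => ?_
      simpa [pre, update_of_ne hi] using (congrFun H i).symm

open Classical in
lemma card_meet (U : Finset D) (t : D) (y : (D → Bool) × (D → Bool)) :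
    (univ.filter fun x => MeetAt U t x y).card ≤ Fintype.card (D → Bool) * 2 := by
  rw [← Fintype.card_bool, ← Fintype.card_prod, ← card_univ]
  refine card_le_card_of_injOn (fun x => (fun i => if i ∈ U then x.1 i else x.2 i,
    if t ∈ U then x.2 t else x.1 t)) (fun _ _ => mem_univ _) fun x hx x' hx' e => ?_
  have a := (mem_filter.1 hx).2
  have b := (mem_filter.1 hx').2
  simp only [Prod.mk.injEq, funext_iff] at e
  have key : ∀ i, x.1 i = x'.1 i ∧ x.2 i = x'.2 i := by
    intro i
    have e1 := e.1 i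
    have e2 := e.2
    by_cases h1 : i = t
    · subst h1
      by_cases h2 : i ∈ U <;> simp only [h2, if_true, if_false] at e1 e2 <;> exact ⟨by assumption, by assumption⟩
    · have a' := a i h1
      have b' := b i h1
      by_cases h2 : i ∈ U <;> simp only [h2, if_true, if_false] at e1 a' b'
      · exact ⟨e1, a'.trans b'.symm⟩
      · exact ⟨a'.trans b'.symm, e1⟩
  exact Prod.ext (funext fun i => (key i).1) (funext fun i => (key i).2)

lemma Zm_hs {L : List D} (hL : L.Nodup) (hL' : ∀ i, i ∈ L)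
    (h8 : 4096 * Fintype.card D ^ 8 ≤ 2 ^ Fintype.card D)
    (hι : 16 * Fintype.card ι ≤ Fintype.card D) :
    T 2 (Zm ι (qL L)) ^ 4 ≤ (Fintype.card (D → Bool) : ℝ)⁻¹ ^ Fintype.card ι := by
  classical
  have hd : L.length = Fintype.card D := by
    rw [← List.toFinset_card_of_nodup hL, eq_univ_iff_forall.2 fun i => List.mem_toFinset.2 (hL' i),
      card_univ]
  have hs : (Fintype.card (D → Bool) : ℝ) = 2 ^ Fintype.card D := by simp
  set s : ℝ := (Fintype.card (D → Bool) : ℝ) with hs'
  set d := Fintype.card D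
  set j := Fintype.card ι
  have hs0 : 0 < s := by rw [hs]; positivity
  let r : (D → Bool) × (D → Bool) → (D → Bool) × (D → Bool) → Prop :=
    fun x y => ∃ t, MeetAt (pre L t) t x y
  have e1 : ∀ v v', Zm ι (qL L) v v' = ind (Injective v) *
      ∑ A ∈ (univ : Finset ι).powerset, (-s⁻¹) ^ (univ \ A).card • kT L A v v' := by
    intro v v'
    simp only [Zm_apply, prod_Q0, ex_sum, ex_mul, smul_eq_mul]; rfl
  have k1 : ∀ v v', Zm ι (qL L) v v' ^ 2 ≤ (2 ^ j * (s⁻¹ ^ j * 2 ^ (j * j))) ^ 2 *
      (1 * if ∀ a ∈ (univ : Finset ι), ∃ b, b ≠ a ∧ r (v a, v' a) (v b, v' b) then 1 else 0) := by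
    intro v v'
    rw [e1]
    by_cases hv : Injective v
    swap
    · rw [ind_neg hv, zero_mul, sq, mul_zero]; positivity
    rw [ind_pos hv, one_mul, one_mul]
    split_ifs with hc
    · rw [mul_one, ← sq_abs]
      refine pow_le_pow_left₀ (abs_nonneg _) ((abs_sum_le_sum_abs _ _).trans
        ((sum_le_card_nsmul _ _ (s⁻¹ ^ j * 2 ^ (j * j)) fun A _ => ?_).trans (by simp [j]))) 2
      rw [smul_eq_mul, abs_mul, abs_pow, abs_neg, abs_of_nonneg (by positivity),
        abs_of_nonneg (kT_nonneg _ _ _ _)]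
      refine (mul_le_mul_of_nonneg_left (kT_le hL A v' v hv.injOn) (by positivity)).trans ?_
      rw [hd, pow_mul, inv_pow 2, ← hs, ← mul_assoc, ← pow_add, card_univ_sdiff,
        Nat.sub_add_cancel (card_le_univ A)]
      refine mul_le_mul_of_nonneg_left (pow_le_pow_right₀ (by norm_num) ?_) (by positivity)
      refine (card_filter_le _ _).trans ?_
      rw [card_product]; exact Nat.mul_le_mul (card_le_univ A) (card_le_univ A)
    · push Not at hc
      obtain ⟨τ, hτ, h⟩ := hc
      rw [van univ _ _ hτ fun A hA => ?_]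
      · simp
      · rw [kT_iso hL A τ v' v fun τ' hτ' t _ H => h τ' (ne_of_mem_erase (hA hτ')) ⟨t, H⟩,
          ind_pos fun i hi => absurd (hL' i) hi, hd, inv_pow, ← hs]; simp
  have hjd : (16 * j : ℝ) ≤ d := by exact_mod_cast hι
  have h8' : (4096 * d ^ 8 : ℝ) ≤ s := by rw [hs]; exact_mod_cast h8
  have hj0 : (0 : ℝ) ≤ j := by positivity
  set θ := √(2 * j * d / s) with hθ
  have hθ2 : θ ^ 2 = 2 * j * d / s := Real.sq_sqrt (by positivity)
  have hθ1 : θ ≤ 1 := by
    rw [hθ, Real.sqrt_le_one, div_le_one hs0]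
    rcases Nat.eq_zero_or_pos d with h | h
    · simp [h, hs0.le]
    · have h1 : (1 : ℝ) ≤ d := by exact_mod_cast h
      have h2 : (d : ℝ) ^ 2 ≤ d ^ 8 := pow_le_pow_right₀ h1 (by norm_num)
      nlinarith
  have k2 := cov (ι := ι) r (fun a b ⟨t, H⟩ => ⟨t, fun i hi => by
      have := H i hi; split_ifs at this ⊢ <;> exact this.symm⟩) (D := d * (s * 2)) (θ := θ)
    (fun y => by
      have : (univ.filter fun x => r x y) ⊆ univ.biUnion fun t =>
          univ.filter fun x => MeetAt (pre L t) t x y := fun x hx => by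
        obtain ⟨t, H⟩ := (mem_filter.1 hx).2
        exact mem_biUnion.2 ⟨t, mem_univ _, mem_filter.2 ⟨mem_univ _, H⟩⟩
      have h1 := (card_le_card this).trans (card_biUnion_le.trans
        (sum_le_card_nsmul _ _ _ fun t _ => card_meet (pre L t) t y))
      rw [card_univ, smul_eq_mul] at h1
      rw [hs']
      exact_mod_cast (le_of_eq (by congr!)).trans h1)
    (by positivity) hθ1 (by
      rw [hθ2, Fintype.card_prod, Nat.cast_mul, ← hs']; apply le_of_eq; field_simp; ring)
    univ (fun _ => 1) (fun _ => zero_le_one) (fun _ _ _ _ => rfl)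
  have k3 : T 2 (Zm ι (qL L)) ≤ (8 * 2 ^ (2 * j) * θ) ^ j := by
    rw [T_two]
    refine (sum_le_sum fun v _ => sum_le_sum fun v' _ => k1 v v').trans ?_
    rw [← Fintype.sum_prod_type', ← Equiv.sum_comp
      (Equiv.arrowProdEquivProdArrow ι (fun _ => D → Bool) fun _ => D → Bool), ← mul_sum]
    refine (mul_le_mul_of_nonneg_left ((le_of_eq (by congr!)).trans k2) (by positivity)).trans
      (le_of_eq ?_)
    rw [sum_const, card_univ, card_univ, Fintype.card_fun, Fintype.card_prod, nsmul_eq_mul]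
    push_cast
    rw [← hs', mul_pow s, inv_pow s, mul_pow (8 * _), mul_pow 8, mul_pow 2 θ, ← pow_mul,
      show (8 : ℝ) = 2 ^ 3 by norm_num, ← pow_mul]
    field_simp; ring
  refine (pow_le_pow_left₀ (T_nonneg _ _) k3 4).trans ?_
  rw [← pow_mul, mul_comm j, pow_mul]
  refine pow_le_pow_left₀ (by positivity) ?_ _
  have h1 : (2 : ℝ) ^ (16 * j) ≤ s := by rw [hs]; exact pow_le_pow_right₀ (by norm_num) hι
  have e2 : (8 * 2 ^ (2 * j) * θ) ^ 4 = 4096 * 2 ^ (8 * j) * (2 * j * d) ^ 2 / s ^ 2 := by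
    rw [show (8 * 2 ^ (2 * j) * θ) ^ 4 = 4096 * 2 ^ (8 * j) * (θ ^ 2) ^ 2 by ring, hθ2]; ring
  rw [e2, div_le_iff₀ (by positivity), sq s, inv_mul_cancel_left₀ hs0.ne']
  refine abs_le_of_sq_le_sq' ?_ hs0.le |>.2
  have h2 : 2 * j * d ≤ (d : ℝ) ^ 2 / 8 := by nlinarith [Nat.cast_nonneg (α := ℝ) d]
  calc _ ≤ (4096 * 2 ^ (8 * j) * ((d : ℝ) ^ 2 / 8) ^ 2) ^ 2 := by gcongr
    _ = 2 ^ (16 * j) * (4096 * d ^ 8) := by ring
    _ ≤ s * s := by gcongr
    _ = _ := by ring

lemma low_level {d j : ℕ} (h8 : 4096 * d ^ 8 ≤ 2 ^ d) (hj : 16 * j ≤ d) {y : ℝ} (hy : 16 ≤ y) :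
    T y (cm (qd d) * pr (Lev (Fin d → Bool) j)) ≤ (Fintype.card (Fin d → Bool) : ℝ)⁻¹ ^ j := by
  set s : ℝ := (Fintype.card (Fin d → Bool) : ℝ) with hs
  have hs1 : 1 ≤ s := by rw [hs]; exact_mod_cast Fintype.card_pos
  obtain ⟨e⟩ := Function.Embedding.nonempty_of_card_le (α := Fin j) (β := Fin d → Bool) (by
    have := Nat.lt_two_pow_self (n := d)
    simp; omega)
  have h1 := T_lev_le (y := y) (by linarith) (qd d) (univ.image e)
  have h2 := T_PS_le (y := y) (by linarith) e.injective (qd d)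
  have h3 := Zm_hs (ι := Fin j) (List.nodup_finRange d) List.mem_finRange (by simpa) (by simpa)
  rw [card_image_of_injective _ e.injective, card_univ] at h1
  rw [Fintype.card_fin] at h1 h2 h3
  have h0 := T_nonneg 2 (Zm (Fin j) (qd d))
  have h4 : T 2 (Zm (Fin j) (qd d)) ≤ 1 := (pow_le_one_iff_of_nonneg h0 (by norm_num)).1
    (h3.trans (pow_le_one₀ (by positivity) (inv_le_one_of_one_le₀ hs1)))
  have h5 : T y (Zm (Fin j) (qd d)) ≤ (s⁻¹ ^ j) ^ 2 := by
    refine (T_le_T_rpow (by norm_num) (by linarith) _ le_rfl).trans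
      ((Real.rpow_le_rpow_of_exponent_ge' h0 h4 (z := (8 : ℕ)) (by norm_num)
        (by push_cast; linarith)).trans ?_)
    rw [Real.rpow_natCast, show 8 = 4 * 2 by norm_num, pow_mul]
    exact pow_le_pow_left₀ (by positivity) h3 2
  have h6 : ((Fintype.card (Fin d → Bool)).choose j : ℝ) ≤ s ^ j := by
    rw [hs]; exact_mod_cast Nat.choose_le_pow _ _
  refine h1.trans ((mul_le_mul h6 (h2.trans h5) (T_nonneg _ _) (by positivity)).trans (le_of_eq ?_))
  rw [inv_pow]; field_simp

end Vale.Agent.P162
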