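import Vale.Agent.P162.Count

set_option linter.unusedSectionVars false
set_option linter.unusedVariables false
set_option linter.unusedSimpArgs false

open Matrix Finset Equiv Function

namespace Vale.Agent.P162

noncomputable def Lp {X : Type*} [Fintype X] (p : ℕ) (Φ : X → ℝ) : ℝ :=
  ((∑ g, Φ g ^ p) / Fintype.card X) ^ (p : ℝ)⁻¹

def HF {X : Type*} [Fintype X] (p : ℕ) (b : X → ℝ) (H : ℝ) : Prop :=
  ∀ Φ : X → ℝ, (∀ g, 0 ≤ Φ g) → ∑ g, b g * Φ g ≤ H * Lp p Φ

section
variable {X : Type*} [Fintype X] [DecidableEq X]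

lemma Lp_nonneg (p : ℕ) {Φ : X → ℝ} (h : ∀ g, 0 ≤ Φ g) : 0 ≤ Lp p Φ :=
  Real.rpow_nonneg (div_nonneg (sum_nonneg fun g _ => pow_nonneg (h g) _) (by positivity)) _

lemma Lp_pow {p : ℕ} (hp : 1 ≤ p) {Φ : X → ℝ} (h : ∀ g, 0 ≤ Φ g) :
    Lp p Φ ^ p = (∑ g, Φ g ^ p) / Fintype.card X :=
  Real.rpow_inv_natCast_pow (div_nonneg (sum_nonneg fun g _ => pow_nonneg (h g) _) (by positivity))
    (by omega)

lemma Lp_le {p : ℕ} (hp : 1 ≤ p) {Φ : X → ℝ} (h : ∀ g, 0 ≤ Φ g) {c : ℝ} (hc : 0 ≤ c)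
    (h' : (∑ g, Φ g ^ p) / Fintype.card X ≤ c ^ p) : Lp p Φ ≤ c := by
  rw [← Lp_pow hp h] at h'
  exact (pow_le_pow_iff_left₀ (Lp_nonneg p h) hc (by omega)).1 h'

lemma HF.tens {p : ℕ} (hp : 1 ≤ p) {b : X → ℝ} {H : ℝ} (h : HF p b H) (hb : ∀ g, 0 ≤ b g)
    (hH : 0 ≤ H) (m : ℕ) : HF p (tens (Fin m) b) (H ^ m) := by
  induction m with
  | zero =>
    intro Φ hΦ
    simp [P162.tens, Lp, Real.pow_rpow_inv_natCast (hΦ _) (show p ≠ 0 by omega)]
  | succ m ih =>
    intro Φ hΦ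
    rw [← (Fin.consEquiv fun _ => X).sum_comp, Fintype.sum_prod_type]
    simp only [P162.tens, Fin.prod_univ_succ, Fin.consEquiv_apply, Fin.cons_zero, Fin.cons_succ,
      mul_assoc, ← mul_sum]
    have h1 : ∀ x, ∑ r : Fin m → X, (∏ i, b (r i)) * Φ (Fin.cons x r) ≤
        H ^ m * Lp p fun r => Φ (Fin.cons x r) := fun x => ih _ fun r => hΦ _
    refine (sum_le_sum fun x _ => mul_le_mul_of_nonneg_left (h1 x) (hb x)).trans ?_
    simp only [mul_left_comm _ (H ^ m), ← mul_sum]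
    rw [pow_succ, mul_assoc]
    refine mul_le_mul_of_nonneg_left ((h _ fun x => Lp_nonneg p fun r => hΦ _).trans
      (le_of_eq ?_)) (by positivity)
    congr 1
    conv_lhs => rw [Lp]
    simp only [Lp_pow hp fun r => hΦ _]
    rw [Lp, ← (Fin.consEquiv fun _ => X).sum_comp, Fintype.sum_prod_type, ← sum_div, div_div,
      Fintype.card_fun, Fintype.card_fun, Fintype.card_fin, Fintype.card_fin, pow_succ,
      Nat.cast_mul]
    rfl

end

variable {G : Type*} [Group G] [Fintype G] [DecidableEq G]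

lemma trace_cm (α : G → ℝ) : (cm α).trace = Fintype.card G * α 1 := by
  simp [trace, cm_apply]

lemma class_hf {α : G → ℝ} (hα : (cm α)ᵀ = cm α) (f : ℝ → ℝ) {N τ : ℝ} (hN : 0 < N) (hτ : 0 < τ)
    (I : Finset G) (hI : (I.card : ℝ) ≤ N) (h0 : ∀ k, 0 ≤ f (ev (cm α) k))
    (h1 : ∀ k, f (ev (cm α) k) ≤ τ) (h2 : ∀ k, k ∉ I → f (ev (cm α) k) = 0) {p : ℕ} (hp : 1 ≤ p) :
    HF p (fun g => Fintype.card G * ker (fc f (cm α)) g ^ 2) (N * τ ^ 2 * N ^ (p : ℝ)⁻¹) := by
  set γ := ker (fc f (cm α))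
  have hM : cm γ = fc f (cm α) := cm_ker_fc hα f
  have hG : (0 : ℝ) < Fintype.card G := by exact_mod_cast Fintype.card_pos
  have hs : ∀ (φ : G → ℝ) (c : ℝ), 0 ≤ c → (∀ k, φ k ≤ c) → (∀ k, k ∉ I → φ k = 0) →
      ∑ k, φ k ≤ N * c := by
    intro φ c hc a b
    rw [← sum_subset (subset_univ I) fun k _ hk => b k hk]
    refine (sum_le_card_nsmul _ _ c fun k _ => a k).trans ?_
    rw [nsmul_eq_mul]; gcongr
  have k1 : γ 1 ≤ N * τ / Fintype.card G := by
    rw [le_div_iff₀ hG, mul_comm, ← trace_cm, hM, trace_fc]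
    exact hs _ _ hτ.le h1 h2
  have k2 : ∀ g, |γ g| ≤ γ 1 := by
    intro g
    have e : ∀ a b, cm γ a b =
        ∑ k, f (ev (cm α) k) * (eU (cm α) a k * eU (cm α) b k) := fun a b => by
      rw [hM, fc, mul_apply]
      exact sum_congr rfl fun k _ => by rw [mul_diagonal, transpose_apply]; ring
    have e1 := e 1 g
    have e2 := e 1 1
    have e3 := e g g
    simp only [cm_apply, inv_one, mul_one, mul_inv_cancel] at e1 e2 e3
    have : 2 * γ 1 = ∑ k, f (ev (cm α) k) * (eU (cm α) 1 k * eU (cm α) 1 k +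
        eU (cm α) g k * eU (cm α) g k) := by
      simp only [mul_add, sum_add_distrib, ← e2, ← e3]; ring
    have h3 : 2 * |γ g| ≤ 2 * γ 1 := by
      rw [this, e1]
      refine (mul_le_mul_of_nonneg_left (abs_sum_le_sum_abs _ _) (by norm_num)).trans ?_
      rw [mul_sum]
      refine sum_le_sum fun k _ => ?_
      rw [abs_mul, abs_of_nonneg (h0 k), mul_left_comm, abs_mul]
      refine mul_le_mul_of_nonneg_left ?_ (h0 k)
      nlinarith [sq_nonneg (|eU (cm α) 1 k| - |eU (cm α) g k|), abs_mul_abs_self (eU (cm α) 1 k),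
        abs_mul_abs_self (eU (cm α) g k)]
    linarith
  have k3 : Fintype.card G * ∑ g, γ g ^ 2 ≤ N * τ ^ 2 := by
    have : ∑ g, γ g ^ 2 = conv (chk γ) γ 1 := by
      rw [conv, ← Equiv.sum_comp (Equiv.inv G)]; simp [chk, sq]
    rw [this, ← trace_cm, ← tmul_cm, hM, fc_symm, fc_mul, trace_fc]
    refine hs _ _ (by positivity) (fun k => ?_) fun k hk => by rw [h2 k hk, mul_zero]
    rw [sq]; exact mul_le_mul (h1 k) (h1 k) (h0 k) hτ.le
  intro Φ hΦ
  have hc : 0 < N * τ ^ 2 := by positivity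
  have := subJensen (fun g => Fintype.card G * γ g ^ 2 / (N * τ ^ 2)) Φ (fun g => by positivity)
    hΦ (by rw [← sum_div, ← mul_sum, div_le_one hc]; exact k3) (p := p) (by exact_mod_cast hp)
  simp only [div_mul_eq_mul_div, ← sum_div, Real.rpow_natCast] at this
  rw [mul_assoc, ← div_le_iff₀' hc]
  refine (pow_le_pow_iff_left₀ (div_nonneg (sum_nonneg fun g _ => mul_nonneg (by positivity)
    (hΦ g)) hc.le) (mul_nonneg (by positivity) (Lp_nonneg p hΦ)) (show p ≠ 0 by omega)).1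
    (this.trans ?_)
  rw [mul_pow, Lp_pow hp hΦ, Real.rpow_inv_natCast_pow hN.le (by omega), div_le_iff₀ hc,
    ← mul_div_assoc, mul_sum, sum_div, sum_mul]
  refine sum_le_sum fun g _ => ?_
  have h4 : γ g ^ 2 ≤ (N * τ / Fintype.card G) ^ 2 := by
    rw [← sq_abs]; exact pow_le_pow_left₀ (abs_nonneg _) ((k2 g).trans k1) 2
  have := pow_nonneg (hΦ g) p
  calc _ ≤ Fintype.card G * (N * τ / Fintype.card G) ^ 2 * Φ g ^ p := by gcongr
    _ = _ := by field_simp

lemma hy_hf (q : G → ℝ) {y t : ℝ} (hy : 0 < y) (ht : T y (cm q) ≤ t) (ht1 : 1 ≤ t) {p : ℕ}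
    (hp : 1 ≤ p) {J : ℕ} (hJ : Fintype.card G ≤ 2 ^ (J + 1)) :
    HF p (fun g => Fintype.card G * abk (y * (1 + (p : ℝ)⁻¹) / 2) q g ^ 2)
      ((J + 1) ^ 2 * (2 * t) ^ 2) := by
  classical
  set A := cm (conv (chk q) q) with hA
  have hA' : (cm q)ᵀ * cm q = A := tmul_cm q
  have hs : Aᵀ = A := by rw [← hA', tmul_symm]
  have he : ∀ k, 0 ≤ ev A k := fun k => by rw [← hA']; exact ev_nonneg _ _
  have hT : ∑ k, ev A k ^ (y / 2) ≤ t := by rw [← hA', ← T_eq]; exact ht
  set η : ℝ := 1 + (p : ℝ)⁻¹ with hη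
  have hp' : (p : ℝ)⁻¹ ≤ 1 := inv_le_one_of_one_le₀ (by exact_mod_cast hp)
  have hp0 : 0 ≤ (p : ℝ)⁻¹ := by positivity
  let cls : ℝ → ℕ := fun μ => Nat.findGreatest (fun i => μ ^ (y / 2) ≤ t / 2 ^ i) J
  let f : ℕ → ℝ → ℝ := fun i μ => if cls μ = i then μ ^ (y * η / 2 / 2) else 0
  have e1 : abk (y * η / 2) q = ∑ i ∈ range (J + 1), ker (fc (f i) A) := by
    have : ab (y * η / 2) (cm q) = ∑ i ∈ range (J + 1), fc (f i) A := by
      rw [ab, hA', ← fc_sum]
      congr 1; ext μ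
      simp [f, Nat.lt_succ_of_le (Nat.findGreatest_le J), cls]
    ext g; simp [abk, this, ker, Matrix.sum_apply]
  have k1 : ∀ i ∈ range (J + 1), HF p (fun g => Fintype.card G * ker (fc (f i) A) g ^ 2)
      ((2 * t) ^ 2) := by
    intro i hi
    have h1 := class_hf hs (f i) (N := 2 ^ (i + 1)) (τ := (t / 2 ^ i) ^ (η / 2)) (by positivity)
      (by positivity) (univ.filter fun k => cls (ev A k) = i) ?_ ?_ ?_ ?_ hp
    · intro Φ hΦ
      refine (h1 Φ hΦ).trans (mul_le_mul_of_nonneg_right ?_ (Lp_nonneg p hΦ))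
      rw [← Real.rpow_natCast (_ ^ (η / 2)), ← Real.rpow_mul (by positivity), mul_right_comm,
        ← Real.rpow_one_add' (by positivity) (by linarith), ← hη,
        show η / 2 * (2 : ℕ) = η by push_cast; ring, ← Real.mul_rpow (by positivity) (by positivity),
        show (2 : ℝ) ^ (i + 1) * (t / 2 ^ i) = 2 * t by field_simp; ring, ← Real.rpow_natCast]
      exact Real.rpow_le_rpow_of_exponent_le (by linarith) (by push_cast; linarith)
    · rcases (Nat.le_of_lt_succ (mem_range.1 hi)).eq_or_lt with rfl | hlt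
      · exact_mod_cast (card_le_univ _).trans hJ
      · have h2 := card_nsmul_le_sum (univ.filter fun k => cls (ev A k) = i)
          (fun k => ev A k ^ (y / 2)) (t / 2 ^ (i + 1)) fun k hk => by
            have := (mem_filter.1 hk).2
            exact (not_le.1 (Nat.findGreatest_is_greatest (P := fun i => ev A k ^ (y / 2) ≤ t / 2 ^ i)
              (k := i + 1) (n := J) (by rw [← this]; exact Nat.lt_succ_self _) hlt)).le
        have h3 := h2.trans ((sum_le_univ_sum_of_nonneg fun k => Real.rpow_nonneg (he k) _).trans hT)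
        rw [nsmul_eq_mul, ← mul_div_assoc, div_le_iff₀ (by positivity), mul_comm t] at h3
        exact le_of_mul_le_mul_right h3 (by linarith)
    · intro k; simp only [f]; split_ifs
      · exact Real.rpow_nonneg (he k) _
      · rfl
    · intro k; simp only [f]; split_ifs with h
      · have h2 : ev A k ^ (y / 2) ≤ t / 2 ^ i := by
          rw [← h]
          refine Nat.findGreatest_spec (P := fun i => ev A k ^ (y / 2) ≤ t / 2 ^ i)
            (Nat.zero_le J) ?_
          simpa using (single_le_sum (f := fun k => ev A k ^ (y / 2))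
            (fun k _ => Real.rpow_nonneg (he k) _) (mem_univ k)).trans hT
        rw [show y * η / 2 / 2 = y / 2 * (η / 2) by ring, Real.rpow_mul (he k)]
        exact Real.rpow_le_rpow (Real.rpow_nonneg (he k) _) h2 (by positivity)
      · positivity
    · intro k hk; simp only [f]; rw [if_neg (by simpa using hk)]
  intro Φ hΦ
  have k2 : ∀ g, Fintype.card G * abk (y * η / 2) q g ^ 2 * Φ g ≤
      (J + 1) * ∑ i ∈ range (J + 1), Fintype.card G * ker (fc (f i) A) g ^ 2 * Φ g := by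
    intro g
    have := sq_sum_le_card_mul_sum_sq (s := range (J + 1)) (f := fun i => ker (fc (f i) A) g)
    rw [card_range, Nat.cast_add_one] at this
    rw [e1, Finset.sum_apply, ← sum_mul, ← mul_sum]
    have := hΦ g
    calc _ ≤ Fintype.card G * ((J + 1) * ∑ i ∈ range (J + 1), ker (fc (f i) A) g ^ 2) * Φ g := by
          gcongr
      _ = _ := by ring
  refine (sum_le_sum fun g _ => k2 g).trans ?_
  rw [← mul_sum, sum_comm]
  refine (mul_le_mul_of_nonneg_left (sum_le_card_nsmul _ _ _ fun i hi => k1 i hi Φ hΦ)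
    (by positivity)).trans (le_of_eq ?_)
  rw [card_range, nsmul_eq_mul]; push_cast; ring

lemma four_cycle {X : Type*} [Fintype X] [DecidableEq X] (g : X → G) (hg : Injective g)
    (w : X → ℝ) : (cm (push g w) * cm (push g w)).trace ≤
      Fintype.card G * ∑ x, w x ^ 2 * ind (∃ x', g x' * g x = 1) := by
  rw [← cm_conv, trace_cm]
  refine mul_le_mul_of_nonneg_left ?_ (by positivity)
  have e : conv (push g w) (push g w) 1 = ∑ x, ∑ x', w x * w x' * ind (g x' * g x = 1) := by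
    have : conv (push g w) (push g w) 1 =
        ex (conv (push g w) (push g w)) fun h => ind (h = 1) := by simp [ex, ind_eq_ite]
    rw [this]
    simp only [ex_conv, ex_push]
    simp only [ex, mul_sum, mul_assoc]
  have k : ∀ x, ∑ x', ind (g x' * g x = 1) ≤ ind (∃ x', g x' * g x = 1) := by
    intro x
    by_cases h : ∃ x', g x' * g x = 1
    · obtain ⟨x₀, h₀⟩ := h
      rw [ind_pos ⟨x₀, h₀⟩, sum_eq_single x₀ _ (by simp), ind_pos h₀]
      exact fun b _ hb => ind_neg fun h => hb (hg (mul_right_cancel (h.trans h₀.symm)))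
    · rw [ind_neg h, sum_eq_zero fun x' _ => ind_neg fun h' => h ⟨x', h'⟩]
  have k1 : ∑ x, ∑ x', w x ^ 2 * ind (g x' * g x = 1) ≤
      ∑ x, w x ^ 2 * ind (∃ x', g x' * g x = 1) := sum_le_sum fun x _ => by
    rw [← mul_sum]; exact mul_le_mul_of_nonneg_left (k x) (sq_nonneg _)
  have k2 : ∑ x, ∑ x', w x' ^ 2 * ind (g x' * g x = 1) =
      ∑ x, ∑ x', w x ^ 2 * ind (g x' * g x = 1) := by
    rw [sum_comm]
    exact sum_congr rfl fun x _ => sum_congr rfl fun x' _ => by rw [ind_congr mul_eq_one_comm]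
  have k3 : 2 * ∑ x, ∑ x', w x * w x' * ind (g x' * g x = 1) ≤
      ∑ x, ∑ x', w x ^ 2 * ind (g x' * g x = 1) + ∑ x, ∑ x', w x' ^ 2 * ind (g x' * g x = 1) := by
    simp only [mul_sum, ← sum_add_distrib]
    refine sum_le_sum fun x _ => sum_le_sum fun x' _ => ?_
    nlinarith [mul_nonneg (sq_nonneg (w x - w x')) (ind_nonneg (g x' * g x = 1))]
  linarith

end Vale.Agent.P162
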