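import Vale.Agent.P162.Dn1

set_option linter.unusedSectionVars false
set_option linter.unusedVariables false
set_option linter.unusedSimpArgs false

open Matrix Finset Equiv Function

namespace Vale.Agent.P162

variable {Ω A B : Type*} [Fintype Ω] [DecidableEq Ω] [Fintype A] [DecidableEq A]
  [Fintype B] [DecidableEq B]

def gp (e : Ω ≃ A × B) (x : (B → Perm A) × (A → Perm B)) : Perm Ω :=
  blk (e.trans (Equiv.prodComm A B)) x.2 * blk e x.1

def Valid (e : Ω ≃ A × B) (c : B → Perm A) (r : A → Perm B) : Prop :=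
  ∃ x', gp e x' * gp e (c, r) = 1

lemma gp_apply (e : Ω ≃ A × B) (c : B → Perm A) (r : A → Perm B) (i : A) (j : B) :
    gp e (c, r) (e.symm (i, j)) = e.symm (c j i, r (c j i) j) := by
  simp [gp, blk_apply]

lemma gp_inj (e : Ω ≃ A × B) : Injective (gp e) := by
  rintro ⟨c, r⟩ ⟨c', r'⟩ h
  have key : ∀ i j, c j i = c' j i ∧ r (c j i) j = r' (c' j i) j := by
    intro i j
    have := congrArg (fun g : Perm Ω => g (e.symm (i, j))) h
    simpa only [gp_apply, EmbeddingLike.apply_eq_iff_eq, Prod.mk.injEq] using this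
  have hc : c = c' := by ext j i; exact (key i j).1
  subst hc
  congr 1
  ext i j
  simpa using (key ((c j)⁻¹ i) j).2

lemma valid_one (e : Ω ≃ A × B) (c : B → Perm A) : Valid e c 1 :=
  ⟨(c⁻¹, 1), by simp [gp, ← map_mul]⟩

lemma valid_inj {e : Ω ≃ A × B} {c : B → Perm A} {r : A → Perm B} (h : Valid e c r)
    (y z : A × B) (h1 : r y.1 y.2 = r z.1 z.2) (h2 : (c y.2)⁻¹ y.1 = (c z.2)⁻¹ z.1) : y = z := by
  obtain ⟨⟨c', r'⟩, h⟩ := h
  have key : ∀ y : A × B, c' (r y.1 y.2) y.1 = (c y.2)⁻¹ y.1 ∧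
      r' (c' (r y.1 y.2) y.1) (r y.1 y.2) = y.2 := by
    intro y
    have := congrArg (fun g : Perm Ω => g (e.symm ((c y.2)⁻¹ y.1, y.2))) h
    simpa [gp_apply] using this
  have a := key y
  have b := key z
  have e2 : y.2 = z.2 := by rw [← a.2, ← b.2, a.1, b.1, h1, h2]
  refine Prod.ext ?_ e2
  rw [e2] at h2
  exact (c z.2)⁻¹.injective h2

lemma bad_le {J : Type*} [Fintype J] [LinearOrder J] (r : J → A → Perm B) (w : ℕ) :
    (univ.filter fun z : A × B => Fintype.card J ^ 2 * w <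
      (ovs (fun m (z : A × B) => r m z.1 z.2) z).card).card ≤
      ∑ q ∈ univ.filter fun q : J × J => q.1 < q.2, Bad w fun i => r q.2 i * (r q.1 i)⁻¹ := by
  refine le_trans (card_le_card (t := (univ.filter fun q : J × J => q.1 < q.2).biUnion fun q =>
    univ.filter fun z : A × B => w < (univ.filter fun y : A × B =>
      r q.1 y.1 y.2 = r q.1 z.1 z.2 ∧ r q.2 y.1 y.2 = r q.2 z.1 z.2).card) fun z hz => ?_)
    (card_biUnion_le.trans (sum_le_sum fun q _ => ?_))
  · by_contra hc
    simp only [mem_biUnion, mem_filter, mem_univ, true_and, not_exists, not_and, not_lt] at hc hz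
    refine absurd hz (not_lt.2 ?_)
    refine le_trans (card_le_card (t := (univ.filter fun q : J × J => q.1 < q.2).biUnion fun q =>
      univ.filter fun y : A × B =>
      r q.1 y.1 y.2 = r q.1 z.1 z.2 ∧ r q.2 y.1 y.2 = r q.2 z.1 z.2) fun y hy => ?_)
      (card_biUnion_le.trans ((sum_le_card_nsmul _ _ w fun q hq => hc q (mem_filter.1 hq).2).trans ?_))
    · obtain ⟨m, m', h1, h2⟩ := (mem_filter.1 hy).2
      exact mem_biUnion.2 ⟨(m, m'), by simpa, by simpa⟩
    · rw [smul_eq_mul, sq, ← Fintype.card_prod]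
      exact Nat.mul_le_mul_right _ (card_le_univ _)
  · refine card_le_card_of_injOn (fun z => (z.1, r q.1 z.1 z.2)) (fun z hz => ?_) ?_
    · simp only [coe_filter, mem_univ, true_and, Set.mem_ofPred_eq] at hz ⊢
      refine hz.trans_le (card_le_card_of_injOn (fun y => y.1) (fun y hy => ?_) ?_)
      · simp only [coe_filter, mem_univ, true_and, Set.mem_ofPred_eq] at hy ⊢
        conv_lhs => rw [← hy.1]
        simp [hy.2]
      · intro y hy y' hy' e
        simp only [coe_filter, mem_univ, true_and, Set.mem_ofPred_eq] at hy hy' e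
        refine Prod.ext e ((r q.1 y.1).injective ?_)
        rw [hy.1, ← hy'.1, e]
    · intro y _ y' _ e
      simp only [Prod.mk.injEq] at e
      refine Prod.ext e.1 ((r q.1 y.1).injective ?_)
      rw [e.2, e.1]

noncomputable def eg (a p T w : ℕ) : ℝ :=
  (((p + 1) ^ 2 * w : ℕ) : ℝ) / a * T ^ (p + 1) + (p + 1 : ℕ) * (1 + Real.log T) / T

lemma eg_nonneg (a p T w : ℕ) : 0 ≤ eg a p T w := by
  have := Real.log_natCast_nonneg T
  unfold eg; positivity

lemma nu_le [Nonempty A] (e : Ω ≃ A × B) {p T : ℕ} (hp : 1 ≤ p) (hT : 1 ≤ T) (w : ℕ)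
    (r : Fin p → A → Perm B) :
    (∑ c, ∏ m, ind (Valid e c (r m))) / Fintype.card (B → Perm A) ≤
      Real.exp (Fintype.card Ω * (eg (Fintype.card A) p T w - p)) * Real.exp ((p + 1) *
        ∑ q ∈ univ.filter fun q : Fin (p + 1) × Fin (p + 1) => q.1 < q.2,
          (Bad w fun i => Fin.cons (α := fun _ => A → Perm B) 1 r q.2 i *
            (Fin.cons (α := fun _ => A → Perm B) 1 r q.1 i)⁻¹ : ℝ)) := by
  classical
  set R : Fin (p + 1) → A → Perm B := Fin.cons 1 r
  let lab : (B → Perm A) → A × B → A := fun c z => (c z.2)⁻¹ z.1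
  have hl : Injective lab := by
    intro c c' h
    ext1 j
    rw [← _root_.inv_inj]; ext i; exact congrFun h (i, j)
  set V := univ.filter fun c => ∀ m, Valid e c (r m)
  have hV : ∀ c ∈ V, ∀ m, Valid e c (R m) := fun c hc m => by
    refine Fin.cases (valid_one e c) (fun m => (mem_filter.1 hc).2 m) m
  have h1 := count (Ω := A × B) (fun m z => R m z.1 z.2) (by simp; omega) hT (V.image lab) ?_ ?_
    (Fintype.card (Fin (p + 1)) ^ 2 * w)
  · have h2 := bad_le R w
    rw [card_image_of_injective _ hl] at h1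
    have e1 : ∑ c, ∏ m, ind (Valid e c (r m)) = V.card := by simp [V, ind_eq_ite, prod_boole]
    have ha : (0 : ℝ) < Fintype.card A := by exact_mod_cast Fintype.card_pos
    have hn : (Fintype.card Ω : ℝ) = Fintype.card A * Fintype.card B := by
      rw [Fintype.card_congr e, Fintype.card_prod, Nat.cast_mul]
    have h3 : Real.exp (Fintype.card Ω * (Real.log (Fintype.card A) - 1)) ≤
        Fintype.card (B → Perm A) := by
      rw [Fintype.card_fun, Fintype.card_perm, Nat.cast_pow, hn, mul_right_comm, mul_comm,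
        Real.exp_nat_mul]
      refine pow_le_pow_left₀ (by positivity) ?_ _
      rw [Real.exp_nat_mul, Real.exp_sub, Real.exp_log ha, div_pow, div_le_iff₀' (by positivity)]
      exact pow_le_exp_fact _
    rw [e1, div_le_iff₀ (by exact_mod_cast Fintype.card_pos)]
    refine h1.trans (le_trans ?_ (mul_le_mul_of_nonneg_left h3 (by positivity)))
    rw [← Real.exp_add, ← Real.exp_add, Real.exp_le_exp, Fintype.card_prod, Nat.cast_mul, ← hn]
    have h4 := mul_le_mul_of_nonneg_left (Nat.cast_le (α := ℝ).2 h2)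
      (show (0 : ℝ) ≤ p + 1 by positivity)
    simp only [Fintype.card_fin, eg] at h4 ⊢
    push_cast at h4 ⊢
    linarith
  · intro f hf m y z a b
    obtain ⟨c, hc, rfl⟩ := mem_image.1 hf
    exact valid_inj (hV c hc m) y z a b
  · intro f hf m z l
    obtain ⟨c, hc, rfl⟩ := mem_image.1 hf
    have : Injective fun i => lab c (i, (R m i)⁻¹ (R m z.1 z.2)) := fun i i' h =>
      congrArg Prod.fst (valid_inj (hV c hc m) (i, _) (i', _) (by simp) h)
    obtain ⟨i, hi⟩ := Finite.injective_iff_surjective.1 this l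
    exact ⟨_, by simp, hi⟩

lemma nu_Lp [Nonempty A] [Nonempty B] (e : Ω ≃ A × B) {p T w : ℕ} (hp : 1 ≤ p) (hT : 1 ≤ T)
    (hab : Fintype.card A ≤ 2 * Fintype.card B)
    (hw : (Fintype.card B : ℝ) ^ 2 * Real.exp (4 * Real.exp ((p + 1) ^ 4 + 1)) ≤ 2 ^ w) :
    Lp p (fun r : Fin p → A → Perm B =>
      (∑ c, ∏ m, ind (Valid e c (r m))) / Fintype.card (B → Perm A)) ≤
      Real.exp (Fintype.card Ω * (eg (Fintype.card A) p T w - p)) * (3 * (p + 1) ^ 2) := by
  have h0 : ∀ r : Fin p → A → Perm B,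
      0 ≤ (∑ c, ∏ m, ind (Valid e c (r m))) / Fintype.card (B → Perm A) := fun r =>
    div_nonneg (sum_nonneg fun _ _ => prod_nonneg fun _ _ => ind_nonneg _) (by positivity)
  refine Lp_le hp h0 (by positivity) ?_
  set Q := univ.filter fun q : Fin (p + 1) × Fin (p + 1) => q.1 < q.2
  have hQ : (Q.card : ℝ) ≤ (p + 1) ^ 2 := by
    have := card_le_univ Q
    rw [Fintype.card_prod, Fintype.card_fin, ← sq] at this
    exact_mod_cast this
  set F : (Fin p → A → Perm B) → Fin (p + 1) × Fin (p + 1) → ℝ := fun r q =>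
    (Bad w fun i => Fin.cons (α := fun _ => A → Perm B) 1 r q.2 i *
      (Fin.cons (α := fun _ => A → Perm B) 1 r q.1 i)⁻¹ : ℝ) with hF
  have k1 : ∀ r, Real.exp ((p + 1) * ∑ q ∈ Q, F r q) ^ p ≤
      ∑ q ∈ Q, Real.exp ((p + 1) ^ 4 * F r q) := by
    intro r
    obtain ⟨q, hq, hmax⟩ := exists_max_image Q (F r) ⟨(0, Fin.last p), by
      simp [Q, Fin.pos_iff_ne_zero]; omega⟩
    refine le_trans ?_ (single_le_sum (f := fun q => Real.exp ((p + 1) ^ 4 * F r q))
      (fun _ _ => (Real.exp_pos _).le) hq)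
    rw [← Real.exp_nat_mul, Real.exp_le_exp]
    have h1 := sum_le_card_nsmul _ _ _ hmax
    rw [nsmul_eq_mul] at h1
    have h2 : 0 ≤ F r q := Nat.cast_nonneg _
    have h3 : 0 ≤ ∑ q ∈ Q, F r q := sum_nonneg fun _ _ => Nat.cast_nonneg _
    have h4 := h1.trans (mul_le_mul_of_nonneg_right hQ h2)
    generalize ∑ q ∈ Q, F r q = S at h3 h4 ⊢
    generalize F r q = x at h2 h4 ⊢
    calc _ ≤ (p + 1) * ((p + 1) * ((p + 1) ^ 2 * x)) := by gcongr; linarith
      _ = _ := by ring
  have k2 : ∀ q ∈ Q, ∑ r, Real.exp ((p + 1) ^ 4 * F r q) ≤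
      3 * Fintype.card (Fin p → A → Perm B) := by
    rintro ⟨m, m'⟩ hq
    have hlt : m < m' := (mem_filter.1 hq).2
    obtain ⟨i, rfl⟩ := Fin.exists_succ_eq.2 (Fin.pos_iff_ne_zero.1 (lt_of_le_of_lt (Fin.zero_le _) hlt))
    have hR : (0 : ℝ) < Fintype.card (A → Perm B) := by exact_mod_cast Fintype.card_pos
    refine le_of_mul_le_mul_left ?_ hR
    rw [← sum_update _ i]
    refine (sum_le_card_nsmul _ _ (3 * (Fintype.card (A → Perm B) : ℝ)) fun r _ => ?_).trans
      (le_of_eq ?_)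
    swap
    · rw [card_univ, nsmul_eq_mul]; ring
    simp only [hF, Fin.cons_update, update_self, update_of_ne hlt.ne]
    refine le_trans (le_of_eq ?_) ((bad_tail (A := A) (B := B) hab hw).trans (mul_le_mul_of_nonneg_right
      (Real.exp_one_lt_d9.le.trans (by norm_num)) hR.le))
    exact Fintype.sum_equiv (Equiv.mulRight (Fin.cons (α := fun _ => A → Perm B) 1 r m)⁻¹) _ _
      fun _ => rfl
  have hX : (0 : ℝ) < Fintype.card (Fin p → A → Perm B) := by exact_mod_cast Fintype.card_pos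
  rw [div_le_iff₀ hX]
  refine (sum_le_sum fun r _ => pow_le_pow_left₀ (h0 r) (nu_le e hp hT w r) p).trans ?_
  simp only [mul_pow (Real.exp _), ← mul_sum, mul_assoc]
  refine mul_le_mul_of_nonneg_left ((sum_le_sum fun r _ => k1 r).trans ?_) (by positivity)
  rw [sum_comm]
  refine (sum_le_card_nsmul _ _ _ k2).trans ?_
  rw [nsmul_eq_mul, ← mul_assoc]
  refine mul_le_mul_of_nonneg_right (le_trans (by linarith) (le_self_pow₀ ?_ (by omega))) hX.le
  nlinarith [Nat.cast_nonneg (α := ℝ) p]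

theorem dense [Nonempty A] [Nonempty B] (e : Ω ≃ A × B) (q₁ : Perm A → ℝ) (q₂ : Perm B → ℝ)
    {y : ℝ} (hy : 4 ≤ y) (h₁ : T y (cm q₁) ≤ 3 / 2) (h₂ : T y (cm (chk q₂)) ≤ 3 / 2)
    {p T' w J : ℕ} (hp : 1 ≤ p) (hT : 1 ≤ T') (hab : Fintype.card A ≤ 2 * Fintype.card B)
    (hw : (Fintype.card B : ℝ) ^ 2 * Real.exp (4 * Real.exp ((p + 1) ^ 4 + 1)) ≤ 2 ^ w)
    (hC : Fintype.card (B → Perm A) ≤ 2 ^ (J + 1)) (hR : Fintype.card (A → Perm B) ≤ 2 ^ (J + 1)) :
    T (y * (1 + (p : ℝ)⁻¹)) (cm (push (blk e) (tens B q₁)) *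
      cm (push (blk (e.trans (Equiv.prodComm A B))) (tens A q₂))) ≤
      (3 * Fintype.card Ω) * (3 * (p + 1) ^ 2) * ((J + 1) ^ 2 * (2 * (3 / 2) ^ Fintype.card B) ^ 2) *
        ((J + 1) ^ 2 * (2 * (3 / 2) ^ Fintype.card A) ^ 2) *
        Real.exp (Fintype.card Ω * eg (Fintype.card A) p T' w) := by
  set η : ℝ := 1 + (p : ℝ)⁻¹ with hη
  have hη1 : 1 ≤ η := by rw [hη]; linarith [inv_nonneg.2 (Nat.cast_nonneg (α := ℝ) p)]
  have hy' : 0 < y * η / 4 := by positivity
  have H₁ := hy_hf (tens B q₁) (y := y) (t := (3 / 2) ^ Fintype.card B) (by linarith)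
    (by rw [T_tens]; exact pow_le_pow_left₀ (T_nonneg _ _) h₁ _) (one_le_pow₀ (by norm_num)) hp hC
  have H₂ := hy_hf (tens A (chk q₂)) (y := y) (t := (3 / 2) ^ Fintype.card A) (by linarith)
    (by rw [T_tens]; exact pow_le_pow_left₀ (T_nonneg _ _) h₂ _) (one_le_pow₀ (by norm_num)) hp hR
  rw [← hη] at H₁ H₂
  set α := abk (y * η / 2) (tens B q₁) with hα
  set β := abk (y * η / 2) (tens A (chk q₂)) with hβ
  set Hα : ℝ := (J + 1) ^ 2 * (2 * (3 / 2) ^ Fintype.card B) ^ 2
  set Hβ : ℝ := (J + 1) ^ 2 * (2 * (3 / 2) ^ Fintype.card A) ^ 2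
  have hHα : 0 ≤ Hα := by positivity
  have hHβ : 0 ≤ Hβ := by positivity
  set X := cm (push (blk e) (tens B q₁))
  set Y := cm (push (blk (e.trans (Equiv.prodComm A B))) (tens A q₂))
  have e1 : cm (push (gp e) fun x => α x.1 * β x.2) = ab (y * η / 2) X * ab (y * η / 2) Yᵀ := by
    rw [ab_push, cm_tr, ← push_chk, ← tens_chk, ab_push, ← cm_conv]
    congr 1
    refine ex_ext fun φ => ?_
    simp only [ex_push, ex_conv]
    simp only [ex, Fintype.sum_prod_type, mul_sum, mul_assoc, gp]; rfl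
  have k1 : T (y * η) (X * Y) ≤ Fintype.card (Perm Ω) *
      ∑ x : (B → Perm A) × (A → Perm B), (α x.1 * β x.2) ^ 2 * ind (Valid e x.1 x.2) := by
    refine (alt (q := 4) (by norm_num) (by nlinarith) X Y).trans
      (le_trans (le_of_eq ?_) (four_cycle (gp e) (gp_inj e) _))
    rw [e1, show (4 : ℝ) = 2 * (2 : ℕ) by norm_num, T_nat, transpose_mul, ab_symm, ab_symm, sq,
      show y * η / 2 = y * η / 4 + y * η / 4 by ring, ← ab_mul hy' hy', ← ab_mul hy' hy',
      show (2 : ℝ) * (2 : ℕ) = 4 by norm_num]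
    simp only [Matrix.mul_assoc]
    rw [trace_mul_comm]
    simp only [Matrix.mul_assoc]
  set C : ℝ := (Fintype.card (B → Perm A) : ℝ) with hCd
  set R : ℝ := (Fintype.card (A → Perm B) : ℝ) with hRd
  have hC0 : 0 < C := by rw [hCd]; exact_mod_cast Fintype.card_pos
  have hR0 : 0 < R := by rw [hRd]; exact_mod_cast Fintype.card_pos
  set ν : ℝ := Real.exp (Fintype.card Ω * (eg (Fintype.card A) p T' w - 1)) with hν
  have k2 : C * R * ∑ x : (B → Perm A) × (A → Perm B),
      (α x.1 * β x.2) ^ 2 * ind (Valid e x.1 x.2) ≤ Hα * (Hβ * (ν * (3 * (p + 1) ^ 2))) := by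
    have h0 : ∀ c, 0 ≤ ∑ r, R * β r ^ 2 * ind (Valid e c r) := fun c =>
      sum_nonneg fun r _ => mul_nonneg (by positivity) (ind_nonneg _)
    refine le_trans (le_of_eq ?_) ((H₁ _ h0).trans (mul_le_mul_of_nonneg_left
      (Lp_le hp h0 (by positivity) ?_) hHα))
    · simp only [Fintype.sum_prod_type, mul_sum]
      exact sum_congr rfl fun _ _ => sum_congr rfl fun _ _ => by ring
    · have e2 : (∑ c, (∑ r, R * β r ^ 2 * ind (Valid e c r)) ^ p) / C =
          ∑ r : Fin p → A → Perm B, tens (Fin p) (fun r => R * β r ^ 2) r *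
            ((∑ c, ∏ m, ind (Valid e c (r m))) / C) := by
        simp only [← mul_div_assoc, ← sum_div, mul_sum]
        rw [sum_comm]
        congr 1
        refine sum_congr rfl fun c _ => ?_
        rw [← Fin.prod_const, prod_univ_sum, Fintype.piFinset_univ]
        simp only [tens, prod_mul_distrib]
      rw [e2, mul_pow]
      refine (H₂.tens hp (fun r => by positivity) hHβ p _ fun r => div_nonneg (sum_nonneg fun _ _ =>
        prod_nonneg fun _ _ => ind_nonneg _) hC0.le).trans (mul_le_mul_of_nonneg_left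
        ((nu_Lp e hp hT hab hw).trans ?_) (by positivity))
      rw [mul_pow, hν, ← Real.exp_nat_mul]
      have hp1 : (1 : ℝ) ≤ p := by exact_mod_cast hp
      refine mul_le_mul (Real.exp_le_exp.2 ?_) (le_self_pow₀ (by nlinarith) (by omega))
        (by positivity) (by positivity)
      have := mul_nonneg (mul_nonneg (Nat.cast_nonneg (α := ℝ) (Fintype.card Ω))
        (eg_nonneg (Fintype.card A) p T' w)) (sub_nonneg.2 hp1)
      nlinarith
  have k3 : (Fintype.card (Perm Ω) : ℝ) ≤
      3 * Fintype.card Ω * Real.exp (Fintype.card Ω) * (C * R) := by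
    have ha : (0 : ℝ) < Fintype.card A := by exact_mod_cast Fintype.card_pos
    have hb : (0 : ℝ) < Fintype.card B := by exact_mod_cast Fintype.card_pos
    have hn' : Fintype.card Ω = Fintype.card A * Fintype.card B := by
      rw [Fintype.card_congr e, Fintype.card_prod]
    have hn : (Fintype.card Ω : ℝ) = Fintype.card A * Fintype.card B := by rw [hn', Nat.cast_mul]
    have hn0 : (0 : ℝ) < Fintype.card Ω := by rw [hn]; positivity
    have a1 := log_fact_le (Fintype.card Ω) (by exact_mod_cast hn0)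
    have a2 : ∀ m : ℕ, 0 < m → m * Real.log m - m ≤ Real.log m.factorial := by
      intro m hm
      have := Real.log_le_log (by positivity) (pow_le_exp_fact m)
      rw [Real.log_mul (by positivity) (by positivity), Real.log_pow, Real.log_pow,
        Real.log_exp] at this
      linarith
    have a3 := mul_le_mul_of_nonneg_left (a2 (Fintype.card A) Fintype.card_pos) hb.le
    have a4 := mul_le_mul_of_nonneg_left (a2 (Fintype.card B) Fintype.card_pos) ha.le
    have a5 : 1 ≤ Real.log 3 := by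
      rw [Real.le_log_iff_exp_le (by norm_num)]; exact Real.exp_one_lt_d9.le.trans (by norm_num)
    rw [← Real.log_le_log_iff (by exact_mod_cast Fintype.card_pos) (by positivity),
      Real.log_mul (by positivity) (by positivity), Real.log_mul (by positivity) (by positivity),
      Real.log_mul (by positivity) (by positivity), Real.log_mul hC0.ne' hR0.ne', Real.log_exp,
      hCd, hRd, Fintype.card_perm, Fintype.card_fun, Fintype.card_fun, Fintype.card_perm,
      Fintype.card_perm, Nat.cast_pow, Nat.cast_pow, Real.log_pow, Real.log_pow]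
    have a6 : Real.log (Fintype.card Ω) = Real.log (Fintype.card A) + Real.log (Fintype.card B) := by
      rw [hn, Real.log_mul ha.ne' hb.ne']
    rw [a6, hn] at a1 ⊢
    nlinarith
  have hS : 0 ≤ ∑ x : (B → Perm A) × (A → Perm B), (α x.1 * β x.2) ^ 2 * ind (Valid e x.1 x.2) :=
    sum_nonneg fun _ _ => mul_nonneg (sq_nonneg _) (ind_nonneg _)
  refine k1.trans ((mul_le_mul_of_nonneg_right k3 hS).trans ?_)
  rw [mul_assoc]
  refine (mul_le_mul_of_nonneg_left k2 (by positivity)).trans (le_of_eq ?_)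
  rw [hν, mul_sub, Real.exp_sub, mul_one]
  field_simp

end Vale.Agent.P162
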