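import Vale.Agent.P162.Base
import Vale.Agent.P162.Defs

set_option linter.unusedSectionVars false
set_option linter.unusedVariables false
set_option linter.unusedSimpArgs false

open Matrix Finset Equiv Function

namespace Vale.Agent.P162

section
variable {G : Type*} [Group G] [Fintype G] [DecidableEq G]

noncomputable def cpow (α : G → ℝ) : ℕ → G → ℝ
  | 0 => pt 1
  | t + 1 => conv (cpow α t) α

lemma cpow_add (α : G → ℝ) (s t : ℕ) : cpow α (s + t) = conv (cpow α s) (cpow α t) := by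
  induction t with
  | zero => simp [cpow, conv_pt_one]
  | succ t ih => rw [← add_assoc, cpow, ih, cpow, conv_assoc]

lemma cpow_mul (α : G → ℝ) (s t : ℕ) : cpow α (s * t) = cpow (cpow α s) t := by
  induction t with
  | zero => rfl
  | succ t ih => rw [mul_add_one, cpow_add, ih, cpow]

lemma cm_cpow (α : G → ℝ) (t : ℕ) : cm (cpow α t) = cm α ^ t := by
  induction t with
  | zero => ext g h; simp [cpow, cm_apply, pt, one_apply, mul_inv_eq_one, eq_comm]
  | succ t ih => rw [cpow, cm_conv, ih, pow_succ]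

lemma sum_cpow {α : G → ℝ} (h : ∑ g, α g = 1) (t : ℕ) : ∑ g, cpow α t g = 1 := by
  induction t with
  | zero => simp [cpow, pt]
  | succ t ih => rw [cpow, sum_conv, ih, h, one_mul]

lemma supp_cpow {α : G → ℝ} {S : Finset G} (h : ∀ g ∉ S, α g = 0) (t : ℕ) :
    ∃ S' : Finset G, S'.card ≤ S.card ^ t ∧ ∀ g ∉ S', cpow α t g = 0 := by
  induction t with
  | zero => exact ⟨{1}, by simp, fun g hg => by simpa [cpow, pt] using hg⟩
  | succ t ih =>
    obtain ⟨S', h1, h2⟩ := ih
    refine ⟨image₂ (· * ·) S S', (card_image₂_le _ _ _).trans ?_, fun g hg => ?_⟩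
    · rw [pow_succ']; exact Nat.mul_le_mul_left _ h1
    · refine sum_eq_zero fun x _ => ?_
      by_cases hx : x ∈ S'
      · rw [h _ fun e => hg (mem_image₂.2 ⟨_, e, x, hx, by simp⟩), mul_zero]
      · rw [h2 x hx, zero_mul]

lemma tv_lower {μ : G → ℝ} (h : ∑ g, μ g = 1) {S : Finset G} (hS : ∀ g ∉ S, μ g = 0)
    (ht : (1 / 2) * ∑ g, |μ g - 1 / (Fintype.card G : ℝ)| ≤ 1 / 4) :
    3 * Fintype.card G ≤ 4 * S.card := by
  have h0 : (0 : ℝ) < Fintype.card G := by positivity
  have h1 : ∑ g, (μ g + 1 / (Fintype.card G : ℝ) - if g ∈ S then 2 / (Fintype.card G : ℝ) else 0)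
      - 1 ≤ ∑ g, |μ g - 1 / (Fintype.card G : ℝ)| - 1 := by
    refine sub_le_sub_right (sum_le_sum fun g _ => ?_) _
    split_ifs with hg
    · refine le_trans (le_of_eq (by ring)) (le_abs_self _)
    · rw [hS g hg]; refine le_trans (le_of_eq (by ring)) (neg_le_abs _)
  simp only [sum_sub_distrib, sum_add_distrib, h, sum_const, card_univ, nsmul_eq_mul,
    sum_ite_mem, univ_inter, mul_one_div_cancel h0.ne'] at h1
  have h2 : 3 / 2 ≤ S.card * (2 / (Fintype.card G : ℝ)) := by linarith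
  rw [← mul_div_assoc, le_div_iff₀ h0] at h2
  have : (3 * Fintype.card G : ℝ) ≤ 4 * S.card := by linarith
  exact_mod_cast this
end

lemma tv_upper {Ω : Type*} [Fintype Ω] [DecidableEq Ω] {q : Perm Ω → ℝ} (h : ∑ g, q g = 1)
    {y : ℝ} (hy : 0 < y) (hq : T y (cm q * pr (orth (Ws Ω 1))) ≤ 1 / 2) {j : ℕ}
    (hj : 2 * y ≤ 2 ^ (j + 1)) :
    (1 / 2) * ∑ g, |cpow q (2 ^ j) g - 1 / (Fintype.card (Perm Ω) : ℝ)| ≤ 1 / 4 := by
  have h0 : (0 : ℝ) < Fintype.card (Perm Ω) := by positivity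
  have h1 := (T_pow_le _ j).trans (T_le_T_rpow hy (by linarith) _ hq)
  have h2 : ((1 : ℝ) / 2) ^ (2 ^ (j + 1) / y) ≤ (1 / 2) ^ (2 : ℝ) :=
    Real.rpow_le_rpow_of_exponent_ge (by norm_num) (by norm_num) ((le_div_iff₀ hy).2 hj)
  have h3 : Commute (cm q) (pr (orth (Ws Ω 1))) :=
    (cm_pr_comm (fun α => inv_oWs _ _) q).symm
  have h4 : pr (orth (Ws Ω 1)) ^ 2 ^ j = pr (orth (Ws Ω 1)) :=
    IsIdempotentElem.pow_eq (a := pr (orth (Ws Ω 1))) (pr_idem _) (by positivity)
  rw [h3.mul_pow, h4, ← cm_cpow, T_two] at h1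
  have h5 : ∀ g g', (cm (cpow q (2 ^ j)) * pr (orth (Ws Ω 1))) g g' =
      cpow q (2 ^ j) (g' * g⁻¹) - 1 / (Fintype.card (Perm Ω) : ℝ) := fun g g' => by
    have := congrFun (cm_one (sum_cpow h (2 ^ j))) g
    simp only [mulVec, dotProduct, mul_one] at this
    rw [pr_orth_eq, Matrix.mul_sub, Matrix.mul_one, Matrix.sub_apply, pr_Ws_one, mul_apply, cm_apply]
    simp [← sum_mul, this]
  have h6 : ∀ g : Perm Ω, ∑ g', (cpow q (2 ^ j) (g' * g⁻¹) - 1 / (Fintype.card (Perm Ω) : ℝ)) ^ 2 =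
      ∑ π, |cpow q (2 ^ j) π - 1 / (Fintype.card (Perm Ω) : ℝ)| ^ 2 := fun g =>
    Fintype.sum_equiv (Equiv.mulRight g⁻¹) _ _ fun _ => by simp
  simp only [h5, h6, sum_const, nsmul_eq_mul] at h1
  have h7 := (sq_sum_le_card_mul_sum_sq (s := univ) (f := fun π =>
    |cpow q (2 ^ j) π - 1 / (Fintype.card (Perm Ω) : ℝ)|)).trans (h1.trans h2)
  rw [Real.rpow_two] at h7
  have := abs_le_of_sq_le_sq' h7 (by norm_num)
  linarith [this.2]

section
variable {D : Type*} [Fintype D] [DecidableEq D]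

def rot (ρ : Perm D) : Perm (D → Bool) := Equiv.arrowCongr ρ.symm (Equiv.refl Bool)

lemma rot_apply (ρ : Perm D) (z : D → Bool) : rot ρ z = z ∘ ρ := rfl

lemma rot_pow (ρ : Perm D) (j : ℕ) : rot ρ ^ j = rot (ρ ^ j) := by
  induction j with
  | zero => rfl
  | succ j ih => rw [pow_succ, ih, pow_succ' ρ]; rfl

lemma lay_rot (ρ : Perm D) (t : D) (c : (D → Bool) → Bool) :
    lay t c * rot ρ = rot ρ * lay (ρ t) (c ∘ rot ρ) := by
  ext1 z
  simp only [Perm.mul_apply, lay_apply, rot_apply, Function.comp_apply,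
    update_comp_eq_of_injective _ ρ.injective]

lemma ex_step_rot (ρ : Perm D) (t : D) (φ : Perm (D → Bool) → ℝ) :
    (ex (step t) fun π => φ (π * rot ρ)) = ex (step (ρ t)) fun π => φ (rot ρ * π) := by
  rw [ex_step, ex_step]
  congr 1
  exact Fintype.sum_equiv (Equiv.arrowCongr (rot ρ).symm (Equiv.refl Bool)) _ _ fun c => by
    rw [lay_rot]; rfl

noncomputable def th (ρ : Perm D) (t : D) : Perm (D → Bool) → ℝ := push (rot ρ * ·) (step t)

lemma ex_cpow_th (ρ : Perm D) (t : D) (j : ℕ) (φ : Perm (D → Bool) → ℝ) :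
    ex (cpow (th ρ t) j) φ =
      ex (qL ((List.range j).map fun i => (ρ ^ i) t)) fun π => φ (rot (ρ ^ j) * π) := by
  induction j generalizing φ with
  | zero => simp only [cpow, qL, ex_pt, List.range_zero, List.map_nil, pow_zero, mul_one]; rfl
  | succ j ih =>
    rw [cpow, ex_conv, ih, List.range_succ, List.map_append, qL_append, ex_conv]
    congr 1; ext h
    simp only [List.map_cons, List.map_nil, qL, conv_pt_one, th, ex_push]
    have := ex_step_rot (ρ ^ j) t fun π => φ (rot ρ * π * h)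
    simp only [← mul_assoc] at this ⊢
    rw [this, ← rot_pow, ← rot_pow, pow_succ']

lemma sum_th (ρ : Perm D) (t : D) : ∑ g, th ρ t g = 1 := by
  have := ex_push (rot ρ * ·) (step t) fun _ => 1
  simpa [ex, sum_step, th] using this
end

lemma rotate_pow (e i : ℕ) (s : Fin (e + 1)) :
    ((finRotate (e + 1) ^ i) s).val = (s + i) % (e + 1) := by
  induction i with
  | zero => simp [Nat.mod_eq_of_lt s.2]
  | succ i ih =>
    rw [pow_succ', Perm.mul_apply, finRotate_apply, Fin.val_add, ih, ← add_assoc]; simp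

lemma cpow_th (e : ℕ) : cpow (th (finRotate (e + 1)) 0) (e + 1) = qd (e + 1) := by
  refine ex_ext fun φ => ?_
  have h1 : finRotate (e + 1) ^ (e + 1) = 1 := by
    ext s; simp [rotate_pow, Nat.mod_eq_of_lt s.2]
  have h2 : ((List.range (e + 1)).map fun i => (finRotate (e + 1) ^ i) 0) =
      List.finRange (e + 1) := by
    refine List.ext_getElem (by simp) fun i hi _ => Fin.ext ?_
    simp only [List.length_map, List.length_range] at hi
    simp [rotate_pow, Nat.mod_eq_of_lt hi]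
  rw [ex_cpow_th, h1, h2, show rot (1 : Perm (Fin (e + 1))) = 1 from rfl]
  simp [qd]

end Vale.Agent.P162
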