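import Vale.Agent.P162.Conv

set_option linter.unusedSectionVars false
set_option linter.unusedVariables false
set_option linter.unusedSimpArgs false

open Matrix Finset Equiv

namespace Vale.Agent.P162

variable {Ω : Type*} [Fintype Ω] [DecidableEq Ω]

def Vs (S : Finset Ω) : Submodule ℝ (Perm Ω → ℝ) where
  carrier := {F | ∀ g g' : Perm Ω, (∀ x ∈ S, g x = g' x) → F g = F g'}
  add_mem' := fun ha hb g g' h => by simp only [Pi.add_apply, ha g g' h, hb g g' h]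
  zero_mem' := fun g g' h => rfl
  smul_mem' := fun c F hF g g' h => by simp only [Pi.smul_apply, hF g g' h]

lemma mem_Vs {S : Finset Ω} {F : Perm Ω → ℝ} :
    F ∈ Vs S ↔ ∀ g g' : Perm Ω, (∀ x ∈ S, g x = g' x) → F g = F g' := Iff.rfl

def Ws (Ω : Type*) [Fintype Ω] [DecidableEq Ω] (k : ℕ) : Submodule ℝ (Perm Ω → ℝ) :=
  ⨆ S : {S : Finset Ω // S.card < k}, Vs S.1

def Lev (Ω : Type*) [Fintype Ω] [DecidableEq Ω] (k : ℕ) : Submodule ℝ (Perm Ω → ℝ) :=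
  Ws Ω (k + 1) ⊓ orth (Ws Ω k)

def RI (Y : Submodule ℝ (Perm Ω → ℝ)) : Prop := ∀ h, Inv (Rt h) Y

lemma Vs_mono {S S' : Finset Ω} (h : S ⊆ S') : Vs S ≤ Vs S' :=
  fun F hF g g' hg => hF g g' fun x hx => hg x (h hx)

lemma Vs_le_Ws {S : Finset Ω} {k : ℕ} (h : S.card < k) : Vs S ≤ Ws Ω k :=
  le_iSup (fun S : {S : Finset Ω // S.card < k} => Vs S.1) ⟨S, h⟩

lemma Ws_mono {k l : ℕ} (h : k ≤ l) : Ws Ω k ≤ Ws Ω l :=
  iSup_le fun S => Vs_le_Ws (S.2.trans_le h)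

lemma inv_Vs (α : Perm Ω → ℝ) (S : Finset Ω) : Inv (cm α) (Vs S) := fun F hF g g' h => by
  simp only [cm_mulVec]
  exact sum_congr rfl fun π _ => by rw [hF (π * g) (π * g') fun x hx => by simp [h x hx]]

lemma inv_Ws (α : Perm Ω → ℝ) (k : ℕ) : Inv (cm α) (Ws Ω k) := Inv.iSup fun S => inv_Vs α _

lemma inv_oWs (α : Perm Ω → ℝ) (k : ℕ) : Inv (cm α) (orth (Ws Ω k)) :=
  Inv.orth (by rw [cm_tr]; exact inv_Ws _ _)

lemma inv_Lev (α : Perm Ω → ℝ) (k : ℕ) : Inv (cm α) (Lev Ω k) := (inv_Ws α _).inf (inv_oWs α _)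

lemma Rt_Vs {S : Finset Ω} {F : Perm Ω → ℝ} (hF : F ∈ Vs S) (σ : Perm Ω) :
    Rt σ *ᵥ F ∈ Vs (S.image σ) := fun g g' h => by
  simp only [Rt_mulVec]
  exact hF _ _ fun x hx => by simp [h _ (mem_image_of_mem σ hx)]

lemma ri_Ws (k : ℕ) : RI (Ws Ω k) := by
  intro h v hv
  refine Submodule.iSup_induction _ (motive := fun v => Rt h *ᵥ v ∈ Ws Ω k) hv ?_ ?_ ?_
  · exact fun S x hx => Vs_le_Ws (card_image_le.trans_lt S.2) (Rt_Vs hx h)
  · simp
  · intro x y hx hy; rw [mulVec_add]; exact Submodule.add_mem _ hx hy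

lemma RI.orth {Y : Submodule ℝ (Perm Ω → ℝ)} (h : RI Y) : RI (orth Y) :=
  fun g => Inv.orth (by rw [Rt_tr]; exact h _)

lemma RI.inf {Y Z : Submodule ℝ (Perm Ω → ℝ)} (h : RI Y) (h' : RI Z) : RI (Y ⊓ Z) :=
  fun g => (h g).inf (h' g)

lemma ri_Lev (k : ℕ) : RI (Lev Ω k) := (ri_Ws _).inf (ri_Ws _).orth

lemma ri_Eig (α : Perm Ω → ℝ) (μ : ℝ) : RI (Eig (cm α) μ) :=
  fun g => inv_Eig (Rt_comm g α).symm μ

lemma mem_Vs_iff {S : Finset Ω} {F : Perm Ω → ℝ} :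
    F ∈ Vs S ↔ ∀ h : Perm Ω, (∀ x ∈ S, h x = x) → Rt h *ᵥ F = F := by
  constructor
  · intro hF h hh
    ext g; rw [Rt_mulVec]; exact hF _ _ fun x hx => by simp [hh x hx]
  · intro hF g g' h
    have := congrFun (hF (g⁻¹ * g') fun x hx => by simp [← h x hx]) g
    rw [Rt_mulVec] at this
    simpa using this.symm

lemma RI.comm {Y : Submodule ℝ (Perm Ω → ℝ)} (h : RI Y) (g : Perm Ω) :
    pr Y * Rt g = Rt g * pr Y := pr_comm (h g) (by rw [Rt_tr]; exact h _)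

lemma RI.inv_Vs {Y : Submodule ℝ (Perm Ω → ℝ)} (h : RI Y) (S : Finset Ω) : Inv (pr Y) (Vs S) :=
  fun F hF => mem_Vs_iff.2 fun g hg => by
    rw [mulVec_mulVec, ← h.comm, ← mulVec_mulVec, mem_Vs_iff.1 hF g hg]

lemma pr_Vs_Rt {T : Finset Ω} {h : Perm Ω} (hh : ∀ x ∈ T, h x = x) (F : Perm Ω → ℝ) :
    pr (Vs T) *ᵥ (Rt h *ᵥ F) = pr (Vs T) *ᵥ F := by
  have : Rt h⁻¹ * pr (Vs T) = pr (Vs T) := mat_ext fun v => by
    rw [← mulVec_mulVec]
    exact mem_Vs_iff.1 (pr_mem _ v) _ fun x hx => by rw [Perm.inv_eq_iff_eq, hh x hx]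
  have h2 := congrArg transpose this
  rw [transpose_mul, pr_symm, Rt_tr, inv_inv] at h2
  rw [mulVec_mulVec, h2]

lemma zm {S : Finset Ω} {F : Perm Ω → ℝ} (hF : F ∈ Vs S) (j : Ω) :
    ∑ t ∈ (S.erase j)ᶜ, Rt (swap j t) *ᵥ F ∈ Vs (S.erase j) := by
  intro g g' h
  simp only [Finset.sum_apply, Rt_mulVec]
  have hm : ∀ t, t ∈ (S.erase j)ᶜ ↔ (g'⁻¹ * g) t ∈ (S.erase j)ᶜ := by
    intro t
    simp only [mem_compl, not_iff_not]
    constructor
    · intro ht; simpa [h t ht] using ht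
    · intro ht
      have := h _ ht
      have e : (g'⁻¹ * g) t = t := g.injective (by rw [this]; simp)
      rwa [e] at ht
  refine sum_equiv (g'⁻¹ * g) hm fun t ht => hF _ _ fun x hx => ?_
  by_cases hxj : x = j
  · subst hxj; simp
  · have hx' : x ∈ S.erase j := mem_erase.2 ⟨hxj, hx⟩
    have h1 : x ≠ t := fun e => (mem_compl.1 ht) (e ▸ hx')
    have h2 : x ≠ (g'⁻¹ * g) t := fun e => (mem_compl.1 ((hm t).1 ht)) (e ▸ hx')
    simp only [Perm.coe_mul, Function.comp_apply] at h2 ⊢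
    rw [swap_apply_of_ne_of_ne hxj h1, swap_apply_of_ne_of_ne hxj h2, h x hx']

lemma image_swap_sdiff {J T : Finset Ω} {j t : Ω} (hj : j ∈ J \ T) (ht : t ∈ T)
    (ht' : t ∉ J.erase j) : (J.image (swap j t) \ T).card + 1 ≤ (J \ T).card := by
  rw [← card_erase_add_one hj]
  refine Nat.add_le_add_right (card_le_card fun x hx => ?_) 1
  obtain ⟨hx1, hx2⟩ := mem_sdiff.1 hx
  obtain ⟨y, hy, rfl⟩ := mem_image.1 hx1
  by_cases h1 : y = j
  · subst h1; simp [ht] at hx2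
  by_cases h2 : y = t
  · subst h2; exact absurd (mem_erase.2 ⟨h1, hy⟩) ht'
  · rw [swap_apply_of_ne_of_ne h1 h2] at hx2 ⊢; exact mem_erase.2 ⟨h1, mem_sdiff.2 ⟨hy, hx2⟩⟩

lemma swap_fix {T : Finset Ω} {j t : Ω} (hj : j ∉ T) (ht : t ∉ T) : ∀ x ∈ T, swap j t x = x :=
  fun x hx => swap_apply_of_ne_of_ne (fun e => hj (e ▸ hx)) (fun e => ht (e ▸ hx))

lemma ie (T : Finset Ω) (k : ℕ) (r : ℕ) : ∀ (J : Finset Ω) (F : Perm Ω → ℝ), J.card ≤ k →
    (J \ T).card ≤ r → F ∈ Vs J →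
    pr (Vs T) *ᵥ F ∈ ⨆ S : {S : Finset Ω // S ⊆ T ∧ S.card ≤ k}, Vs S.1 := by
  induction r with
  | zero =>
    intro J F hJ hr hF
    have : J ⊆ T := by simpa using hr
    rw [pr_self (Vs_mono this hF)]
    exact Submodule.mem_iSup_of_mem ⟨J, this, hJ⟩ hF
  | succ r ih =>
    intro J F hJ hr hF
    rcases (J \ T).eq_empty_or_nonempty with h0 | ⟨j, hj⟩
    · exact ih J F hJ (by simp [h0]) hF
    set U := ⨆ S : {S : Finset Ω // S ⊆ T ∧ S.card ≤ k}, Vs S.1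
    have h1 := ih _ _ (card_erase_le.trans hJ) (by
      have : J.erase j \ T = (J \ T).erase j := by ext x; simp; tauto
      rw [this, card_erase_of_mem hj]; omega) (zm hF j)
    rw [mulVec_sum, ← sum_filter_add_sum_filter_not _ (· ∈ T)] at h1
    have h2 : ∑ t ∈ (J.erase j)ᶜ with t ∈ T, pr (Vs T) *ᵥ (Rt (swap j t) *ᵥ F) ∈ U := by
      refine Submodule.sum_mem _ fun t ht => ?_
      obtain ⟨a, b⟩ := mem_filter.1 ht
      have := image_swap_sdiff hj b (mem_compl.1 a)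
      exact ih _ _ (card_image_le.trans hJ) (by omega) (Rt_Vs hF _)
    have h3 := U.sub_mem h1 h2
    rw [add_sub_cancel_left, sum_congr rfl fun t ht =>
      pr_Vs_Rt (swap_fix (mem_sdiff.1 hj).2 (mem_filter.1 ht).2) F, sum_const] at h3
    have h4 : (filter (fun t => ¬ t ∈ T) (J.erase j)ᶜ).card ≠ 0 :=
      card_ne_zero.2 ⟨j, by simp [(mem_sdiff.1 hj).2]⟩
    rw [← Nat.cast_smul_eq_nsmul ℝ] at h3
    exact (U.smul_mem_iff (by exact_mod_cast h4)).1 h3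

lemma cover {Y : Submodule ℝ (Perm Ω → ℝ)} (hY : RI Y) {j : ℕ} (hj : Y ≤ Lev Ω j)
    (T : Finset Ω) : Y ⊓ Vs T ≤ ⨆ S ∈ powersetCard j T, Y ⊓ Vs S := by
  intro F hF
  have h1 : ∀ G ∈ Ws Ω (j + 1),
      pr (Vs T) *ᵥ G ∈ ⨆ S : {S : Finset Ω // S ⊆ T ∧ S.card ≤ j}, Vs S.1 := by
    intro G hG
    refine Submodule.iSup_induction _ (motive := fun G => pr (Vs T) *ᵥ G ∈
      ⨆ S : {S : Finset Ω // S ⊆ T ∧ S.card ≤ j}, Vs S.1) hG ?_ ?_ ?_
    · exact fun S x hx => ie T j _ S.1 x (Nat.le_of_lt_succ S.2) le_rfl hx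
    · simp
    · intro x y hx hy; rw [mulVec_add]; exact Submodule.add_mem _ hx hy
  have h2 := h1 F (hj hF.1).1
  rw [pr_self hF.2] at h2
  rw [← pr_self hF.1]
  refine Submodule.iSup_induction _ (motive := fun G => pr Y *ᵥ G ∈
      ⨆ S ∈ powersetCard j T, Y ⊓ Vs S) h2 ?_ ?_ ?_
  · rintro ⟨S, hS1, hS2⟩ x hx
    have h3 : pr Y *ᵥ x ∈ Y ⊓ Vs S := ⟨pr_mem _ _, hY.inv_Vs S x hx⟩
    rcases hS2.eq_or_lt with h | h
    · exact Submodule.mem_iSup_of_mem S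
        (Submodule.mem_iSup_of_mem (mem_powersetCard.2 ⟨hS1, h⟩) h3)
    · rw [eq_zero_of_orth (Vs_le_Ws h h3.2) (hj h3.1).2]; exact Submodule.zero_mem _
  · simp
  · intro x y hx hy; rw [mulVec_add]; exact Submodule.add_mem _ hx hy

lemma finrank_biSup_le {ι V : Type*} [AddCommGroup V] [Module ℝ V] [FiniteDimensional ℝ V]
    (s : Finset ι) (U : ι → Submodule ℝ V) :
    Module.finrank ℝ ↥(⨆ i ∈ s, U i) ≤ ∑ i ∈ s, Module.finrank ℝ (U i) := by
  classical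
  induction s using Finset.induction_on with
  | empty => simp
  | insert a s ha ih =>
    rw [sum_insert ha, Finset.iSup_insert]
    exact (Submodule.finrank_add_le_finrank_add_finrank _ _).trans (Nat.add_le_add_left ih _)

lemma finrank_Vs_le {Y : Submodule ℝ (Perm Ω → ℝ)} (hY : RI Y) {S S' : Finset Ω}
    (h : S.card = S'.card) :
    Module.finrank ℝ ↥(Y ⊓ Vs S) ≤ Module.finrank ℝ ↥(Y ⊓ Vs S') := by
  obtain ⟨σ, hσ⟩ := Perm.exists_map_finset_eq S S' h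
  have hσ' : S.image σ = S' := by rw [← hσ, map_eq_image]; rfl
  let f : ↥(Y ⊓ Vs S) →ₗ[ℝ] ↥(Y ⊓ Vs S') :=
    (toLin' (Rt σ)).restrict fun F hF => ⟨hY σ F hF.1, hσ' ▸ Rt_Vs hF.2 σ⟩
  refine LinearMap.finrank_le_finrank_of_injective (f := f) ?_
  rw [injective_iff_map_eq_zero]
  intro a ha
  have : Rt σ *ᵥ a.1 = 0 := congrArg Subtype.val ha
  apply Subtype.ext
  apply nrm_eq_zero
  rw [← nrm_Rt σ, this, nrm_zero]

lemma dim_upper {Y : Submodule ℝ (Perm Ω → ℝ)} (hY : RI Y) {j : ℕ} (hj : Y ≤ Lev Ω j)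
    (T S : Finset Ω) (hS : S.card = j) :
    Module.finrank ℝ ↥(Y ⊓ Vs T) ≤ T.card.choose j * Module.finrank ℝ ↥(Y ⊓ Vs S) := by
  refine (Submodule.finrank_mono (cover hY hj T)).trans ((finrank_biSup_le _ _).trans ?_)
  rw [← card_powersetCard, ← smul_eq_mul]
  exact sum_le_card_nsmul _ _ _ fun S' h => finrank_Vs_le hY ((mem_powersetCard.1 h).2.trans hS.symm)

lemma gram (k r : ℕ) (hk : 2 * k ≤ Fintype.card Ω) : ∀ (S S' : Finset Ω) (F F' : Perm Ω → ℝ),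
    S.card = k → S'.card = k → (S' \ S).card = r → F ∈ Vs S → F' ∈ Vs S' → F ∈ orth (Ws Ω k) →
    |F' ⬝ᵥ F| ≤ r.factorial / ((Fintype.card Ω : ℝ) - 2 * k + 1) ^ r * (nrm F * nrm F') := by
  have hk' : (0 : ℝ) < (Fintype.card Ω : ℝ) - 2 * k + 1 := by
    have : (2 * k : ℝ) ≤ Fintype.card Ω := by exact_mod_cast hk
    linarith
  induction r with
  | zero => intro S S' F F' _ _ _ _ _ _; simpa [mul_comm] using abs_dot_le F' F
  | succ r ih =>
    intro S S' F F' hS hS' hr hF hF' ho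
    obtain ⟨j, hj⟩ : (S' \ S).Nonempty := card_pos.1 (by omega)
    have hj1 := (mem_sdiff.1 hj).1
    have h1 := ho _ (Vs_le_Ws (by rw [card_erase_of_mem hj1]; have := card_pos.2 ⟨j, hj1⟩; omega)
      (zm hF' j))
    rw [sum_dotProduct, ← sum_filter_add_sum_filter_not _ (· ∈ S)] at h1
    have h2 : ∀ t ∈ filter (fun t => ¬ t ∈ S) (S'.erase j)ᶜ, (Rt (swap j t) *ᵥ F') ⬝ᵥ F = F' ⬝ᵥ F := by
      intro t ht
      rw [dot_tr, Rt_tr, swap_inv,
        mem_Vs_iff.1 hF _ (swap_fix (mem_sdiff.1 hj).2 (mem_filter.1 ht).2)]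
    rw [sum_congr rfl h2, sum_const, nsmul_eq_mul] at h1
    have h3 : Fintype.card Ω + 1 ≤ (filter (fun t => ¬ t ∈ S) (S'.erase j)ᶜ).card + 2 * k := by
      have : filter (fun t => ¬ t ∈ S) (S'.erase j)ᶜ = (S'.erase j ∪ S)ᶜ := by ext; simp
      have h5 := card_union_le (S'.erase j) S
      have h6 := card_le_univ (S'.erase j ∪ S)
      have h7 := card_pos.2 ⟨j, hj1⟩
      rw [this, card_compl]; rw [card_erase_of_mem hj1] at h5; omega
    have h3' : (Fintype.card Ω : ℝ) - 2 * k + 1 ≤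
        (filter (fun t => ¬ t ∈ S) (S'.erase j)ᶜ).card := by
      have : (Fintype.card Ω : ℝ) + 1 ≤ (filter (fun t => ¬ t ∈ S) (S'.erase j)ᶜ).card + 2 * k := by
        exact_mod_cast h3
      linarith
    have h4 : (filter (fun t => t ∈ S) (S'.erase j)ᶜ).card ≤ r + 1 := by
      have : filter (fun t => t ∈ S) (S'.erase j)ᶜ ⊆ S \ S' := by
        intro x hx
        have := (mem_sdiff.1 hj).2
        simp only [mem_filter, mem_compl, mem_erase, mem_sdiff] at hx ⊢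
        refine ⟨hx.2, fun h => hx.1 ⟨fun e => this (e ▸ hx.2), h⟩⟩
      refine (card_le_card this).trans ?_
      rw [card_sdiff_comm (hS.trans hS'.symm), hr]
    set b := r.factorial / ((Fintype.card Ω : ℝ) - 2 * k + 1) ^ r * (nrm F * nrm F') with hb
    have hb0 : 0 ≤ b := by have := nrm_nonneg F; have := nrm_nonneg F'; positivity
    have h5 : |∑ t ∈ (S'.erase j)ᶜ with t ∈ S, (Rt (swap j t) *ᵥ F') ⬝ᵥ F| ≤ (r + 1) * b := by
      refine (abs_sum_le_sum_abs _ _).trans ((sum_le_card_nsmul _ _ b fun t ht => ?_).trans ?_)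
      · obtain ⟨a, c⟩ := mem_filter.1 ht
        have h6 := image_swap_sdiff hj c (mem_compl.1 a)
        have h7 : (S'.image (swap j t)).card = k := by rw [card_image_of_injective _ (swap j t).injective, hS']
        have h8 : S' \ S ⊆ insert j (S'.image (swap j t) \ S) := by
          intro x hx
          by_cases e : x = j
          · simp [e]
          · refine mem_insert_of_mem (mem_sdiff.2 ⟨mem_image.2 ⟨x, (mem_sdiff.1 hx).1, ?_⟩,
              (mem_sdiff.1 hx).2⟩)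
            exact swap_apply_of_ne_of_ne e fun e' => (mem_sdiff.1 hx).2 (e' ▸ c)
        have h9 := (card_le_card h8).trans (card_insert_le _ _)
        have := ih S _ F _ hS h7 (by omega) hF (Rt_Vs hF' (swap j t)) ho
        rwa [nrm_Rt] at this
      · rw [nsmul_eq_mul]
        exact mul_le_mul_of_nonneg_right (by exact_mod_cast h4) hb0
    have h6 : ((Fintype.card Ω : ℝ) - 2 * k + 1) * |F' ⬝ᵥ F| ≤ (r + 1) * b := by
      refine le_trans (mul_le_mul_of_nonneg_right h3' (abs_nonneg _)) (le_trans (le_of_eq ?_) h5)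
      rw [eq_neg_of_add_eq_zero_left h1, abs_neg, abs_mul, Nat.abs_cast]
    rw [← le_div_iff₀' hk'] at h6
    refine h6.trans (le_of_eq ?_)
    rw [hb, Nat.factorial_succ]; push_cast; field_simp; ring

end Vale.Agent.P162
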