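import Vale.Agent.P162.Lev1

set_option linter.unusedSectionVars false
set_option linter.unusedVariables false
set_option linter.unusedSimpArgs false

open Matrix Finset Equiv

namespace Vale.Agent.P162

lemma van {ι V : Type*} [DecidableEq ι] [AddCommGroup V] [Module ℝ V] (R : Finset ι) (c : ℝ)
    (f : Finset ι → V) {τ : ι} (hτ : τ ∈ R)
    (h : ∀ A ⊆ R.erase τ, f (insert τ A) = -c • f A) :
    ∑ A ∈ R.powerset, c ^ (R \ A).card • f A = 0 := by
  have e := insert_erase hτ
  conv_lhs => enter [1]; rw [← e]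
  rw [sum_powerset_insert (notMem_erase τ R), ← sum_add_distrib]
  refine sum_eq_zero fun A hA => ?_
  have hA' := mem_powerset.1 hA
  have h1 : τ ∉ A := fun h => notMem_erase τ R (hA' h)
  have h2 : R \ insert τ A = (R \ A).erase τ := by ext; simp; tauto
  rw [h A hA', h2, ← card_erase_add_one (mem_sdiff.2 ⟨hτ, h1⟩), pow_succ, smul_smul, ← add_smul]
  simp

lemma sum_fact_le {ι : Type*} [DecidableEq ι] (S : Finset ι) {x : ℝ} (hx : 0 ≤ x)
    (h : S.card * x ≤ 1 / 3) :
    ∑ A ∈ S.powerset, (A.card.factorial : ℝ) * x ^ A.card ≤ 3 / 2 := by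
  rw [sum_powerset_apply_card (fun r => (r.factorial : ℝ) * x ^ r)]
  have h1 : ∀ r ∈ range (S.card + 1), S.card.choose r • ((r.factorial : ℝ) * x ^ r) ≤
      (1 / 3) ^ r := by
    intro r _
    have : (S.card.choose r * r.factorial : ℝ) ≤ S.card ^ r := by
      have := Nat.descFactorial_le_pow S.card r
      rw [Nat.descFactorial_eq_factorial_mul_choose, mul_comm] at this
      exact_mod_cast this
    rw [nsmul_eq_mul, ← mul_assoc]
    refine (mul_le_mul_of_nonneg_right this (by positivity)).trans ?_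
    rw [← mul_pow]
    exact pow_le_pow_left₀ (by positivity) h r
  refine (sum_le_sum h1).trans ?_
  rw [geom_sum_eq (by norm_num)]
  have : (0 : ℝ) ≤ (1 / 3) ^ (S.card + 1) := by positivity
  rw [div_le_iff_of_neg (by norm_num)]; linarith

variable {Ω : Type*} [Fintype Ω] [DecidableEq Ω]

lemma extract {j : ℕ} (hj : 5 * j ≤ Fintype.card Ω) {T : Finset Ω}
    (hT : T.card + j ≤ Fintype.card Ω) (h : Finset Ω → Perm Ω → ℝ) (hh : ∀ S, h S ∈ Vs S)
    {S : Finset Ω} (hS : S ∈ powersetCard j T) (ho : h S ∈ orth (Ws Ω j)) :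
    nrm (h S) ≤ 2 ^ (j + 1) * nrm (∑ S' ∈ powersetCard j T, h S') := by
  obtain ⟨hST, hSj⟩ := mem_powersetCard.1 hS
  obtain ⟨O, hO, hOj⟩ := exists_subset_card_eq (s := Tᶜ) (n := j) (by rw [card_compl]; omega)
  obtain ⟨ν, hν⟩ := Perm.exists_map_finset_eq S O (hSj.trans hOj.symm)
  have hν' : ∀ x ∈ S, ν x ∉ T := fun x hx => mem_compl.1 (hO (hν ▸ mem_map_of_mem _ hx))
  have hσ : ∀ A : Finset Ω, ∃ σ : Perm Ω, ∀ x ∈ T, σ x = if x ∈ A ∩ S then ν x else x := by
    intro A
    obtain ⟨σ, hσ⟩ := Perm.exists_extending_pair (fun x : T => (x : Ω))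
      (fun x : T => if (x : Ω) ∈ A ∩ S then ν x else x) Subtype.val_injective (by
        intro a b hab
        by_cases ha : (a : Ω) ∈ A ∩ S <;> by_cases hb : (b : Ω) ∈ A ∩ S <;>
          simp only [ha, hb, if_true, if_false] at hab
        · exact Subtype.ext (ν.injective hab)
        · exact absurd (hab ▸ b.2) (hν' _ (mem_inter.1 ha).2)
        · exact absurd (hab ▸ a.2) (hν' _ (mem_inter.1 hb).2)
        · exact Subtype.ext hab)
    exact ⟨σ, fun x hx => hσ ⟨x, hx⟩⟩
  choose σ hσ using hσ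
  let D : (Perm Ω → ℝ) → Perm Ω → ℝ :=
    fun F => ∑ A ∈ S.powerset, (-1 : ℝ) ^ (S \ A).card • Rt (σ A) *ᵥ F
  set w := ∑ S' ∈ powersetCard j T, h S' with hw
  have h1 : D w = D (h S) := by
    simp only [D, hw, mulVec_sum, smul_sum]
    rw [sum_comm, sum_eq_single S _ (fun h => absurd hS h)]
    intro S' hS' hne
    obtain ⟨hST', hSj'⟩ := mem_powersetCard.1 hS'
    obtain ⟨i, hi, hi'⟩ : ∃ i ∈ S, i ∉ S' := by
      by_contra hc
      push Not at hc
      exact hne (eq_of_subset_of_card_le hc (by omega)).symm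
    refine van S (-1) (fun A => Rt (σ A) *ᵥ h S') hi fun A hA => ?_
    ext g
    simp only [neg_neg, one_smul, Rt_mulVec]
    refine hh S' _ _ fun x hx => ?_
    have : x ≠ i := fun e => hi' (e ▸ hx)
    simp [hσ _ x (hST' hx), this]
  have h2 : nrm (D w) ≤ 2 ^ j * nrm w := by
    refine (nrm_sum_le _ _).trans (le_of_eq ?_)
    simp [nrm_smul, nrm_Rt, hSj]
  set x : ℝ := ((Fintype.card Ω : ℝ) - 2 * j + 1)⁻¹ with hx
  have hj' : (5 * j : ℝ) ≤ Fintype.card Ω := by exact_mod_cast hj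
  have hj0 : (0 : ℝ) ≤ j := by positivity
  have hx0 : (0 : ℝ) < (Fintype.card Ω : ℝ) - 2 * j + 1 := by linarith
  have h3 : ∀ A ∈ S.powerset, |((-1 : ℝ) ^ (S \ A).card • Rt (σ A) *ᵥ h S) ⬝ᵥ h S| ≤
      (A.card.factorial : ℝ) * x ^ A.card * nrm (h S) ^ 2 := by
    intro A hA
    have hA' := mem_powerset.1 hA
    have e : S.image (σ A) \ S = A.image (σ A) := by
      ext y
      simp only [mem_sdiff, mem_image]
      constructor
      · rintro ⟨⟨z, hz, rfl⟩, h2⟩
        refine ⟨z, ?_, rfl⟩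
        by_contra hc
        rw [hσ A z (hST hz), if_neg (by simp [hc])] at h2
        exact h2 hz
      · rintro ⟨z, hz, rfl⟩
        refine ⟨⟨z, hA' hz, rfl⟩, fun h2 => ?_⟩
        rw [hσ A z (hST (hA' hz)), if_pos (mem_inter.2 ⟨hz, hA' hz⟩)] at h2
        exact hν' z (hA' hz) (hST h2)
    have := gram j A.card (by omega) S (S.image (σ A)) (h S) _ hSj
      (by rw [card_image_of_injective _ (σ A).injective, hSj])
      (by rw [e, card_image_of_injective _ (σ A).injective]) (hh S) (Rt_Vs (hh S) (σ A)) ho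
    rw [nrm_Rt] at this
    rw [smul_dotProduct, smul_eq_mul, abs_mul, abs_pow, abs_neg, abs_one, one_pow, one_mul]
    refine this.trans (le_of_eq ?_)
    rw [hx, inv_pow, div_eq_mul_inv, sq]
  have h4 : nrm (h S) ^ 2 / 2 ≤ |D (h S) ⬝ᵥ h S| := by
    have e0 : Rt (σ ∅) *ᵥ h S = h S :=
      mem_Vs_iff.1 (hh S) _ fun y hy => by rw [hσ _ y (hST hy)]; simp
    have h5 := sum_fact_le S (x := x) (by positivity) (by
      rw [hSj, hx, ← div_eq_mul_inv, div_le_div_iff₀ hx0 (by norm_num)]; linarith)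
    have h6 := (abs_sum_le_sum_abs _ (S.powerset.erase ∅)).trans
      (sum_le_sum fun A hA => h3 A (mem_of_mem_erase hA))
    rw [← add_sum_erase _ _ (empty_mem_powerset S)] at h5
    rw [← sum_mul] at h6
    simp only [D]
    rw [sum_dotProduct, ← add_sum_erase _ _ (empty_mem_powerset S), e0, smul_dotProduct, ← nrm_sq]
    have h7 : |(-1 : ℝ) ^ (S \ ∅).card • nrm (h S) ^ 2| = nrm (h S) ^ 2 := by
      rw [smul_eq_mul, abs_mul, abs_pow, abs_neg, abs_one, one_pow, one_mul, abs_sq]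
    refine le_trans ?_ (abs_sub_abs_le_abs_add _ _)
    rw [h7]
    simp only [card_empty, Nat.factorial_zero, Nat.cast_one, pow_zero, mul_one] at h5
    nlinarith [sq_nonneg (nrm (h S))]
  rw [← h1] at h4
  have h5 := h4.trans ((abs_dot_le _ _).trans (mul_le_mul_of_nonneg_right h2 (nrm_nonneg _)))
  rcases (nrm_nonneg (h S)).eq_or_lt with h0 | h0
  · rw [← h0]; have := nrm_nonneg w; positivity
  · rw [pow_succ 2 j]; nlinarith

lemma dim_lower {Y : Submodule ℝ (Perm Ω → ℝ)} (hY : RI Y) {j : ℕ} (hj : Y ≤ orth (Ws Ω j))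
    (h5 : 5 * j ≤ Fintype.card Ω) (S : Finset Ω) (hS : S.card = j) :
    (Fintype.card Ω - j).choose j * Module.finrank ℝ ↥(Y ⊓ Vs S) ≤ Module.finrank ℝ Y := by
  obtain ⟨T, -, hT⟩ := exists_subset_card_eq (s := (univ : Finset Ω)) (n := Fintype.card Ω - j)
    (by simp)
  let f : (∀ S' : powersetCard j T, ↥(Y ⊓ Vs S'.1)) →ₗ[ℝ] Y :=
    ∑ S' : powersetCard j T, Submodule.inclusion inf_le_left ∘ₗ LinearMap.proj S'
  have hf : Function.Injective f := by
    rw [injective_iff_map_eq_zero]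
    intro a ha
    let h : Finset Ω → Perm Ω → ℝ := fun S' => if hS' : S' ∈ powersetCard j T then a ⟨S', hS'⟩ else 0
    have hh : ∀ S', h S' ∈ Vs S' := by
      intro S'; simp only [h]; split_ifs with e
      · exact (a ⟨S', e⟩).2.2
      · exact Submodule.zero_mem _
    have hs : ∑ S' ∈ powersetCard j T, h S' = 0 := by
      rw [← sum_coe_sort]
      have := congrArg Subtype.val ha
      simp only [f, LinearMap.sum_apply, LinearMap.comp_apply, LinearMap.proj_apply,
        Submodule.coe_sum, Submodule.coe_inclusion, Submodule.coe_zero] at this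
      rw [← this]
      exact sum_congr rfl fun S' _ => dif_pos S'.2
    ext1 S'
    have e : h S'.1 = a S' := dif_pos S'.2
    have := extract h5 (T := T) (by omega) h hh S'.2 (e ▸ hj (a S').2.1)
    rw [hs, nrm_zero, mul_zero, e] at this
    exact Subtype.ext (nrm_eq_zero (le_antisymm this (nrm_nonneg _)))
  refine le_trans ?_ (LinearMap.finrank_le_finrank_of_injective hf)
  rw [Module.finrank_pi_fintype, ← hT, ← card_powersetCard, ← smul_eq_mul, ← Fintype.card_coe]
  exact card_nsmul_le_sum _ _ _ fun S' _ =>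
    finrank_Vs_le hY (hS.trans (mem_powersetCard.1 S'.2).2.symm)

lemma fix_of_swaps {O : Finset Ω} {F : Perm Ω → ℝ}
    (hF : ∀ x ∈ O, ∀ y ∈ O, Rt (swap x y) *ᵥ F = F) : F ∈ Vs Oᶜ := by
  rw [mem_Vs_iff]
  intro h
  induction' hn : h.support.card using Nat.strong_induction_on with n ih generalizing h
  intro hh
  by_cases h1 : h = 1
  · rw [h1, Rt_one, one_mulVec]
  obtain ⟨x, hx⟩ : ∃ x, h x ≠ x := by
    by_contra hc; push Not at hc; exact h1 (Equiv.ext hc)
  have hxO : x ∈ O := by by_contra hc; exact hx (hh x (mem_compl.2 hc))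
  have hyO : h x ∈ O := by by_contra hc; exact hx (h.injective (hh _ (mem_compl.2 hc)))
  have := ih _ (hn ▸ Perm.card_support_swap_mul hx) (swap x (h x) * h) rfl fun z hz => by
    rw [Perm.mul_apply, hh z hz]
    exact swap_apply_of_ne_of_ne (fun e => mem_compl.1 hz (e ▸ hxO))
      (fun e => mem_compl.1 hz (e ▸ hyO))
  conv_lhs => rw [← swap_mul_self_mul x (h x) h, ← Rt_mul, ← mulVec_mulVec, this, hF x hxO _ hyO]

lemma dimC {Y : Submodule ℝ (Perm Ω → ℝ)} {k : ℕ} (hk : 2 * k < Fintype.card Ω)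
    (hY : Y ≤ orth (Ws Ω (k + 1))) (μ : Perm Ω) (hμ : ∀ z, μ z ≠ z)
    (hl : ∀ F ∈ Y, ∀ z g, F (swap z (μ z) * g) = F g) (i : ℕ) :
    ∀ (O : Finset Ω) (U : Submodule ℝ (Perm Ω → ℝ)), U ≠ ⊥ → U ≤ Y →
      (∀ h : Perm Ω, (∀ x ∈ Oᶜ, h x = x) → Inv (Rt h) U) → Oᶜ.card + 2 * i ≤ k →
      2 ^ i ≤ Module.finrank ℝ U := by
  induction i with
  | zero =>
    intro O U hU _ _ _
    exact Nat.succ_le_of_lt (Submodule.finrank_eq_zero.not.2 hU |> Nat.pos_of_ne_zero)
  | succ i ih =>
    intro O U hU hUY hI hc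
    have hsw : ∀ x ∈ O, ∀ y ∈ O, ∀ z ∈ Oᶜ, swap x y z = z := fun x hx y hy =>
      swap_fix (by simpa) (by simpa)
    by_cases hex : ∃ x ∈ O, ∃ y ∈ O, U ⊓ Eig (Rt (swap x y)) 1 ≠ ⊥ ∧
        U ⊓ Eig (Rt (swap x y)) (-1) ≠ ⊥
    · obtain ⟨x, hx, y, hy, h1, h2⟩ := hex
      have key : ∀ c : ℝ, U ⊓ Eig (Rt (swap x y)) c ≠ ⊥ →
          2 ^ i ≤ Module.finrank ℝ ↥(U ⊓ Eig (Rt (swap x y)) c) := by
        intro c hc'
        refine ih ((O.erase x).erase y) _ hc' (inf_le_left.trans hUY) (fun h hh => Inv.inf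
          (hI h fun z hz => hh z (by simp at hz ⊢; tauto)) (inv_Eig ?_ c)) ?_
        · rw [Rt_mul, Rt_mul, Equiv.mul_swap_eq_swap_mul, hh x (by simp), hh y (by simp)]
        · have : ((O.erase x).erase y)ᶜ ⊆ insert y (insert x Oᶜ) := by
            intro z; simp
          have h3 := (card_le_card this).trans ((card_insert_le _ _).trans
            (Nat.add_le_add_right (card_insert_le _ _) 1))
          omega
      have h3 := Submodule.finrank_sup_add_finrank_inf_eq (U ⊓ Eig (Rt (swap x y)) 1)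
        (U ⊓ Eig (Rt (swap x y)) (-1))
      have h4 : (U ⊓ Eig (Rt (swap x y)) 1) ⊓ (U ⊓ Eig (Rt (swap x y)) (-1)) = ⊥ := by
        rw [eq_bot_iff]
        rintro F ⟨⟨-, a⟩, -, b⟩
        have := (mem_Eig.1 a).symm.trans (mem_Eig.1 b)
        ext g; have := congrFun this g; simp at this ⊢; linarith
      have h5 : Module.finrank ℝ ↥((U ⊓ Eig (Rt (swap x y)) 1) ⊔ (U ⊓ Eig (Rt (swap x y)) (-1))) ≤
          Module.finrank ℝ U := Submodule.finrank_mono (sup_le inf_le_left inf_le_left)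
      rw [h4, finrank_bot] at h3
      have := key _ h1
      have := key _ h2
      rw [pow_succ]; omega
    exfalso
    push Not at hex
    have hsc : ∀ x ∈ O, ∀ y ∈ O, (∀ F ∈ U, Rt (swap x y) *ᵥ F = F) ∨
        (∀ F ∈ U, Rt (swap x y) *ᵥ F = -F) := by
      intro x hx y hy
      have e : ∀ F, Rt (swap x y) *ᵥ (Rt (swap x y) *ᵥ F) = F := fun F => by
        rw [mulVec_mulVec, Rt_mul, Equiv.swap_mul_self, Rt_one, one_mulVec]
      by_cases h1 : U ⊓ Eig (Rt (swap x y)) 1 = ⊥
      · refine Or.inr fun F hF => ?_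
        have : Rt (swap x y) *ᵥ F + F ∈ U ⊓ Eig (Rt (swap x y)) 1 :=
          ⟨U.add_mem (hI _ (hsw x hx y hy) F hF) hF, by
            rw [SetLike.mem_coe, mem_Eig, mulVec_add, e, one_smul, add_comm]⟩
        rw [h1, Submodule.mem_bot] at this
        exact eq_neg_of_add_eq_zero_left this
      · refine Or.inl fun F hF => ?_
        have : Rt (swap x y) *ᵥ F - F ∈ U ⊓ Eig (Rt (swap x y)) (-1) :=
          ⟨U.sub_mem (hI _ (hsw x hx y hy) F hF) hF, by
            rw [SetLike.mem_coe, mem_Eig, mulVec_sub, e]; simp⟩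
        rw [hex x hx y hy h1, Submodule.mem_bot] at this
        exact sub_eq_zero.1 this
    obtain ⟨F, hF, hF0⟩ := Submodule.exists_mem_ne_zero_of_ne_bot hU
    obtain ⟨g, hg⟩ := Function.ne_iff.1 hF0
    have hO : Fintype.card Ω < 2 * O.card := by
      have := card_compl O; have := card_le_univ O; omega
    obtain ⟨z, hz1, hz2⟩ : ∃ z, z ∈ O.image g ∧ μ z ∈ O.image g := by
      by_contra hc'
      push Not at hc'
      have h1 : (O.image g).image μ ⊆ (O.image g)ᶜ := by
        intro w hw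
        obtain ⟨z, hz, rfl⟩ := mem_image.1 hw
        exact mem_compl.2 (hc' z hz)
      have := card_le_card h1
      rw [card_compl, card_image_of_injective _ μ.injective,
        card_image_of_injective _ g.injective] at this
      omega
    obtain ⟨x, hx, rfl⟩ := mem_image.1 hz1
    obtain ⟨y, hy, hy'⟩ := mem_image.1 hz2
    have hxy : x ≠ y := fun e => hμ (g x) (by rw [← hy', e])
    have h1 : ∀ F ∈ U, Rt (swap x y) *ᵥ F = F := by
      refine (hsc x hx y hy).resolve_right fun h => hg ?_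
      have := congrFun (h F hF) g
      rw [Rt_mulVec, Equiv.mul_swap_eq_swap_mul, hy', hl F (hUY hF)] at this
      simp at this ⊢; linarith
    have h2 : F ∈ Vs Oᶜ := by
      refine fix_of_swaps fun a ha b hb => ?_
      by_cases hab : a = b
      · subst hab; rw [swap_self, ← Perm.one_def, Rt_one, one_mulVec]
      obtain ⟨σ, hσ1, hσ2, hσ3⟩ : ∃ σ : Perm Ω, σ x = a ∧ σ y = b ∧ ∀ z ∈ Oᶜ, σ z = z := by
        refine ⟨swap (swap x a y) b * swap x a, ?_, by simp, fun z hz => ?_⟩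
        · rw [Perm.mul_apply, swap_apply_left]
          refine swap_apply_of_ne_of_ne (fun e => hxy ?_) hab
          apply (swap x a).injective; rw [← e, swap_apply_left]
        · rw [Perm.mul_apply, hsw x hx a ha z hz]
          refine hsw _ ?_ b hb z hz
          rw [swap_apply_def]; split_ifs <;> assumption
      have e : swap a b = σ * swap x y * σ⁻¹ := by rw [← swap_apply_apply, hσ1, hσ2]
      rw [e, ← Rt_mul, ← Rt_mul, ← mulVec_mulVec, ← mulVec_mulVec,
        h1 _ (hI σ⁻¹ (fun z hz => by rw [Perm.inv_eq_iff_eq, hσ3 z hz]) F hF), mulVec_mulVec,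
        Rt_mul, mul_inv_cancel, Rt_one, one_mulVec]
    exact hF0 (eq_zero_of_orth (Vs_le_Ws (by omega) h2) (hY (hUY hF)))

end Vale.Agent.P162
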