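import Mathlib

set_option linter.unusedSectionVars false
set_option linter.unusedVariables false
set_option linter.unusedSimpArgs false

open Matrix Finset

namespace Vale.Agent.P162

variable {n m k : Type*} [Fintype n] [DecidableEq n] [Fintype m] [DecidableEq m]
  [Fintype k] [DecidableEq k]

def Sp (A U : Matrix n n ℝ) (d : n → ℝ) : Prop :=
  Uᵀ * U = 1 ∧ U * Uᵀ = 1 ∧ A = U * diagonal d * Uᵀ

open Classical in
noncomputable def eU (A : Matrix n n ℝ) : Matrix n n ℝ :=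
  if h : A.IsHermitian then (h.eigenvectorUnitary : Matrix n n ℝ) else 1

open Classical in
noncomputable def ev (A : Matrix n n ℝ) : n → ℝ :=
  if h : A.IsHermitian then h.eigenvalues else 0

noncomputable def fc (f : ℝ → ℝ) (A : Matrix n n ℝ) : Matrix n n ℝ :=
  eU A * diagonal (fun i => f (ev A i)) * (eU A)ᵀ

lemma sp_e {A : Matrix n n ℝ} (hA : Aᵀ = A) : Sp A (eU A) (ev A) := by
  have h : A.IsHermitian := by rwa [IsHermitian, conjTranspose_eq_transpose_of_trivial]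
  simp only [eU, ev, dif_pos h]
  refine ⟨?_, ?_, ?_⟩
  · have := (h.eigenvectorUnitary).2.1
    rwa [star_eq_conjTranspose, conjTranspose_eq_transpose_of_trivial] at this
  · have := (h.eigenvectorUnitary).2.2
    rwa [star_eq_conjTranspose, conjTranspose_eq_transpose_of_trivial] at this
  · have := h.spectral_theorem
    rw [Unitary.conjStarAlgAut_apply, star_eq_conjTranspose,
      conjTranspose_eq_transpose_of_trivial] at this
    simpa using this

lemma eU_orth (A : Matrix n n ℝ) : (eU A)ᵀ * eU A = 1 ∧ eU A * (eU A)ᵀ = 1 := by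
  by_cases h : Aᵀ = A
  · exact ⟨(sp_e h).1, (sp_e h).2.1⟩
  · have h' : ¬ A.IsHermitian := by rwa [IsHermitian, conjTranspose_eq_transpose_of_trivial]
    rw [eU, dif_neg h']; simp

lemma sp_intertwine {A U : Matrix n n ℝ} {d : n → ℝ} {B V : Matrix m m ℝ} {e : m → ℝ}
    (hA : Sp A U d) (hB : Sp B V e) {R : Matrix m n ℝ} (h : R * A = B * R) (f : ℝ → ℝ) :
    R * (U * diagonal (fun i => f (d i)) * Uᵀ) = (V * diagonal (fun i => f (e i)) * Vᵀ) * R := by
  obtain ⟨h1, h2, h3⟩ := hA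
  obtain ⟨g1, g2, g3⟩ := hB
  have hQ : (Vᵀ * R * U) * diagonal d = diagonal e * (Vᵀ * R * U) := by
    have e1 : (Vᵀ * R * U) * diagonal d = Vᵀ * (R * A) * U := by
      rw [h3]; simp only [Matrix.mul_assoc, h1, Matrix.mul_one]
    have e2 : diagonal e * (Vᵀ * R * U) = Vᵀ * (B * R) * U := by
      rw [g3]; simp only [← Matrix.mul_assoc, g1, Matrix.one_mul]
    rw [e1, e2, h]
  have hQ' : (Vᵀ * R * U) * diagonal (fun i => f (d i)) =
      diagonal (fun i => f (e i)) * (Vᵀ * R * U) := by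
    ext i j
    have := congrFun (congrFun hQ i) j
    rw [mul_diagonal, diagonal_mul] at this ⊢
    by_cases h0 : (Vᵀ * R * U) i j = 0
    · simp [h0]
    · have : d j = e i := by
        rw [mul_comm (e i)] at this; exact mul_left_cancel₀ h0 this
      rw [this, mul_comm]
  calc R * (U * diagonal (fun i => f (d i)) * Uᵀ)
      = V * ((Vᵀ * R * U) * diagonal (fun i => f (d i))) * Uᵀ := by
        simp only [← Matrix.mul_assoc, g2, Matrix.one_mul]
    _ = V * (diagonal (fun i => f (e i)) * (Vᵀ * R * U)) * Uᵀ := by rw [hQ']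
    _ = _ := by simp only [Matrix.mul_assoc, h2, Matrix.mul_one]

lemma fc_intertwine {A : Matrix n n ℝ} {B : Matrix m m ℝ} (hA : Aᵀ = A) (hB : Bᵀ = B)
    {R : Matrix m n ℝ} (h : R * A = B * R) (f : ℝ → ℝ) : R * fc f A = fc f B * R :=
  sp_intertwine (sp_e hA) (sp_e hB) h f

lemma Sp.symm {A U : Matrix n n ℝ} {d : n → ℝ} (h : Sp A U d) : Aᵀ = A := by
  rw [h.2.2]; simp [transpose_mul, Matrix.mul_assoc]

lemma Sp.fc_eq {A U : Matrix n n ℝ} {d : n → ℝ} (h : Sp A U d) (f : ℝ → ℝ) :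
    fc f A = U * diagonal (fun i => f (d i)) * Uᵀ := by
  have := sp_intertwine (sp_e h.symm) h (R := 1) (by simp) f
  simpa [fc] using this

lemma sp_fc (f : ℝ → ℝ) (A : Matrix n n ℝ) : Sp (fc f A) (eU A) (fun i => f (ev A i)) :=
  ⟨(eU_orth A).1, (eU_orth A).2, rfl⟩

lemma fc_symm (f : ℝ → ℝ) (A : Matrix n n ℝ) : (fc f A)ᵀ = fc f A := (sp_fc f A).symm

lemma fc_fc (g f : ℝ → ℝ) (A : Matrix n n ℝ) : fc g (fc f A) = fc (fun x => g (f x)) A :=
  (sp_fc f A).fc_eq g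

lemma fc_mul (f g : ℝ → ℝ) (A : Matrix n n ℝ) :
    fc f A * fc g A = fc (fun x => f x * g x) A := by
  unfold fc
  have := (eU_orth A).1
  calc _ = eU A * (diagonal (fun i => f (ev A i)) * ((eU A)ᵀ * eU A) *
      diagonal (fun i => g (ev A i))) * (eU A)ᵀ := by simp only [Matrix.mul_assoc]
    _ = _ := by rw [this, Matrix.mul_one, diagonal_mul_diagonal]

lemma fc_id {A : Matrix n n ℝ} (hA : Aᵀ = A) : fc (fun x => x) A = A := (sp_e hA).2.2.symm

lemma fc_congr {f g : ℝ → ℝ} {A : Matrix n n ℝ} (h : ∀ i, f (ev A i) = g (ev A i)) :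
    fc f A = fc g A := by
  unfold fc; rw [show (fun i => f (ev A i)) = fun i => g (ev A i) from funext h]

lemma fc_const (c : ℝ) (A : Matrix n n ℝ) : fc (fun _ => c) A = c • (1 : Matrix n n ℝ) := by
  unfold fc
  have : diagonal (fun _ : n => c) = c • (1 : Matrix n n ℝ) := by
    ext i j; by_cases h : i = j <;> simp [h, one_apply]
  rw [this]; simp [(eU_orth A).2]

lemma fc_sum {ι : Type*} (s : Finset ι) (f : ι → ℝ → ℝ) (A : Matrix n n ℝ) :
    fc (fun x => ∑ i ∈ s, f i x) A = ∑ i ∈ s, fc (f i) A := by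
  unfold fc
  rw [← Matrix.sum_mul, ← Matrix.mul_sum]
  congr 2
  ext a b
  by_cases h : a = b
  · subst h; simp [Matrix.sum_apply]
  · simp [Matrix.sum_apply, h]

lemma fc_smul (c : ℝ) (f : ℝ → ℝ) (A : Matrix n n ℝ) :
    fc (fun x => c * f x) A = c • fc f A := by
  rw [← fc_mul, fc_const]; simp

lemma fc_pow {A : Matrix n n ℝ} (hA : Aᵀ = A) (j : ℕ) : fc (fun x => x ^ j) A = A ^ j := by
  induction j with
  | zero => simp [fc_const]
  | succ j ih => simp only [pow_succ]; rw [← fc_mul, ih, fc_id hA]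

lemma fc_smul_one (f : ℝ → ℝ) (c : ℝ) : fc f (c • (1 : Matrix n n ℝ)) = f c • 1 := by
  have : Sp (c • (1 : Matrix n n ℝ)) 1 (fun _ => c) := by
    refine ⟨by simp, by simp, ?_⟩
    ext i j; by_cases h : i = j <;> simp [h, one_apply]
  rw [this.fc_eq]
  ext i j; by_cases h : i = j <;> simp [h, one_apply]

lemma Sp.trace_fc {A U : Matrix n n ℝ} {d : n → ℝ} (h : Sp A U d) (f : ℝ → ℝ) :
    (fc f A).trace = ∑ i, f (d i) := by
  rw [h.fc_eq, trace_mul_comm, ← Matrix.mul_assoc, h.1]; simp [trace]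

lemma trace_fc (f : ℝ → ℝ) (A : Matrix n n ℝ) : (fc f A).trace = ∑ i, f (ev A i) := by
  rw [fc, trace_mul_comm, ← Matrix.mul_assoc, (eU_orth A).1]; simp [trace]

lemma fc_comm {A R : Matrix n n ℝ} (hA : Aᵀ = A) (h : R * A = A * R) (f : ℝ → ℝ) :
    R * fc f A = fc f A * R := fc_intertwine hA hA h f

lemma fc_eig {A : Matrix n n ℝ} (hA : Aᵀ = A) {R : Matrix n m ℝ} {c : ℝ} (h : A * R = c • R)
    (f : ℝ → ℝ) : fc f A * R = f c • R := by
  have := fc_intertwine (A := c • (1 : Matrix m m ℝ)) (B := A) (by simp) hA (R := R)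
    (by rw [h]; simp) f
  rw [← this, fc_smul_one]; simp

lemma fc_eigvec {A : Matrix n n ℝ} (hA : Aᵀ = A) {v : n → ℝ} {c : ℝ} (h : A *ᵥ v = c • v)
    (f : ℝ → ℝ) : fc f A *ᵥ v = f c • v := by
  have := fc_eig hA (R := Matrix.replicateCol Unit v) (c := c)
    (by ext i j; simpa [mul_apply, mulVec, dotProduct] using congrFun h i) f
  ext i
  simpa [mul_apply, mulVec, dotProduct] using congrFun (congrFun this i) ()

lemma fc_mul_proj {A P : Matrix n n ℝ} (hA : Aᵀ = A) (hP : Pᵀ = P) (hPP : P * P = P)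
    (h : P * A = A * P) {f : ℝ → ℝ} (hf : f 0 = 0) : fc f (A * P) = fc f A * P := by
  have hs : (A * P)ᵀ = A * P := by rw [transpose_mul, hA, hP, h]
  have h1 := fc_intertwine hs hA (R := P)
    (by rw [← Matrix.mul_assoc, h, Matrix.mul_assoc, hPP]) f
  have h2 := fc_eig hs (R := 1 - P) (c := 0)
    (by rw [Matrix.mul_sub, Matrix.mul_one, Matrix.mul_assoc, hPP]; simp) f
  have h3 := fc_comm hs (R := P) (by rw [← Matrix.mul_assoc, h]) f
  rw [hf, zero_smul, Matrix.mul_sub, Matrix.mul_one, sub_eq_zero] at h2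
  rw [h2, ← h3, h1]

lemma quad_fc (f : ℝ → ℝ) (A : Matrix n n ℝ) (v : n → ℝ) :
    v ⬝ᵥ (fc f A *ᵥ v) = ∑ i, f (ev A i) * ((eU A)ᵀ *ᵥ v) i ^ 2 := by
  rw [fc, ← mulVec_mulVec, ← mulVec_mulVec, dotProduct_mulVec, ← mulVec_transpose]
  simp only [dotProduct, mulVec_diagonal]
  exact sum_congr rfl fun i _ => by ring

lemma dot_orth {U : Matrix m n ℝ} (h : Uᵀ * U = 1) (v w : n → ℝ) :
    (U *ᵥ v) ⬝ᵥ (U *ᵥ w) = v ⬝ᵥ w := by
  rw [dotProduct_mulVec, ← mulVec_transpose, mulVec_mulVec, h, one_mulVec]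

lemma dot_tmul (M : Matrix m n ℝ) (v w : n → ℝ) :
    (M *ᵥ v) ⬝ᵥ (M *ᵥ w) = v ⬝ᵥ ((Mᵀ * M) *ᵥ w) := by
  rw [← mulVec_mulVec, dotProduct_mulVec v, vecMul_transpose]

lemma dot_tr (M : Matrix m n ℝ) (v : n → ℝ) (w : m → ℝ) :
    (M *ᵥ v) ⬝ᵥ w = v ⬝ᵥ (Mᵀ *ᵥ w) := by
  rw [dotProduct_mulVec v, vecMul_transpose]

lemma dot_self_nonneg (v : n → ℝ) : 0 ≤ v ⬝ᵥ v := sum_nonneg fun i _ => mul_self_nonneg _

lemma tmul_symm (M : Matrix m n ℝ) : (Mᵀ * M)ᵀ = Mᵀ * M := by simp [transpose_mul]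

lemma ev_eq_quad {A : Matrix n n ℝ} (hA : Aᵀ = A) (i : n) :
    ev A i = (eU A).col i ⬝ᵥ (A *ᵥ (eU A).col i) := by
  have h := quad_fc (fun x => x) A ((eU A).col i)
  rw [fc_id hA] at h
  have e : (eU A)ᵀ *ᵥ (eU A).col i = Pi.single i 1 := by
    ext j
    have := congrFun (congrFun (eU_orth A).1 j) i
    simp only [mul_apply, transpose_apply, one_apply] at this
    simp only [mulVec, dotProduct, transpose_apply, col_apply, this, Pi.single_apply]
  rw [h, e, sum_eq_single i] <;> simp +contextual [Pi.single_apply]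

lemma col_unit (A : Matrix n n ℝ) (i : n) : (eU A).col i ⬝ᵥ (eU A).col i = 1 := by
  have := congrFun (congrFun (eU_orth A).1 i) i
  simpa [mul_apply, dotProduct] using this

lemma ev_tmul (M : Matrix m n ℝ) (i : n) :
    ev (Mᵀ * M) i = (M *ᵥ (eU (Mᵀ * M)).col i) ⬝ᵥ (M *ᵥ (eU (Mᵀ * M)).col i) := by
  rw [dot_tmul, ← ev_eq_quad (tmul_symm M)]

lemma ev_nonneg (M : Matrix m n ℝ) (i : n) : 0 ≤ ev (Mᵀ * M) i := by
  rw [ev_tmul]; exact dot_self_nonneg _

lemma eig_col {A : Matrix n n ℝ} (hA : Aᵀ = A) (i : n) :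
    A *ᵥ (eU A).col i = ev A i • (eU A).col i := by
  have h : A * eU A = eU A * diagonal (ev A) := by
    conv_lhs => enter [1]; rw [(sp_e hA).2.2]
    rw [Matrix.mul_assoc, (eU_orth A).1, Matrix.mul_one]
  ext j
  have := congrFun (congrFun h j) i
  rw [mul_diagonal] at this
  simp only [mulVec, dotProduct, col_apply, Pi.smul_apply, smul_eq_mul]
  rw [mul_comm, ← this, mul_apply]

lemma trace_eq_sum_col {U : Matrix n n ℝ} (h : U * Uᵀ = 1) (X : Matrix n n ℝ) :
    X.trace = ∑ i, U.col i ⬝ᵥ (X *ᵥ U.col i) := by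
  have : X.trace = (Uᵀ * X * U).trace := by
    rw [trace_mul_comm, ← Matrix.mul_assoc, h, Matrix.one_mul]
  rw [this, trace]
  refine sum_congr rfl fun i _ => ?_
  simp only [diag_apply, mul_apply, transpose_apply, dotProduct, mulVec, col_apply, sum_mul,
    mul_sum]
  rw [sum_comm]
  exact sum_congr rfl fun a _ => sum_congr rfl fun b _ => by ring

end Vale.Agent.P162
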