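import Vale.Agent.P162.Fin

set_option linter.unusedSectionVars false
set_option linter.unusedVariables false
set_option linter.unusedSimpArgs false

open Matrix Finset Equiv Function

namespace Vale.Agent.P162

def enc (d : ℕ) : (Fin d → Bool) ≃ Fin (2 ^ d) :=
  (Equiv.arrowCongr Fin.revPerm finTwoEquiv.symm).trans finFunctionFinEquiv

lemma enc_val (d : ℕ) (z : Fin d → Bool) :
    (enc d z).val = ∑ i : Fin d, (z i.rev).toNat * 2 ^ i.val := by
  simp only [enc, Equiv.trans_apply, finFunctionFinEquiv_apply]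
  refine sum_congr rfl fun i _ => ?_
  simp only [Equiv.arrowCongr_apply, Function.comp_apply, Fin.revPerm_symm, Fin.revPerm_apply]
  cases z i.rev <;> rfl

lemma enc_cons (e : ℕ) (z : Fin (e + 1) → Bool) :
    (enc (e + 1) z).val = (z 0).toNat * 2 ^ e + (enc e (Fin.tail z)).val := by
  rw [enc_val, enc_val, Fin.sum_univ_castSucc, add_comm]
  simp [Fin.rev_castSucc, Fin.tail]

lemma enc_snoc (e : ℕ) (z : Fin (e + 1) → Bool) :
    (enc (e + 1) z).val = (z (Fin.last e)).toNat + 2 * (enc e (Fin.init z)).val := by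
  rw [enc_val, enc_val, Fin.sum_univ_succ, mul_sum]
  simp only [Fin.rev_zero, Fin.val_zero, pow_zero, mul_one, Fin.rev_succ, Fin.init, Fin.val_succ]
  congr 1
  exact sum_congr rfl fun i _ => by ring

lemma half (e : ℕ) : 2 ^ e = 2 ^ (e + 1) / 2 := by rw [pow_succ, Nat.mul_div_cancel _ two_pos]

def enc' (e : ℕ) : (Fin e → Bool) ≃ Fin (2 ^ (e + 1) / 2) := (enc e).trans (finCongr (half e))

def coin (e : ℕ) : ((Fin (e + 1) → Bool) → Bool) ≃
    (Fin (2 ^ (e + 1) / 2) → Bool) × (Fin (2 ^ (e + 1) / 2) → Bool) where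
  toFun c := (fun i => c (Fin.cons false ((enc' e).symm i)),
    fun i => c (Fin.cons true ((enc' e).symm i)))
  invFun p z := if z 0 then p.2 (enc' e (Fin.tail z)) else p.1 (enc' e (Fin.tail z))
  left_inv c := by
    ext z
    have := congrArg c (Fin.cons_self_tail z)
    cases h : z 0 <;> rw [h] at this <;> simp [h, this]
  right_inv p := by ext i <;> simp

lemma step_val (e : ℕ) (c : (Fin (e + 1) → Bool) → Bool) (z : Fin (e + 1) → Bool) :
    (enc (e + 1) ((rot (finRotate (e + 1)) * lay 0 c) z)).val =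
      (z 0 ^^ (coin e c).1 (enc' e (Fin.tail z))).toNat + 2 * (enc' e (Fin.tail z)).val := by
  rw [enc_snoc, Perm.mul_apply, rot_apply, lay_apply]
  congr 2
  · simp only [Function.comp_apply, finRotate_last, update_self, coin, Equiv.coe_fn_mk,
      Equiv.symm_apply_apply]
    congr 2
    conv_lhs => rw [← Fin.cons_self_tail z, Fin.update_cons_zero]
  · change _ = (enc e (Fin.tail z)).val
    congr 2
    ext i
    simp [Fin.init, Fin.tail, finRotate_apply]

lemma isThorp_iff (e : ℕ) (c : (Fin (e + 1) → Bool) → Bool) (π : Perm (Fin (e + 1) → Bool)) :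
    IsThorp (2 ^ (e + 1)) (coin e c).1 ((enc (e + 1)).permCongr π) ↔
      rot (finRotate (e + 1)) * lay 0 c = π := by
  have hh := half e
  constructor
  · intro h
    ext1 z
    apply (enc (e + 1)).injective
    apply Fin.ext
    have h1 := h (enc (e + 1) z) (enc' e (Fin.tail z))
    have h2 : (enc' e (Fin.tail z)).val = (enc e (Fin.tail z)).val := rfl
    rw [permCongr_apply, Equiv.symm_apply_apply, enc_cons] at h1
    rw [step_val]
    generalize (coin e c).1 (enc' e (Fin.tail z)) = b at h1 ⊢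
    cases hz : z 0 <;> rw [hz] at h1
    · rw [h1.1 (by simp [h2])]; cases b <;> simp [add_comm]
    · rw [h1.2 (by simp [h2, ← hh])]; cases b <;> simp [add_comm]
  · rintro rfl x i
    obtain ⟨z, rfl⟩ := (enc (e + 1)).surjective x
    have h2 : (enc' e (Fin.tail z)).val = (enc e (Fin.tail z)).val := rfl
    have h3 := (enc e (Fin.tail z)).2
    have h4 := i.2
    rw [permCongr_apply, Equiv.symm_apply_apply, enc_cons, step_val]
    cases hz : z 0 <;> simp only [Bool.toNat_false, Bool.toNat_true] <;> constructor <;> intro h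
    · rw [show enc' e (Fin.tail z) = i from Fin.ext (by omega)]
      cases (coin e c).1 i <;> simp [add_comm]
    · omega
    · omega
    · rw [show enc' e (Fin.tail z) = i from Fin.ext (by omega)]
      cases (coin e c).1 i <;> simp [add_comm]

lemma thorp_eq (e : ℕ) (π : Perm (Fin (e + 1) → Bool)) :
    thorp (2 ^ (e + 1)) ((enc (e + 1)).permCongr π) = th (finRotate (e + 1)) 0 π := by
  classical
  have h1 := ex_push (rot (finRotate (e + 1)) * ·) (step 0) fun g => if g = π then 1 else 0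
  rw [ex_step] at h1
  simp only [ex, mul_ite, mul_one, mul_zero, sum_ite_eq', mem_univ, if_true, ← isThorp_iff] at h1
  have h2 : ∀ f : (Fin (2 ^ (e + 1) / 2) → Bool) → ℝ, ∑ c, f (coin e c).1 =
      2 ^ (2 ^ (e + 1) / 2) * ∑ c, f c := fun f => by
    rw [(coin e).sum_comp fun p => f p.1, Fintype.sum_prod_type]
    simp [mul_sum]
  rw [th, h1, h2 fun p => if IsThorp (2 ^ (e + 1)) p ((enc (e + 1)).permCongr π) then 1 else 0,
    Fintype.card_congr (coin e), thorp, Nat.card_eq_fintype_card, Fintype.card_subtype]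
  simp only [sum_boole, Fintype.card_prod, Fintype.card_fun, Fintype.card_bool, Fintype.card_fin]
  push_cast; field_simp

lemma law_eq (e t : ℕ) (π : Perm (Fin (e + 1) → Bool)) :
    law (2 ^ (e + 1)) t ((enc (e + 1)).permCongr π) = cpow (th (finRotate (e + 1)) 0) t π := by
  induction t generalizing π with
  | zero =>
    simp only [law, cpow, pt]
    congr 1
    exact propext (map_eq_one_iff (enc (e + 1)).permCongrHom (MulEquiv.injective _))
  | succ t ih =>
    simp only [law, cpow, conv]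
    refine (Fintype.sum_equiv (enc (e + 1)).permCongr _ _ fun h => ?_).symm
    rw [ih, ← thorp_eq]; congr 2
    exact (map_mul (enc (e + 1)).permCongrHom π h⁻¹).trans
      (by rw [map_inv]; rfl)

lemma tv_eq (e t : ℕ) : tv (2 ^ (e + 1)) t = (1 / 2) * ∑ π,
    |cpow (th (finRotate (e + 1)) 0) t π - 1 / (Fintype.card (Perm (Fin (e + 1) → Bool)) : ℝ)| := by
  rw [tv, ← (enc (e + 1)).permCongr.sum_comp]
  simp only [law_eq, Fintype.card_perm, Fintype.card_fun, Fintype.card_bool, Fintype.card_fin]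

theorem upper : ∃ C : ℕ, 0 < C ∧ ∀ e, tv (2 ^ (e + 1)) ((e + 1) * C) ≤ 1 / 4 := by
  obtain ⟨Y, hY, h⟩ := claim_all
  obtain ⟨j, hj⟩ := pow_unbounded_of_one_lt Y (one_lt_two (α := ℝ))
  refine ⟨2 ^ j, by positivity, fun e => ?_⟩
  rw [tv_eq, cpow_mul, cpow_th]
  exact tv_upper (sum_qL _) (by linarith) (h _) (by rw [pow_succ]; linarith)

theorem lower (e t : ℕ) (h : tv (2 ^ (e + 1)) t ≤ 1 / 4) : e + 1 ≤ 2 * t := by
  classical
  rw [tv_eq] at h
  obtain ⟨S, h1, h2⟩ := supp_cpow (α := th (finRotate (e + 1)) 0)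
    (S := univ.image fun c => rot (finRotate (e + 1)) * lay 0 ((coin e).symm (c, c)))
    (fun g hg => by
      rw [← thorp_eq, thorp, Nat.card_eq_zero.2 (Or.inl ⟨fun c => hg ?_⟩)]
      · simp
      · exact mem_image.2 ⟨c.1, mem_univ _, (isThorp_iff _ _ _).1 (by simpa using c.2)⟩) t
  have h3 := tv_lower (sum_cpow (sum_th _ _) t) h2 h
  have h4 := h1.trans (Nat.pow_le_pow_left card_image_le t)
  simp only [card_univ, Fintype.card_perm, Fintype.card_fun, Fintype.card_bool, Fintype.card_fin,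
    ← half] at h3 h4
  have h5 := Nat.factorial_mul_pow_le_factorial (m := 2 ^ e) (n := 2 ^ e)
  rw [← mul_two, ← pow_succ] at h5
  have h6 : (2 ^ e + 1) ^ 2 ^ e ≤ (2 ^ (e + 1)).factorial :=
    le_trans (Nat.le_mul_of_pos_left _ (Nat.factorial_pos _)) h5
  have hm : 0 < 2 ^ e := by positivity
  have h7 : (2 ^ e) ^ 2 ^ e < (2 ^ e + 1) ^ 2 ^ e := Nat.pow_lt_pow_left (by omega) hm.ne'
  have h8 : 2 ≤ (2 ^ e + 1) ^ 2 ^ e := le_trans (by omega) (Nat.le_self_pow hm.ne' _)
  have h9 : t ≠ 0 := by rintro rfl; rw [pow_zero] at h4; omega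
  have h10 : 2 ^ (e * 2 ^ e) < 2 ^ (2 ^ e * t + 1) := by rw [pow_mul, pow_succ, pow_mul]; omega
  have h11 := (Nat.pow_lt_pow_iff_right (by norm_num)).1 h10
  have h12 : e ≤ t := by
    by_contra hc
    nlinarith [Nat.mul_le_mul_right (2 ^ e) (show t + 1 ≤ e by omega)]
  omega

end Vale.Agent.P162
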