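import Vale.Agent.P162.Dn2

set_option linter.unusedSectionVars false
set_option linter.unusedVariables false
set_option linter.unusedSimpArgs false

open Matrix Finset Equiv Function

namespace Vale.Agent.P162

section
variable {G H : Type*} [Group G] [Fintype G] [DecidableEq G] [Group H] [Fintype H] [DecidableEq H]

def pt (a : G) : G → ℝ := fun g => if g = a then 1 else 0

lemma ex_pt (a : G) (φ : G → ℝ) : ex (pt a) φ = φ a := by simp [ex, pt]

lemma pt_one_conv (α : G → ℝ) : conv (pt 1) α = α := ex_ext fun φ => by simp [ex_conv, ex_pt]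

lemma conv_pt_one (α : G → ℝ) : conv α (pt 1) = α := ex_ext fun φ => by simp [ex_conv, ex_pt]

lemma push_pt (φ : H →* G) (a : H) : push φ (pt a) = pt (φ a) :=
  ex_ext fun ψ => by simp [ex_push, ex_pt]

lemma tens_pt (B : Type*) [Fintype B] [DecidableEq B] : tens B (pt (1 : G)) = pt 1 := by
  ext c; simp [tens, pt, prod_boole, funext_iff]

lemma sum_conv (α β : G → ℝ) : ∑ g, conv α β g = (∑ g, α g) * ∑ g, β g := by
  have := ex_conv α β fun _ => 1
  simpa [ex, sum_mul] using this

lemma conv_nonneg {α β : G → ℝ} (h : ∀ g, 0 ≤ α g) (h' : ∀ g, 0 ≤ β g) (g : G) : 0 ≤ conv α β g :=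
  sum_nonneg fun _ _ => mul_nonneg (h _) (h' _)

lemma eig_left {q : G → ℝ} {τ : G} (h : ∀ π, q (τ * π) = q π) {μ : ℝ} (hμ : μ ≠ 0) {F : G → ℝ}
    (hF : F ∈ Eig ((cm q)ᵀ * cm q) μ) (g : G) : F (τ * g) = F g := by
  apply mul_left_cancel₀ hμ
  have := mem_Eig.1 hF
  change (μ • F) (τ * g) = (μ • F) g
  rw [← this, ← mulVec_mulVec, cm_tr, cm_mulVec, cm_mulVec]
  refine Fintype.sum_equiv (Equiv.mulRight τ) _ _ fun π => ?_
  simp only [chk, coe_mulRight, mul_assoc]
  rw [← h (π * τ)⁻¹]; simp
end

lemma tens_push {B X Y : Type*} [Fintype B] [DecidableEq B] [Fintype X] [DecidableEq Y]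
    (f : X → Y) (u : X → ℝ) : tens B (push f u) = push (fun c j => f (c j)) (tens B u) := by
  ext g
  simp only [tens, push]
  rw [prod_univ_sum, Fintype.piFinset_univ]
  refine sum_congr rfl fun c _ => ?_
  simp [prod_ite_zero, funext_iff]

variable {D : Type*} [Fintype D] [DecidableEq D]

def lay (t : D) (c : (D → Bool) → Bool) : Perm (D → Bool) :=
  Involutive.toPerm (fun z => update z t (z t ^^ c (update z t false))) fun z => by simp

lemma lay_apply (t : D) (c : (D → Bool) → Bool) (z : D → Bool) :
    lay t c z = update z t (z t ^^ c (update z t false)) := rfl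

noncomputable def step (t : D) : Perm (D → Bool) → ℝ :=
  push (lay t) fun _ => (Fintype.card ((D → Bool) → Bool) : ℝ)⁻¹

noncomputable def qL : List D → Perm (D → Bool) → ℝ
  | [] => pt 1
  | t :: L => conv (step t) (qL L)

lemma ex_step (t : D) (φ : Perm (D → Bool) → ℝ) : ex (step t) φ =
    (Fintype.card ((D → Bool) → Bool) : ℝ)⁻¹ * ∑ c, φ (lay t c) := by
  rw [step, ex_push, ex, mul_sum]

lemma step_nonneg (t : D) (g : Perm (D → Bool)) : 0 ≤ step t g :=
  sum_nonneg fun c _ => by split_ifs <;> positivity

lemma sum_step (t : D) : ∑ g, step t g = 1 := by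
  have := ex_step t fun _ => 1
  simpa [ex] using this

lemma qL_nonneg (L : List D) (g : Perm (D → Bool)) : 0 ≤ qL L g := by
  induction L generalizing g with
  | nil => simp only [qL, pt]; split_ifs <;> norm_num
  | cons t L ih => exact conv_nonneg (step_nonneg t) ih g

lemma sum_qL (L : List D) : ∑ g, qL L g = 1 := by
  induction L with
  | nil => simp [qL, pt]
  | cons t L ih => rw [qL, sum_conv, ih, sum_step, one_mul]

lemma qL_append (L L' : List D) : qL (L ++ L') = conv (qL L) (qL L') := by
  induction L with
  | nil => simp [qL, pt_one_conv]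
  | cons t L ih => rw [List.cons_append, qL, ih, qL, conv_assoc]

def flp (t : D) : Perm (D → Bool) := lay t fun _ => true

lemma flp_apply (t : D) (z : D → Bool) : flp t z = update z t (!z t) := by simp [flp, lay_apply]

lemma flp_ne (t : D) (z : D → Bool) : flp t z ≠ z := fun h => by
  simpa [flp_apply] using congrFun h t

lemma swap_lay (t : D) (z : D → Bool) (c : (D → Bool) → Bool) :
    swap z (flp t z) * lay t c = lay t (update c (update z t false) (!c (update z t false))) := by
  ext1 x
  rw [Perm.mul_apply, lay_apply, lay_apply, flp_apply]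
  by_cases h : update x t false = update z t false
  · have hx : x = update z t (x t) := by
      conv_lhs => rw [← update_eq_self t x, ← update_idem false, h, update_idem]
    rw [h, update_self, hx]
    simp only [update_idem, update_self]
    generalize c (update z t false) = b
    by_cases h2 : (x t ^^ b) = z t
    · rw [h2, update_eq_self, swap_apply_left]; congr 1; rw [← h2]; simp
    · have h3 : (x t ^^ b) = !z t := by revert h2; cases (x t ^^ b) <;> cases z t <;> simp
      rw [h3, swap_apply_right, Bool.xor_not, h3]; simp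
  · rw [update_of_ne h, swap_apply_of_ne_of_ne]
    · intro e; apply h; rw [← e]; simp
    · intro e; apply h; simpa using congrArg (update · t false) e

lemma step_left (t : D) (z : D → Bool) (π : Perm (D → Bool)) :
    step t (swap z (flp t z) * π) = step t π := by
  have hi : Involutive fun c : (D → Bool) → Bool =>
      update c (update z t false) (!c (update z t false)) := fun c => by simp
  simp only [step, push]
  rw [← Equiv.sum_comp hi.toPerm]
  simp [← swap_lay]

lemma qL_left (L : List D) (t : D) (z : D → Bool) (π : Perm (D → Bool)) :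
    qL (L ++ [t]) (swap z (flp t z) * π) = qL (L ++ [t]) π := by
  simp only [qL_append, qL, conv_pt_one]
  simp only [conv, mul_assoc, step_left]

lemma qL_map {D₁ B : Type*} [Fintype D₁] [DecidableEq D₁] [Fintype B] [DecidableEq B]
    (e : (D → Bool) ≃ (D₁ → Bool) × B) (ι : D₁ → D) (h₁ : ∀ t z, (e z).1 t = z (ι t))
    (h₂ : ∀ t z b, e (update z (ι t) b) = (update (e z).1 t b, (e z).2)) (L : List D₁) :
    qL (L.map ι) = push (blk e) (tens B (qL L)) := by
  induction L with
  | nil => simp [qL, tens_pt, push_pt]
  | cons t L ih =>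
    rw [List.map_cons, qL, ih, qL, tens_conv, push_conv]
    congr 1
    refine ex_ext fun φ => ?_
    let E : ((D → Bool) → Bool) ≃ (B → (D₁ → Bool) → Bool) :=
      ((e.trans (Equiv.prodComm _ _)).arrowCongr (Equiv.refl _)).trans (Equiv.curry _ _ _)
    rw [ex_step, step, tens_push, ex_push, ex_push, ex, mul_sum]
    refine Fintype.sum_equiv E _ _ fun c => ?_
    congr 1
    · rw [Fintype.card_congr E, Fintype.card_fun (α := B)]; simp [tens]
    · congr 1; ext1 z
      rw [blk_apply, eq_symm_apply, lay_apply, lay_apply, h₂, h₁]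
      congr 3
      simp [E, ← h₂]

noncomputable def qd (d : ℕ) : Perm (Fin d → Bool) → ℝ := qL (List.finRange d)

lemma qd_add (a b : ℕ) : qd (a + b) =
    conv (push (blk (Fin.appendEquiv a b).symm) (tens _ (qd a)))
      (push (blk ((Fin.appendEquiv a b).symm.trans (Equiv.prodComm _ _))) (tens _ (qd b))) := by
  have : List.finRange (a + b) =
      (List.finRange a).map (Fin.castAdd b) ++ (List.finRange b).map (Fin.natAdd a) := by
    rw [← List.ofFn_id, List.ofFn_add, List.ofFn_eq_map, List.ofFn_eq_map]; rfl
  rw [qd, this, qL_append, qL_map (Fin.appendEquiv a b).symm _ (fun _ _ => rfl),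
    qL_map ((Fin.appendEquiv a b).symm.trans (Equiv.prodComm _ _)) _ (fun _ _ => rfl)]
  · rfl
  · intro t z x
    refine Prod.ext (funext fun i => ?_) (funext fun i => ?_)
    · simp [update_apply]
    · simp [update_apply, Fin.ext_iff]; omega
  · intro t z x
    refine Prod.ext (funext fun i => ?_) (funext fun i => ?_)
    · simp [update_apply]
    · simp [update_apply, Fin.ext_iff]; omega

end Vale.Agent.P162
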