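import Vale.Agent.P162.Step

set_option linter.unusedSectionVars false
set_option linter.unusedVariables false
set_option linter.unusedSimpArgs false

open Matrix Finset Equiv Function

namespace Vale.Agent.P162

lemma exp_le_two_pow {x : ℝ} {k : ℕ} (h : x ≤ k) : Real.exp x ≤ 2 ^ (2 * k) := by
  refine (Real.exp_le_exp.2 h).trans ?_
  rw [← mul_one (k : ℝ), Real.exp_nat_mul, pow_mul]
  exact pow_le_pow_left₀ (by positivity) (by linarith [Real.exp_one_lt_d9]) _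

lemma card_le_pow (a b : ℕ) : Fintype.card ((Fin b → Bool) → Perm (Fin a → Bool)) ≤
    2 ^ (2 ^ (a + b) * (a + b)) := by
  simp only [Fintype.card_fun, Fintype.card_perm, Fintype.card_bool, Fintype.card_fin]
  refine (Nat.pow_le_pow_left (Nat.factorial_le_pow _) _).trans ?_
  rw [← pow_mul, ← pow_mul, ← pow_add]
  exact Nat.pow_le_pow_right (by norm_num) (by rw [mul_comm]; gcongr; omega)

lemma eg_le {a b p : ℕ} (hp : 1 ≤ p) (ha : 4000 * p ^ 4 ≤ a) (hb : b ≤ a + 1) :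
    eg (2 ^ a) p (2 ^ (2 * (186 + 187 * p) + 2)) (2 * b + 2 ^ (2 * (p + 1) ^ 4 + 5)) ≤
      (2 ^ (186 + 187 * p))⁻¹ := by
  set m := 186 + 187 * p with hm
  have hp2 : p ≤ p ^ 2 := Nat.le_self_pow (by norm_num) p
  have hp4 : p ^ 2 ≤ p ^ 4 := Nat.pow_le_pow_right hp (by norm_num)
  have e1 : (p + 1) ^ 2 * (2 * b + 2 ^ (2 * (p + 1) ^ 4 + 5)) * (2 ^ (2 * m + 2)) ^ (p + 1) *
      2 ^ (m + 1) ≤ 2 ^ a := by
    have h1 : (p + 1) ^ 2 ≤ (2 ^ p) ^ 2 := Nat.pow_le_pow_left Nat.lt_two_pow_self 2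
    have h2 : 2 * b + 2 ^ (2 * (p + 1) ^ 4 + 5) ≤ 2 ^ (a / 2) * 2 ^ (2 * (p + 1) ^ 4 + 5) := by
      have h3 := pow_eight (x := a / 2) (by omega)
      have h4 : a / 2 ≤ (a / 2) ^ 8 := Nat.le_self_pow (by norm_num) _
      have h5 : 1 ≤ 2 ^ (2 * (p + 1) ^ 4 + 5) := Nat.one_le_two_pow
      have h6 : 2 * b + 1 ≤ 2 ^ (a / 2) := by omega
      nlinarith
    refine (Nat.mul_le_mul_right _ (Nat.mul_le_mul_right _ (Nat.mul_le_mul h1 h2))).trans ?_
    simp only [← pow_mul, ← pow_add]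
    refine Nat.pow_le_pow_right (by norm_num) ?_
    have h3 : (p + 1) ^ 4 ≤ (2 * p) ^ 4 := Nat.pow_le_pow_left (by omega) 4
    have h4 : (2 * m + 2) * (p + 1) ≤ (748 * p) * (2 * p) := Nat.mul_le_mul (by omega) (by omega)
    have h5 : 748 * p * (2 * p) = 1496 * p ^ 2 := by ring
    rw [mul_pow] at h3
    omega
  have e2 : (p + 1) * (2 * m + 3) ≤ 2 ^ (m + 1) := by
    have h3 := pow_eight (x := m) (by omega)
    have h4 : m ^ 2 ≤ m ^ 8 := Nat.pow_le_pow_right (by omega) (by norm_num)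
    have h5 : (p + 1) * (2 * m + 3) ≤ m * (3 * m) := Nat.mul_le_mul (by omega) (by omega)
    rw [pow_succ 2]; nlinarith
  have e3 : (((p + 1) ^ 2 * (2 * b + 2 ^ (2 * (p + 1) ^ 4 + 5)) : ℕ) : ℝ) / (2 ^ a : ℕ) *
      (2 ^ (2 * m + 2) : ℕ) ^ (p + 1) ≤ (2 ^ (m + 1))⁻¹ := by
    rw [div_mul_eq_mul_div, ← one_div, div_le_div_iff₀ (by positivity) (by positivity), one_mul]
    exact_mod_cast e1
  have e4 : ((p + 1 : ℕ) : ℝ) * (1 + Real.log (2 ^ (2 * m + 2) : ℕ)) / (2 ^ (2 * m + 2) : ℕ) ≤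
      (2 ^ (m + 1))⁻¹ := by
    have h1 : 1 + Real.log (2 ^ (2 * m + 2) : ℕ) ≤ (2 * m + 3 : ℕ) := by
      push_cast
      rw [Real.log_pow]; push_cast
      nlinarith [Real.log_two_lt_d9, (Nat.cast_nonneg m : (0 : ℝ) ≤ m)]
    rw [← one_div, div_le_div_iff₀ (by positivity) (by positivity), one_mul]
    refine (mul_le_mul_of_nonneg_right (mul_le_mul_of_nonneg_left h1 (by positivity))
      (by positivity)).trans ?_
    have : (p + 1) * (2 * m + 3) * 2 ^ (m + 1) ≤ 2 ^ (2 * m + 2) := by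
      rw [show 2 * m + 2 = (m + 1) + (m + 1) by ring, pow_add 2 (m + 1)]
      exact Nat.mul_le_mul_right _ e2
    exact_mod_cast this
  unfold eg
  refine (add_le_add e3 e4).trans (le_of_eq ?_)
  rw [pow_succ]; field_simp; norm_num

lemma step_claim {a b p : ℕ} {y : ℝ} (hy : 16 ≤ y) (ha : Claim a y) (hb : Claim b y)
    (hp : 1 ≤ p) (ha' : 4000 * p ^ 4 ≤ a) (hab : a ≤ b) (hba : b ≤ a + 1) :
    Claim (a + b) (y * (1 + (p : ℝ)⁻¹) ^ 2) := by
  have hp4 : p ≤ p ^ 4 := Nat.le_self_pow (by norm_num) p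
  set m := 186 + 187 * p with hm
  obtain ⟨r, hr⟩ : ∃ r, a + b = m + r := ⟨a + b - m, by omega⟩
  have hJ : 2 ^ (a + b) * (a + b) - 1 + 1 = 2 ^ (a + b) * (a + b) :=
    Nat.sub_add_cancel (Nat.mul_pos (by positivity) (by omega))
  have hE := dense (Fin.appendEquiv a b).symm (qd a) (qd b) (y := y) (by linarith)
    (ha.good hy (by omega)).1.1 (hb.good hy (by omega)).1.2 (p := p) (T' := 2 ^ (2 * m + 2))
    (w := 2 * b + 2 ^ (2 * (p + 1) ^ 4 + 5)) (J := 2 ^ (a + b) * (a + b) - 1) hp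
    Nat.one_le_two_pow
    (by simp only [Fintype.card_fun, Fintype.card_bool, Fintype.card_fin, ← pow_succ']
        exact Nat.pow_le_pow_right (by norm_num) (by omega))
    (by have h1 : Real.exp ((p + 1) ^ 4 + 1) ≤ 2 ^ (2 * ((p + 1) ^ 4 + 1)) :=
          exp_le_two_pow (by push_cast; rfl)
        have h2 := exp_le_two_pow (x := 4 * Real.exp ((p + 1) ^ 4 + 1))
          (k := 2 ^ (2 * (p + 1) ^ 4 + 4)) (by
            push_cast
            rw [show 2 * (p + 1) ^ 4 + 4 = 2 + 2 * ((p + 1) ^ 4 + 1) by ring, pow_add]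
            linarith)
        rw [← pow_succ'] at h2
        simp only [Fintype.card_fun, Fintype.card_bool, Fintype.card_fin]
        push_cast
        rw [pow_add, ← pow_mul, mul_comm b]
        gcongr)
    (by rw [hJ]; exact card_le_pow a b) (by rw [hJ, add_comm a]; exact card_le_pow b a)
  rw [← cm_conv, ← qd_add] at hE
  simp only [Fintype.card_fun, Fintype.card_bool, Fintype.card_fin] at hE
  have hJ' : ((2 ^ (a + b) * (a + b) - 1 : ℕ) : ℝ) + 1 ≤ 2 ^ (2 * (a + b)) := by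
    have : 2 ^ (a + b) * (a + b) - 1 + 1 ≤ 2 ^ (2 * (a + b)) := by
      rw [hJ, two_mul, pow_add 2 (a + b)]
      exact Nat.mul_le_mul_left _ Nat.lt_two_pow_self.le
    exact_mod_cast this
  have hx : Real.exp ((2 ^ (a + b) : ℕ) * eg (2 ^ a) p (2 ^ (2 * m + 2))
      (2 * b + 2 ^ (2 * (p + 1) ^ 4 + 5))) ≤ 2 ^ (2 * 2 ^ r) := by
    refine exp_le_two_pow ((mul_le_mul_of_nonneg_left (eg_le hp ha' hba) (by positivity)).trans
      (le_of_eq ?_))
    rw [hr, ← hm]; push_cast; rw [pow_add]; field_simp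
  have hp' : (p + 1 : ℝ) ≤ 2 ^ p := by exact_mod_cast Nat.lt_two_pow_self
  have hE' : T (y * (1 + (p : ℝ)⁻¹)) (cm (qd (a + b))) ≤
      2 ^ (9 * (a + b) + 2 * p + 8 + 2 * 2 ^ a + 2 * 2 ^ b + 2 * 2 ^ r) := by
    refine hE.trans ?_
    calc _ ≤ (4 * (2 ^ (a + b) : ℕ)) * (4 * (2 ^ p) ^ 2) *
        ((2 ^ (2 * (a + b))) ^ 2 * (2 * 2 ^ 2 ^ b) ^ 2) *
        ((2 ^ (2 * (a + b))) ^ 2 * (2 * 2 ^ 2 ^ a) ^ 2) * (2 : ℝ) ^ (2 * 2 ^ r) := by
          gcongr <;> norm_num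
      _ = _ := by push_cast; ring
  refine step_core (k₁ := 2 ^ (r + p + 3)) hy ha hb (by omega) hab hba hp hE' (le_of_eq ?_) ?_
  · simp only [← pow_mul, ← pow_add]; congr 1; omega
  · rw [show (4 : ℝ) = 2 ^ 2 by norm_num]
    simp only [← pow_mul, ← pow_add]
    refine pow_le_pow_right₀ (by norm_num) ?_
    have h1 : 2 ^ b ≤ 2 * 2 ^ a := by
      rw [← pow_succ']; exact Nat.pow_le_pow_right (by norm_num) hba
    have h2 : 4 * 2 ^ a ≤ 2 ^ r := by
      rw [show 4 = 2 ^ 2 by norm_num, ← pow_add]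
      exact Nat.pow_le_pow_right (by norm_num) (by omega)
    have h3 := pow_eight (x := a) (by omega)
    have h4 : a ≤ a ^ 8 := Nat.le_self_pow (by norm_num) _
    have h5 : p + 1 ≤ 2 ^ p := Nat.lt_two_pow_self
    have h6 : 2 + (9 * (a + b) + 2 * p + 8 + 2 * 2 ^ a + 2 * 2 ^ b + 2 * 2 ^ r) ≤ 4 * 2 ^ r := by
      omega
    rw [show 2 ^ (r + p + 3) / 2 = 4 * 2 ^ r * 2 ^ p by
      rw [pow_succ, Nat.mul_div_cancel _ (by norm_num)]; ring]
    nlinarith [Nat.mul_le_mul h6 h5]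

end Vale.Agent.P162
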