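import Vale.Agent.P162.ALT

set_option linter.unusedSectionVars false
set_option linter.unusedVariables false
set_option linter.unusedSimpArgs false

open Matrix Finset

namespace Vale.Agent.P162

variable {n m k : Type*} [Fintype n] [DecidableEq n] [Fintype m] [DecidableEq m]
  [Fintype k] [DecidableEq k]

def orth (U : Submodule ℝ (n → ℝ)) : Submodule ℝ (n → ℝ) where
  carrier := {v | ∀ w ∈ U, w ⬝ᵥ v = 0}
  add_mem' := fun ha hb w hw => by rw [dotProduct_add, ha w hw, hb w hw, add_zero]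
  zero_mem' := fun w hw => dotProduct_zero w
  smul_mem' := fun c v hv w hw => by rw [dotProduct_smul, hv w hw, smul_zero]

lemma mem_orth {U : Submodule ℝ (n → ℝ)} {v : n → ℝ} : v ∈ orth U ↔ ∀ w ∈ U, w ⬝ᵥ v = 0 :=
  Iff.rfl

lemma orth_anti {U V : Submodule ℝ (n → ℝ)} (h : U ≤ V) : orth V ≤ orth U :=
  fun v hv w hw => hv w (h hw)

lemma eq_zero_of_orth {U : Submodule ℝ (n → ℝ)} {v : n → ℝ} (h : v ∈ U) (h' : v ∈ orth U) :
    v = 0 := dotProduct_self_eq_zero.1 (h' v h)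

lemma exists_pr (U : Submodule ℝ (n → ℝ)) :
    ∃ P : Matrix n n ℝ, ∀ v, P *ᵥ v ∈ U ∧ v - P *ᵥ v ∈ orth U := by
  let e := WithLp.linearEquiv 2 ℝ (n → ℝ)
  let U' : Submodule ℝ (EuclideanSpace ℝ n) := U.comap e.toLinearMap
  let f : (n → ℝ) →ₗ[ℝ] (n → ℝ) :=
    e.toLinearMap ∘ₗ U'.starProjection.toLinearMap ∘ₗ e.symm.toLinearMap
  refine ⟨LinearMap.toMatrix' f, fun v => ?_⟩
  rw [LinearMap.toMatrix'_mulVec]
  refine ⟨U'.starProjection_apply_mem (e.symm v), fun w hw => ?_⟩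
  have := U'.starProjection_inner_eq_zero (e.symm v) (e.symm w) (by simpa [U'] using hw)
  rw [EuclideanSpace.inner_eq_star_dotProduct] at this
  simp only [WithLp.ofLp_sub, star_trivial, dotProduct_sub] at this ⊢
  exact this

noncomputable def pr (U : Submodule ℝ (n → ℝ)) : Matrix n n ℝ := (exists_pr U).choose

lemma pr_mem (U : Submodule ℝ (n → ℝ)) (v : n → ℝ) : pr U *ᵥ v ∈ U :=
  ((exists_pr U).choose_spec v).1

lemma pr_orth (U : Submodule ℝ (n → ℝ)) (v : n → ℝ) : v - pr U *ᵥ v ∈ orth U :=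
  ((exists_pr U).choose_spec v).2

lemma pr_eq_of {U : Submodule ℝ (n → ℝ)} {v p : n → ℝ} (hp : p ∈ U) (h : v - p ∈ orth U) :
    pr U *ᵥ v = p := by
  rw [← sub_eq_zero]
  refine eq_zero_of_orth (U.sub_mem (pr_mem U v) hp) ?_
  have := (orth U).sub_mem h (pr_orth U v)
  convert this using 1; abel

lemma pr_self {U : Submodule ℝ (n → ℝ)} {v : n → ℝ} (h : v ∈ U) : pr U *ᵥ v = v :=
  pr_eq_of h (by simp)

lemma pr_zero {U : Submodule ℝ (n → ℝ)} {v : n → ℝ} (h : v ∈ orth U) : pr U *ᵥ v = 0 :=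
  pr_eq_of U.zero_mem (by simpa)

lemma mat_ext {A B : Matrix m n ℝ} (h : ∀ v, A *ᵥ v = B *ᵥ v) : A = B := by
  ext i j
  simpa using congrFun (h (Pi.single j 1)) i

lemma pr_unique {U : Submodule ℝ (n → ℝ)} {P : Matrix n n ℝ} (h : ∀ v, P *ᵥ v ∈ U)
    (h' : ∀ v, v - P *ᵥ v ∈ orth U) : pr U = P := mat_ext fun v => pr_eq_of (h v) (h' v)

lemma pr_idem (U : Submodule ℝ (n → ℝ)) : pr U * pr U = pr U :=
  mat_ext fun v => by rw [← mulVec_mulVec, pr_self (pr_mem U v)]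

lemma pr_symm (U : Submodule ℝ (n → ℝ)) : (pr U)ᵀ = pr U := by
  have h : (pr U)ᵀ * pr U = (pr U)ᵀ := by
    refine mat_ext fun v => ?_
    rw [← sub_eq_zero, ← dotProduct_self_eq_zero]
    set w := ((pr U)ᵀ * pr U) *ᵥ v - (pr U)ᵀ *ᵥ v
    have : w = - ((pr U)ᵀ *ᵥ (v - pr U *ᵥ v)) := by
      simp only [w]; rw [mulVec_sub, mulVec_mulVec]; abel
    conv_lhs => enter [2]; rw [this]
    rw [dotProduct_neg, ← dot_tr, pr_orth U v _ (pr_mem U w), neg_zero]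
  have h2 := congrArg transpose h
  rw [tmul_symm, transpose_transpose] at h2
  rw [← h, h2]

lemma opLe_pr (U : Submodule ℝ (n → ℝ)) : OpLe (pr U) 1 := opLe_proj (pr_symm U) (pr_idem U)

def Inv (B : Matrix n n ℝ) (U : Submodule ℝ (n → ℝ)) : Prop := ∀ v ∈ U, B *ᵥ v ∈ U

lemma Inv.orth {B : Matrix n n ℝ} {U : Submodule ℝ (n → ℝ)} (h : Inv Bᵀ U) : Inv B (orth U) :=
  fun v hv w hw => by
    rw [dotProduct_comm, dot_tr, dotProduct_comm]; exact hv _ (h w hw)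

lemma Inv.inf {B : Matrix n n ℝ} {U V : Submodule ℝ (n → ℝ)} (h : Inv B U) (g : Inv B V) :
    Inv B (U ⊓ V) := fun v hv => ⟨h v hv.1, g v hv.2⟩

lemma Inv.mul {A B : Matrix n n ℝ} {U : Submodule ℝ (n → ℝ)} (h : Inv A U) (g : Inv B U) :
    Inv (A * B) U := fun v hv => by rw [← mulVec_mulVec]; exact h _ (g v hv)

lemma Inv.iSup {B : Matrix n n ℝ} {ι : Sort*} {U : ι → Submodule ℝ (n → ℝ)}
    (h : ∀ i, Inv B (U i)) : Inv B (⨆ i, U i) := by
  intro v hv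
  refine Submodule.iSup_induction U (motive := fun v => B *ᵥ v ∈ ⨆ i, U i) hv ?_ ?_ ?_
  · exact fun i x hx => Submodule.mem_iSup_of_mem i (h i x hx)
  · simp
  · intro x y hx hy; rw [mulVec_add]; exact Submodule.add_mem _ hx hy

lemma pr_comm {B : Matrix n n ℝ} {U : Submodule ℝ (n → ℝ)} (h : Inv B U) (h' : Inv Bᵀ U) :
    pr U * B = B * pr U := mat_ext fun v => by
  rw [← mulVec_mulVec, ← mulVec_mulVec]
  refine pr_eq_of (h _ (pr_mem U v)) ?_
  rw [← mulVec_sub]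
  exact h'.orth _ (pr_orth U v)

lemma inv_of_comm {B : Matrix n n ℝ} {U : Submodule ℝ (n → ℝ)} (h : pr U * B = B * pr U) :
    Inv B U := fun v hv => by
  rw [← pr_self hv, mulVec_mulVec, ← h, ← mulVec_mulVec]; exact pr_mem _ _

lemma Inv.fc {A : Matrix n n ℝ} {U : Submodule ℝ (n → ℝ)} (hA : Aᵀ = A) (h : Inv A U)
    (f : ℝ → ℝ) : Inv (fc f A) U :=
  inv_of_comm (fc_comm hA (pr_comm h (by rwa [hA])) f)

lemma pr_inf {U V : Submodule ℝ (n → ℝ)} (h : Inv (pr V) U) : pr (U ⊓ V) = pr U * pr V := by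
  have hc := pr_comm h (by rwa [pr_symm])
  refine pr_unique (fun v => ⟨?_, ?_⟩) fun v w hw => ?_
  · rw [← mulVec_mulVec]; exact pr_mem _ _
  · rw [hc, ← mulVec_mulVec]; exact pr_mem _ _
  · rw [dotProduct_sub, dotProduct_comm w (_ *ᵥ v), dot_tr, transpose_mul, pr_symm, pr_symm,
      ← mulVec_mulVec, pr_self hw.1, pr_self hw.2, dotProduct_comm, sub_self]

lemma pr_orth_eq (U : Submodule ℝ (n → ℝ)) : pr (orth U) = 1 - pr U := by
  refine pr_unique (fun v => ?_) fun v w hw => ?_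
  · rw [sub_mulVec, one_mulVec]; exact pr_orth U v
  · rw [sub_mulVec, one_mulVec, sub_sub_cancel, dotProduct_comm]; exact hw _ (pr_mem U v)

lemma pr_split {U V : Submodule ℝ (n → ℝ)} (h : U ≤ V) : pr V = pr U + pr (V ⊓ orth U) := by
  have h1 : Inv (pr (orth U)) V := fun v hv => by
    rw [pr_orth_eq, sub_mulVec, one_mulVec]; exact V.sub_mem hv (h (pr_mem U v))
  have h2 : pr V * pr U = pr U := mat_ext fun v => by
    rw [← mulVec_mulVec, pr_self (h (pr_mem U v))]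
  rw [pr_inf h1, pr_orth_eq, Matrix.mul_sub, h2]; simp

lemma trace_pr (U : Submodule ℝ (n → ℝ)) : (pr U).trace = Module.finrank ℝ U := by
  have : LinearMap.IsProj U (toLin' (pr U)) :=
    ⟨fun v => pr_mem U v, fun v hv => pr_self hv⟩
  rw [← this.trace, Matrix.trace_toLin'_eq]

def Eig (A : Matrix n n ℝ) (μ : ℝ) : Submodule ℝ (n → ℝ) where
  carrier := {v | A *ᵥ v = μ • v}
  add_mem' := fun {a b} (ha : A *ᵥ a = μ • a) (hb : A *ᵥ b = μ • b) => by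
    show A *ᵥ (a + b) = μ • (a + b)
    rw [mulVec_add, ha, hb, smul_add]
  zero_mem' := by simp
  smul_mem' := fun c v (hv : A *ᵥ v = μ • v) => by
    show A *ᵥ (c • v) = μ • c • v
    rw [mulVec_smul, hv, smul_comm]

lemma mem_Eig {A : Matrix n n ℝ} {μ : ℝ} {v : n → ℝ} : v ∈ Eig A μ ↔ A *ᵥ v = μ • v := Iff.rfl

lemma inv_Eig {A B : Matrix n n ℝ} (h : A * B = B * A) (μ : ℝ) : Inv B (Eig A μ) := fun v hv => by
  rw [mem_Eig, mulVec_mulVec, h, ← mulVec_mulVec, mem_Eig.1 hv, mulVec_smul]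

lemma pr_Eig {A : Matrix n n ℝ} (hA : Aᵀ = A) (μ : ℝ) :
    pr (Eig A μ) = fc (fun x => if x = μ then 1 else 0) A := by
  refine pr_unique (fun v => ?_) fun v w hw => ?_
  · rw [mem_Eig, mulVec_mulVec, ← smul_mulVec, ← fc_smul]
    conv_lhs => enter [1, 1]; rw [← fc_id hA]
    rw [fc_mul]; congr 2; ext x; split_ifs with h <;> simp [h]
  · rw [dotProduct_sub, dotProduct_comm w (_ *ᵥ v), dot_tr, fc_symm, fc_eigvec hA (mem_Eig.1 hw),
      if_pos rfl, one_smul, dotProduct_comm, sub_self]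

lemma fc_eq_sum {A : Matrix n n ℝ} (hA : Aᵀ = A) (f : ℝ → ℝ) :
    fc f A = ∑ μ ∈ univ.image (ev A), f μ • pr (Eig A μ) := by
  simp only [pr_Eig hA, ← fc_smul, ← fc_sum]
  refine fc_congr fun i => ?_
  simp

lemma ab_pr {y : ℝ} (hy : 0 < y) {M : Matrix m n ℝ} {U : Submodule ℝ (n → ℝ)}
    (h : Inv (Mᵀ * M) U) : ab y (M * pr U) = ab y M * pr U := by
  have hc := pr_comm h (by rwa [tmul_symm])
  rw [ab, ab, ← fc_mul_proj (tmul_symm M) (pr_symm U) (pr_idem U) hc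
    (f := fun x => x ^ (y / 2)) (Real.zero_rpow (by linarith))]
  congr 1
  rw [transpose_mul, pr_symm, Matrix.mul_assoc, ← Matrix.mul_assoc Mᵀ, ← Matrix.mul_assoc, hc,
    Matrix.mul_assoc, pr_idem]

lemma T_pr {y : ℝ} (hy : 0 < y) {M : Matrix m n ℝ} {U : Submodule ℝ (n → ℝ)}
    (h : Inv (Mᵀ * M) U) : T y (M * pr U) = (ab y M * pr U).trace := by
  rw [T, ab_pr hy h]

lemma T_pr_sum {y : ℝ} (hy : 0 < y) {M : Matrix m n ℝ} {U : Submodule ℝ (n → ℝ)}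
    (h : Inv (Mᵀ * M) U) : T y (M * pr U) = ∑ μ ∈ univ.image (ev (Mᵀ * M)),
      μ ^ (y / 2) * Module.finrank ℝ ↥(Eig (Mᵀ * M) μ ⊓ U) := by
  rw [T_pr hy h, ab, fc_eq_sum (tmul_symm M), Matrix.sum_mul, trace_sum]
  refine sum_congr rfl fun μ _ => ?_
  rw [Matrix.smul_mul, trace_smul, ← pr_inf, trace_pr, smul_eq_mul]
  exact inv_Eig (pr_comm h (by rwa [tmul_symm])).symm μ

lemma T_cmp {y c c' : ℝ} (hy : 0 < y) {M : Matrix m n ℝ} {U U' : Submodule ℝ (n → ℝ)}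
    (h : Inv (Mᵀ * M) U) (h' : Inv (Mᵀ * M) U')
    (hc : ∀ μ, c * Module.finrank ℝ ↥(Eig (Mᵀ * M) μ ⊓ U) ≤
      c' * Module.finrank ℝ ↥(Eig (Mᵀ * M) μ ⊓ U')) :
    c * T y (M * pr U) ≤ c' * T y (M * pr U') := by
  rw [T_pr_sum hy h, T_pr_sum hy h', mul_sum, mul_sum]
  refine sum_le_sum fun μ hμ => ?_
  obtain ⟨i, -, rfl⟩ := mem_image.1 hμ
  have := mul_le_mul_of_nonneg_left (hc (ev (Mᵀ * M) i)) (Real.rpow_nonneg (ev_nonneg M i) (y / 2))
  linarith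

lemma T_hi {y z N t : ℝ} (hy : 0 < y) (hz : y ≤ z) (hN : 0 < N) {M : Matrix m n ℝ}
    {U : Submodule ℝ (n → ℝ)} (h : Inv (Mᵀ * M) U) (ht : T y (M * pr U) ≤ t)
    (hc : ∀ μ, μ ≠ 0 → Eig (Mᵀ * M) μ ⊓ U ≠ ⊥ → N ≤ Module.finrank ℝ ↥(Eig (Mᵀ * M) μ ⊓ U)) :
    T z (M * pr U) ≤ (t / N) ^ (z / y - 1) * t := by
  have ht0 : 0 ≤ t := (T_nonneg _ _).trans ht
  refine le_trans ?_ (mul_le_mul_of_nonneg_left ht (by positivity))
  rw [T_pr_sum hy h] at ht ⊢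
  rw [T_pr_sum (by linarith) h, mul_sum]
  refine sum_le_sum fun μ hμ => ?_
  have h0 : 0 ≤ μ := by obtain ⟨i, -, rfl⟩ := mem_image.1 hμ; exact ev_nonneg M i
  by_cases h1 : μ = 0
  · rw [h1, Real.zero_rpow (by linarith), Real.zero_rpow (by linarith)]; simp
  by_cases h2 : Eig (Mᵀ * M) μ ⊓ U = ⊥
  · rw [h2]; simp
  have h3 : μ ^ (y / 2) ≤ t / N := by
    rw [le_div_iff₀ hN]
    refine le_trans (mul_le_mul_of_nonneg_left (hc μ h1 h2) (by positivity)) (le_trans ?_ ht)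
    refine single_le_sum (f := fun μ : ℝ => μ ^ (y / 2) *
      (Module.finrank ℝ ↥(Eig (Mᵀ * M) μ ⊓ U) : ℝ)) (fun ν hν => ?_) hμ
    obtain ⟨i, -, rfl⟩ := mem_image.1 hν
    exact mul_nonneg (Real.rpow_nonneg (ev_nonneg M i) _) (by positivity)
  have hzy : 0 ≤ z / y - 1 := by rw [sub_nonneg, le_div_iff₀ hy]; linarith
  have : μ ^ (z / 2) = (μ ^ (y / 2)) ^ (z / y - 1) * μ ^ (y / 2) := by
    rw [← Real.rpow_mul h0, ← Real.rpow_add' h0]
    · congr 1; field_simp; ring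
    · have : y / 2 * (z / y - 1) + y / 2 = z / 2 := by field_simp; ring
      rw [this]; linarith
  rw [this, ← mul_assoc]
  refine mul_le_mul_of_nonneg_right (mul_le_mul_of_nonneg_right
    (Real.rpow_le_rpow (by positivity) h3 hzy) (by positivity)) (by positivity)

end Vale.Agent.P162
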