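import Vale.Agent.P162.Tup

set_option linter.unusedSectionVars false
set_option linter.unusedVariables false
set_option linter.unusedSimpArgs false

open Matrix Finset Equiv Function

namespace Vale.Agent.P162

variable {ι Ω : Type*} [Fintype ι] [DecidableEq ι] [Fintype Ω] [DecidableEq Ω]

lemma ovl_single {e : ι → Ω} (he : Injective e) (S : Finset ι) {F : Perm Ω → ℝ}
    (hF : F ∈ Vs (S.image e)) (h5 : 5 * Fintype.card ι ≤ Fintype.card Ω) [Nonempty Ω] {θ : ℝ}
    (h0 : 0 ≤ θ) (h1 : θ ≤ 1) (hθ : Fintype.card ι ≤ θ ^ 2 * Fintype.card Ω) :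
    (Pi0 ι Ω *ᵥ ((Lh e)ᵀ *ᵥ F)) ⬝ᵥ (Pi0 ι Ω *ᵥ ((Lh e)ᵀ *ᵥ F)) ≤
      (10 * θ) ^ (Fintype.card ι - S.card) * (F ⬝ᵥ F) := by
  classical
  set s := Fintype.card Ω
  set l := Fintype.card ι
  set r := l - S.card with hr
  have hSl : S.card ≤ l := card_le_univ S
  set m : ℝ := ((s - S.card).factorial : ℝ) with hm
  have hm0 : 0 < m := by positivity
  let hb : (ι → Ω) → ℝ := fun v => m⁻¹ * ∑ g : Perm Ω, ind (∀ τ ∈ S, g (e τ) = v τ) * F g
  have hb1 : ∀ (g : Perm Ω) v, (∀ τ ∈ S, g (e τ) = v τ) → F g = hb v := by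
    intro g v h
    simp only [hb]
    rw [sum_congr rfl (g := fun g' : Perm Ω => ind (∀ τ ∈ S, g' (e τ) = v τ) * F g) fun g' _ => by
      by_cases h' : ∀ τ ∈ S, g' (e τ) = v τ
      · rw [hF g' g fun x hx => by
          obtain ⟨τ, hτ, rfl⟩ := mem_image.1 hx; rw [h' τ hτ, h τ hτ]]
      · simp [ind_neg h'], ← sum_mul, sum_ind_fiber he,
      ind_pos (p := Set.InjOn v S) fun a ha b hb hab =>
        he (g.injective (by rw [h a ha, h b hb, hab])), ← hm]
    field_simp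
  have hb2 : ∀ τ ∈ Sᶜ, ∀ v x, hb (update v τ x) = hb v := by
    intro τ hτ v x
    simp only [hb]
    congr 1
    refine sum_congr rfl fun g _ => ?_
    rw [ind_congr (forall₂_congr fun j hj => by
      rw [update_of_ne (fun e : j = τ => mem_compl.1 hτ (e ▸ hj))])]
  have hb3 : m * ∑ v, hb v ^ 2 ≤ s ^ r * (F ⬝ᵥ F) := by
    have e1 : ∀ v, m * hb v ^ 2 = ∑ g : Perm Ω, ind (∀ τ ∈ S, g (e τ) = v τ) * F g ^ 2 := by
      intro v
      rw [sum_congr rfl (g := fun g : Perm Ω => ind (∀ τ ∈ S, g (e τ) = v τ) * hb v ^ 2)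
        fun g _ => by
          by_cases h' : ∀ τ ∈ S, g (e τ) = v τ
          · rw [hb1 g v h']
          · simp [ind_neg h'], ← sum_mul, sum_ind_fiber he]
      by_cases h : Set.InjOn v S
      · rw [ind_pos h, one_mul]
      · have : hb v = 0 := by
          simp only [hb]
          rw [sum_eq_zero, mul_zero]
          intro g _
          rw [ind_neg, zero_mul]
          exact fun hg => h fun a ha b hb hab => he (g.injective (by rw [hg a ha, hg b hb, hab]))
        simp [this]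
    rw [mul_sum, sum_congr rfl fun v _ => e1 v, sum_comm, dotProduct, mul_sum]
    refine le_of_eq (sum_congr rfl fun g _ => ?_)
    rw [← sum_mul, sq]
    congr 1
    have := card_agree S (g ∘ e)
    simp only [ind_eq_ite, sum_boole]
    norm_cast
    rw [← this]; congr 1; ext; simp [eq_comm]
  set c := (√((s - l).factorial : ℝ))⁻¹
  have e2 : (Lh e)ᵀ *ᵥ F = (c * (s - l).factorial) • fun v => ind (Injective v) * hb v := by
    ext v
    rw [LhT_mulVec, sum_congr rfl (g := fun g : Perm Ω => ind (g ∘ e = v) * hb v) fun g _ => by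
      by_cases h : g ∘ e = v
      · rw [hb1 g v fun τ _ => congrFun h τ]
      · simp [ind_neg h], ← sum_mul, sum_ind_fiber' he]
    simp only [Pi.smul_apply, smul_eq_mul]; ring
  let gR : (ι → Ω) → ℝ :=
    fun v => ∑ A ∈ Sᶜ.powerset, (-1 : ℝ) ^ (Sᶜ \ A).card • ind (Set.InjOn v ↑(S ∪ A))
  have e3 : Pi0 ι Ω *ᵥ (fun v => ind (Injective v) * hb v) =
      Pi0 ι Ω *ᵥ fun v => gR v * hb v := by
    have : (fun v => gR v * hb v) = ∑ A ∈ Sᶜ.powerset, (-1 : ℝ) ^ (Sᶜ \ A).card •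
        fun v => ind (Set.InjOn v ↑(S ∪ A)) * hb v := by
      ext v; simp [gR, sum_mul, mul_assoc]
    rw [this, mulVec_sum, sum_eq_single Sᶜ]
    · simp
    · intro A hA hne
      obtain ⟨τ, hτ, hτ'⟩ := exists_of_ssubset (Finset.ssubset_iff_subset_ne.2 ⟨mem_powerset.1 hA, hne⟩)
      rw [mulVec_smul, Pi0_kill (τ := τ), smul_zero]
      intro v x
      rw [hb2 τ hτ]
      congr 1
      refine ind_congr (Set.EqOn.injOn_iff fun j hj => update_of_ne ?_ _ _)
      rintro rfl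
      rcases mem_union.1 hj with h | h
      · exact mem_compl.1 hτ h
      · exact hτ' h
    · simp
  have e4 : ∀ v, (gR v * hb v) * (gR v * hb v) ≤ 4 ^ r * (hb v ^ 2 *
      (if ∀ a ∈ Sᶜ, ∃ b, b ≠ a ∧ v a = v b then 1 else 0)) := by
    intro v
    split_ifs with hc
    · have : |gR v| ≤ 2 ^ r := by
        refine (abs_sum_le_sum_abs _ _).trans ((sum_le_card_nsmul _ _ 1 fun A _ => ?_).trans ?_)
        · rw [smul_eq_mul, abs_mul, abs_pow, abs_neg, abs_one, one_pow, one_mul,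
            abs_of_nonneg (ind_nonneg _)]
          exact ind_le_one _
        · simp [card_compl, hr, l]
      have h2 : gR v ^ 2 ≤ 4 ^ r := by
        rw [← sq_abs, show (4 : ℝ) = 2 ^ 2 by norm_num, ← pow_mul, mul_comm, pow_mul]
        exact pow_le_pow_left₀ (abs_nonneg _) this 2
      nlinarith [mul_le_mul_of_nonneg_right h2 (sq_nonneg (hb v))]
    · push Not at hc
      obtain ⟨τ, hτ, hτ'⟩ := hc
      have : gR v = 0 := van Sᶜ (-1) _ hτ fun A hA => by
        rw [neg_neg, one_smul, union_insert, coe_insert, Set.injOn_insert (by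
          simp only [mem_coe, mem_union, not_or]
          exact ⟨mem_compl.1 hτ, fun h => notMem_erase τ _ (hA h)⟩)]
        refine ind_congr (and_iff_left ?_)
        rintro ⟨b, hb, hb'⟩
        refine hτ' b ?_ hb'.symm
        rintro rfl
        rcases mem_union.1 hb with h | h
        · exact mem_compl.1 hτ h
        · exact notMem_erase _ _ (hA h)
      simp [this]
  have e5 := cov (ι := ι) (A := Ω) (· = ·) (fun a b => Eq.symm) (D := 1) (θ := θ)
    (fun a => by norm_cast; exact card_le_one.2 (by simp +contextual)) h0 h1 (by simpa using hθ) Sᶜ (fun v => hb v ^ 2)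
    (fun v => sq_nonneg _) (fun z hz f x => by rw [hb2 z hz])
  have e6 : (fun v => gR v * hb v) ⬝ᵥ (fun v => gR v * hb v) ≤
      4 ^ r * ((2 * θ) ^ r * ∑ v, hb v ^ 2) := by
    refine (sum_le_sum fun v _ => e4 v).trans ?_
    rw [← mul_sum]
    refine mul_le_mul_of_nonneg_left ?_ (by positivity)
    rw [card_compl] at e5
    exact le_trans (le_of_eq (by congr!)) e5
  have e7 : (Pi0 ι Ω *ᵥ fun v => gR v * hb v) ⬝ᵥ (Pi0 ι Ω *ᵥ fun v => gR v * hb v) ≤
      (fun v => gR v * hb v) ⬝ᵥ (fun v => gR v * hb v) := by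
    rw [← nrm_sq, ← nrm_sq]
    exact pow_le_pow_left₀ (nrm_nonneg _) (by simpa using opLe_Pi0 _) 2
  rw [e2, mulVec_smul, e3, smul_dotProduct, dotProduct_smul, smul_eq_mul, smul_eq_mul, ← mul_assoc]
  have e8 : c * (s - l).factorial * (c * (s - l).factorial) = (s - l).factorial := by
    linear_combination ((s - l).factorial : ℝ) * cc (s - l)
  have e9 : ((s - l).factorial : ℝ) * (4 * s) ^ r ≤ 5 ^ r * m := by
    have h2 := Nat.factorial_mul_pow_le_factorial (m := s - l) (n := r)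
    rw [show s - l + r = s - S.card by omega] at h2
    have h3 : (4 * s) ^ r ≤ (5 * (s - l + 1)) ^ r := Nat.pow_le_pow_left (by omega) r
    have : (s - l).factorial * (4 * s) ^ r ≤ 5 ^ r * (s - S.card).factorial := by
      rw [mul_pow 5] at h3
      nlinarith [Nat.mul_le_mul_left (s - l).factorial h3, Nat.mul_le_mul_left (5 ^ r) h2]
    rw [hm]; exact_mod_cast this
  rw [e8]
  refine (mul_le_mul_of_nonneg_left (e7.trans e6) (by positivity)).trans ?_
  refine le_of_mul_le_mul_left ?_ hm0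
  have hS : 0 ≤ F ⬝ᵥ F := dot_self_nonneg F
  calc m * ((s - l).factorial * (4 ^ r * ((2 * θ) ^ r * ∑ v, hb v ^ 2)))
      = (s - l).factorial * 4 ^ r * (2 * θ) ^ r * (m * ∑ v, hb v ^ 2) := by ring
    _ ≤ (s - l).factorial * 4 ^ r * (2 * θ) ^ r * (s ^ r * (F ⬝ᵥ F)) :=
        mul_le_mul_of_nonneg_left hb3 (by positivity)
    _ = ((s - l).factorial * (4 * s) ^ r) * ((2 * θ) ^ r * (F ⬝ᵥ F)) := by rw [mul_pow 4]; ring
    _ ≤ (5 ^ r * m) * ((2 * θ) ^ r * (F ⬝ᵥ F)) := mul_le_mul_of_nonneg_right e9 (by positivity)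
    _ = _ := by rw [show 10 * θ = 5 * (2 * θ) by ring, mul_pow 5]; ring

lemma ovl {e : ι → Ω} (he : Injective e) {j : ℕ} {F : Perm Ω → ℝ}
    (hF : F ∈ Lev Ω j ⊓ Vs (univ.image e)) (h5 : 5 * Fintype.card ι ≤ Fintype.card Ω)
    (hj : j ≤ Fintype.card ι) [Nonempty Ω] {θ : ℝ}
    (h0 : 0 ≤ θ) (h1 : θ ≤ 1) (hθ : Fintype.card ι ≤ θ ^ 2 * Fintype.card Ω) :
    nrm (Pi0 ι Ω *ᵥ ((Lh e)ᵀ *ᵥ F)) ≤
      (2 ^ (2 * Fintype.card ι + 1) * √(10 * θ) ^ (Fintype.card ι - j)) * nrm F := by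
  have hT : (univ.image e).card = Fintype.card ι := by rw [card_image_of_injective _ he, card_univ]
  obtain ⟨h, hh⟩ := (Submodule.mem_iSup_finset_iff_exists_sum _ _).1
    (cover (ri_Lev j) le_rfl _ hF)
  have hn := nrm_nonneg F
  conv_lhs => rw [← hh, mulVec_sum, mulVec_sum]
  refine (nrm_sum_le _ _).trans ((sum_le_card_nsmul _ _
    (√(10 * θ) ^ (Fintype.card ι - j) * (2 ^ (j + 1) * nrm F)) fun S hS => ?_).trans ?_)
  · have h2 := extract (j := j) (by omega) (T := univ.image e) (by omega) (fun S => h S)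
      (fun S => (h S).2.2) hS (h S).2.1.2
    rw [hh] at h2
    obtain ⟨hS1, hS2⟩ := mem_powersetCard.1 hS
    obtain ⟨S', -, rfl⟩ := subset_image_iff.1 hS1
    rw [card_image_of_injective _ he] at hS2
    have h3 := ovl_single he S' (h _).2.2 h5 h0 h1 hθ
    refine le_trans (nrm_le_of_sq (mul_nonneg (by positivity) (nrm_nonneg _))
      (h3.trans (le_of_eq ?_))) (mul_le_mul_of_nonneg_left h2 (by positivity))
    rw [mul_pow (_ ^ _), nrm_sq, ← pow_mul, mul_comm _ 2, pow_mul, Real.sq_sqrt (by positivity), hS2]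
  · rw [card_powersetCard, hT, nsmul_eq_mul]
    have h2 : ((Fintype.card ι).choose j : ℝ) ≤ 2 ^ Fintype.card ι := by
      exact_mod_cast Nat.choose_le_two_pow _ _
    have h3 : (2 : ℝ) ^ (j + 1) ≤ 2 ^ (Fintype.card ι + 1) :=
      pow_le_pow_right₀ (by norm_num) (by omega)
    calc _ = ((Fintype.card ι).choose j * 2 ^ (j + 1)) *
        (√(10 * θ) ^ (Fintype.card ι - j) * nrm F) := by ring
      _ ≤ (2 ^ Fintype.card ι * 2 ^ (Fintype.card ι + 1)) *
        (√(10 * θ) ^ (Fintype.card ι - j) * nrm F) := by gcongr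
      _ = _ := by ring

lemma T_Zm_le {e : ι → Ω} (he : Injective e) (α : Perm Ω → ℝ)
    (h5 : 5 * Fintype.card ι ≤ Fintype.card Ω) [Nonempty Ω] {θ : ℝ}
    (h0 : 0 ≤ θ) (h1 : θ ≤ 1) (hθ : Fintype.card ι ≤ θ ^ 2 * Fintype.card Ω) {b : ℝ} (hb : 0 ≤ b)
    (h : ∀ j ≤ Fintype.card ι, (2 ^ (2 * Fintype.card ι + 1) *
      √(10 * θ) ^ (Fintype.card ι - j)) ^ 8 * T 8 (cm α * pr (Lev Ω j ⊓ Vs (univ.image e))) ≤ b) :
    T 8 (Zm ι α) ≤ (Fintype.card ι + 1) ^ 8 * b := by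
  have hT : (univ.image e).card = Fintype.card ι := by rw [card_image_of_injective _ he, card_univ]
  have e1 : Zm ι α = ∑ j ∈ range (Fintype.card ι + 1), (Lh e)ᵀ *
      (cm α * pr (Lev Ω j ⊓ Vs (univ.image e)) * (pr (Lev Ω j ⊓ Vs (univ.image e)) *
        Lh e * Pi0 ι Ω)) := by
    rw [Zm_eq he, ← Matrix.mul_sum]
    simp only [Matrix.mul_assoc]
    simp only [← Matrix.mul_assoc (pr _) (pr _), pr_idem]
    rw [← Matrix.mul_sum, ← Matrix.sum_mul]
    congr 2
    refine mat_ext fun φ => ?_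
    rw [← mulVec_mulVec, ← mulVec_mulVec, ← mulVec_mulVec, Matrix.sum_mulVec]
    have hm := Lh_mem e (Pi0 ι Ω *ᵥ φ)
    conv_lhs => rw [← pr_self (Vs_le_Ws (k := Fintype.card ι + 1) (by omega) hm), pr_Ws_eq,
      Matrix.sum_mulVec]
    refine sum_congr rfl fun j _ => ?_
    rw [inf_comm, pr_inf ((ri_Lev j).inv_Vs _), ← mulVec_mulVec,
      pr_self ((ri_Lev j).inv_Vs _ _ hm)]
  rw [e1]
  refine (T_sum_le' (y := 8) (by norm_num) (range (Fintype.card ι + 1)) _ (b := b) ?_ hb).trans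
    (by rw [card_range]; exact_mod_cast le_rfl)
  intro j hj
  have hj' := Nat.le_of_lt_succ (mem_range.1 hj)
  refine (T_mul_left1 (by norm_num) ((opLe_Lh he).tr zero_le_one) _).trans
    ((T_mul_right (by norm_num) (c := 2 ^ (2 * Fintype.card ι + 1) *
      √(10 * θ) ^ (Fintype.card ι - j)) (by positivity) ?_ _).trans ?_)
  · rw [← transpose_transpose (_ * _ * _)]
    refine OpLe.tr (fun F => ?_) (by positivity)
    rw [transpose_mul, transpose_mul, Pi0_tr, pr_symm, ← mulVec_mulVec, ← mulVec_mulVec]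
    refine (ovl he (pr_mem _ F) h5 hj' h0 h1 hθ).trans ?_
    exact mul_le_mul_of_nonneg_left (by simpa using opLe_pr _ F) (by positivity)
  · exact_mod_cast h j hj'

noncomputable def wt (s L l : ℕ) : ℝ := if l ≤ L then (s : ℝ)⁻¹ else 1

lemma pow_div_le_choose {n j : ℕ} (h : j ≤ n) : (n : ℝ) ^ j ≤ n.choose j * j ^ j := by
  have h1 : n ^ j * j.factorial ≤ j ^ j * n.descFactorial j := by
    rw [Nat.descFactorial_eq_prod_range, ← Nat.descFactorial_self, Nat.descFactorial_eq_prod_range]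
    have : ∀ c : ℕ, c ^ j = ∏ i ∈ range j, c := by simp
    rw [this n, this j, ← prod_mul_distrib, ← prod_mul_distrib]
    refine prod_le_prod' fun i hi => ?_
    have := mem_range.1 hi
    obtain ⟨u, rfl⟩ := Nat.exists_eq_add_of_le this.le
    obtain ⟨v, rfl⟩ := Nat.exists_eq_add_of_le h
    rw [Nat.add_sub_cancel_left, show i + u + v - i = u + v by omega]
    nlinarith [Nat.zero_le (i * v)]
  rw [Nat.descFactorial_eq_factorial_mul_choose] at h1
  have : n ^ j ≤ n.choose j * j ^ j :=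
    Nat.le_of_mul_le_mul_right (h1.trans (le_of_eq (by ring))) j.factorial_pos
  exact_mod_cast this

lemma rp_ar {s l j L : ℕ} {t X : ℝ} (h5 : 5 * l ≤ s) (hl : 1 ≤ l) (hj : j ≤ l) (ht0 : 0 ≤ t)
    (h7 : 0 ≤ X) (h1 : ((s - j).choose j : ℝ) * X ≤ l.choose j * t) (h8' : t ≤ 3 / 2)
    (hlow : 1 ≤ j → j ≤ L → t ≤ (s : ℝ)⁻¹ ^ j) :
    (2 ^ (2 * l + 1) * √(10 * √(l / s)) ^ (l - j)) ^ 8 * X ≤
      (2 ^ 50 * (l / s)) ^ l * wt s L l := by
  have hl0 : (1 : ℝ) ≤ l := by exact_mod_cast hl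
  have h5' : (5 * l : ℝ) ≤ s := by exact_mod_cast h5
  have hs0 : (0 : ℝ) < s := by linarith
  have hw : 0 < wt s L l := by unfold wt; split_ifs <;> positivity
  set ρ : ℝ := l / s with hρ
  have hρ0 : 0 < ρ := by positivity
  have hρ1 : ρ ≤ 1 := by rw [hρ, div_le_one hs0]; linarith
  have h2 := pow_div_le_choose (n := s - j) (j := j) (by omega)
  have hj' : (j : ℝ) ≤ l := by exact_mod_cast hj
  have hj0 : (0 : ℝ) ≤ j := by positivity
  have h3 : (1 : ℝ) ≤ (s - j).choose j * (2 * ρ) ^ j := by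
    rw [Nat.cast_sub (by omega)] at h2
    have h4 : (0 : ℝ) < (s - j) ^ j := pow_pos (by linarith) _
    refine le_of_mul_le_mul_right ?_ h4
    rw [one_mul, mul_assoc, ← mul_pow]
    refine h2.trans (mul_le_mul_of_nonneg_left (pow_le_pow_left₀ (by positivity) ?_ _)
      (by positivity))
    rw [hρ, ← mul_div_assoc, div_mul_eq_mul_div, le_div_iff₀ hs0]
    nlinarith [mul_le_mul_of_nonneg_right hj' hs0.le, mul_le_mul_of_nonneg_left
      (show 2 * (j : ℝ) ≤ s by linarith) (show (0 : ℝ) ≤ l by linarith)]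
  have h4 : X ≤ (2 * ρ) ^ j * (2 ^ l * t) := by
    have h6 : (l.choose j : ℝ) ≤ 2 ^ l := by exact_mod_cast Nat.choose_le_two_pow _ _
    calc _ ≤ ((s - j).choose j * (2 * ρ) ^ j) * X := le_mul_of_one_le_left h7 h3
      _ = (2 * ρ) ^ j * ((s - j).choose j * X) := by ring
      _ ≤ (2 * ρ) ^ j * (l.choose j * t) := by gcongr
      _ ≤ _ := by gcongr
  have h6 : ρ ^ (l - j) * t ≤ 2 ^ l * wt s L l := by
    have h7 : (2 : ℝ) ≤ 2 ^ l := le_self_pow₀ (by norm_num) (by omega)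
    have h11 : ρ ^ (l - j) ≤ 1 := pow_le_one₀ hρ0.le hρ1
    unfold wt
    split_ifs with hc
    · rcases Nat.eq_zero_or_pos j with rfl | hj0
      · have h10 : ρ ^ l ≤ ρ := pow_le_of_le_one hρ0.le hρ1 (by omega)
        have h11 : 3 / 2 * (l : ℝ) ≤ 2 ^ l := by
          obtain ⟨l', hl'⟩ : ∃ l', l = l' + 1 := ⟨l - 1, by omega⟩
          have : (l' : ℝ) + 1 ≤ 2 ^ l' := by exact_mod_cast Nat.lt_two_pow_self
          rw [hl']; push_cast; rw [pow_succ]; linarith
        calc ρ ^ (l - 0) * t ≤ ρ * (3 / 2) := by rw [Nat.sub_zero]; gcongr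
          _ = (3 / 2 * l) * (s : ℝ)⁻¹ := by rw [hρ]; ring
          _ ≤ _ := by gcongr
      · have h10 : t ≤ (s : ℝ)⁻¹ := (hlow hj0 (by omega)).trans
          (pow_le_of_le_one (by positivity) (inv_le_one_of_one_le₀ (by linarith)) (by omega))
        exact mul_le_mul (by linarith) h10 ht0 (by positivity)
    · have := mul_le_mul h11 h8' ht0 zero_le_one
      linarith
  have h7' : (√(10 * √ρ) ^ (l - j)) ^ 8 = (10 ^ 4) ^ (l - j) * (ρ ^ (l - j) * ρ ^ (l - j)) := by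
    rw [← pow_mul, mul_comm (l - j), pow_mul, ← mul_pow, ← mul_pow]
    congr 1
    have a1 : √(10 * √ρ) ^ 2 = 10 * √ρ := Real.sq_sqrt (by positivity)
    have a2 : √ρ ^ 2 = ρ := Real.sq_sqrt hρ0.le
    calc √(10 * √ρ) ^ 8 = (√(10 * √ρ) ^ 2) ^ 4 := by ring
      _ = 10 ^ 4 * (√ρ ^ 2 * √ρ ^ 2) := by rw [a1]; ring
      _ = _ := by rw [a2]
  have h8' : ((2 : ℝ) ^ (2 * l + 1)) ^ 8 ≤ (2 ^ 24) ^ l := by
    rw [← pow_mul, ← pow_mul]; exact pow_le_pow_right₀ (by norm_num) (by omega)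
  have h9 : ((10 : ℝ) ^ 4) ^ (l - j) ≤ (2 ^ 14) ^ l :=
    (pow_le_pow_left₀ (by norm_num) (by norm_num) _).trans
      (pow_le_pow_right₀ (by norm_num) (by omega))
  have h10 : (2 : ℝ) ^ j ≤ 2 ^ l := pow_le_pow_right₀ (by norm_num) hj
  have h11 : ρ ^ l = ρ ^ (l - j) * ρ ^ j := by rw [← pow_add]; congr 1; omega
  rw [mul_pow, h7']
  calc _ ≤ ((2 ^ 24) ^ l * ((2 ^ 14) ^ l * (ρ ^ (l - j) * ρ ^ (l - j)))) *
        ((2 * ρ) ^ j * (2 ^ l * t)) := by gcongr
    _ = (2 ^ 24) ^ l * (2 ^ 14) ^ l * 2 ^ l * ρ ^ l * (2 ^ j * (ρ ^ (l - j) * t)) := by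
        rw [h11, mul_pow]; ring
    _ ≤ (2 ^ 24) ^ l * (2 ^ 14) ^ l * 2 ^ l * ρ ^ l * (2 ^ l * (2 ^ l * wt s L l)) := by gcongr
    _ = (2 ^ 24 * 2 ^ 14 * 2 * 2 * 2 * ρ) ^ l * wt s L l := by
        simp only [mul_pow]; ring
    _ ≤ _ := by gcongr; norm_num

lemma rp {α : Perm Ω → ℝ} {L : ℕ} (hL : 5 * L ≤ Fintype.card Ω) (h8 : T 8 (cm α) ≤ 3 / 2)
    (hlow : ∀ j, 1 ≤ j → j ≤ L → T 8 (cm α * pr (Lev Ω j)) ≤ (Fintype.card Ω : ℝ)⁻¹ ^ j)
    (hl : 1 ≤ Fintype.card ι) [Nonempty Ω] :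
    T 8 (Zm ι α) ≤ (2 ^ 60 / Fintype.card Ω) ^ Fintype.card ι * (Fintype.card ι).factorial *
      wt (Fintype.card Ω) L (Fintype.card ι) := by
  set s := Fintype.card Ω with hs
  set l := Fintype.card ι with hl'
  have hs0 : (0 : ℝ) < s := by exact_mod_cast Fintype.card_pos
  have hl0 : (1 : ℝ) ≤ l := by exact_mod_cast hl
  have hw : 0 < wt s L l := by unfold wt; split_ifs <;> positivity
  have hf : (l : ℝ) ^ l ≤ 3 ^ l * l.factorial := (pow_le_exp_fact l).trans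
    (mul_le_mul_of_nonneg_right (pow_le_pow_left₀ (by positivity)
      (Real.exp_one_lt_d9.le.trans (by norm_num)) l) (by positivity))
  suffices H : T 8 (Zm ι α) ≤ (2 ^ 58 * (l / s)) ^ l * wt s L l by
    refine H.trans (mul_le_mul_of_nonneg_right ?_ hw.le)
    calc ((2 : ℝ) ^ 58 * (l / s)) ^ l = (2 ^ 58 / s : ℝ) ^ l * (l : ℝ) ^ l := by
          rw [← mul_pow, div_mul_eq_mul_div, mul_div_assoc]
      _ ≤ (2 ^ 58 / s : ℝ) ^ l * (3 ^ l * l.factorial) := by gcongr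
      _ = (2 ^ 58 / s * 3 : ℝ) ^ l * l.factorial := by rw [mul_pow]; ring
      _ ≤ _ := by
        refine mul_le_mul_of_nonneg_right (pow_le_pow_left₀ (by positivity) ?_ _) (by positivity)
        rw [div_mul_eq_mul_div]; exact div_le_div_of_nonneg_right (by norm_num) hs0.le
  by_cases hls : s < l
  · have : Dg ι Ω = 0 := by
      ext v v'
      rw [Dg, diagonal_apply, ind_neg fun h => absurd (Fintype.card_le_of_injective _ h)
        (by omega)]; simp
    rw [Zm, this, Matrix.zero_mul, Matrix.zero_mul, T_zero (by norm_num)]; positivity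
  obtain ⟨e⟩ := Function.Embedding.nonempty_of_card_le (not_lt.1 hls)
  have he := e.injective
  by_cases h5 : s < 5 * l
  · have h1 : T 8 (Zm ι α) ≤ 3 / 2 := by
      rw [Zm_eq he]
      refine (T_mul_left1 (by norm_num) ((opLe_Lh he).tr zero_le_one) _).trans
        ((T_mul_right1 (by norm_num) ?_ _).trans h8)
      simpa using (opLe_Lh he).mul zero_le_one opLe_Pi0
    have h2 : (2 : ℝ) ≤ 2 ^ 58 * (l / s) := by
      have : (s : ℝ) ≤ 5 * l := by exact_mod_cast h5.le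
      rw [← mul_div_assoc, le_div_iff₀ hs0]; nlinarith
    rw [wt, if_neg (by omega), mul_one]
    exact h1.trans (le_trans (by linarith) (le_self_pow₀ (by linarith) (by omega)))
  have h5' : (5 * l : ℝ) ≤ s := by exact_mod_cast not_lt.1 h5
  set ρ : ℝ := l / s with hρ
  have hρ0 : 0 < ρ := by positivity
  have hρ1 : ρ ≤ 1 := by rw [hρ, div_le_one hs0]; linarith
  refine (T_Zm_le he α (not_lt.1 h5) (θ := √ρ) (by positivity) (Real.sqrt_le_one.2 hρ1)
    (by rw [Real.sq_sqrt hρ0.le, hρ]; field_simp; rfl)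
    (b := (2 ^ 50 * ρ) ^ l * wt s L l) (by positivity) fun j hj => ?_).trans ?_
  · have hT : (univ.image e).card = l := by rw [card_image_of_injective _ he, card_univ]
    have h1 := T_lev_Vs_le (y := 8) (by norm_num) α (univ.image e) (j := j) (by omega)
    rw [hT] at h1
    exact rp_ar (not_lt.1 h5) hl hj (T_nonneg _ _) (T_nonneg _ _) h1
      ((T_mul_right1 (by norm_num) (opLe_pr _) _).trans h8) (hlow j)
  · have h9 : (l : ℝ) + 1 ≤ 2 ^ l := by exact_mod_cast Nat.lt_two_pow_self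
    calc ((l : ℝ) + 1) ^ 8 * ((2 ^ 50 * ρ) ^ l * wt s L l)
        ≤ (2 ^ l) ^ 8 * ((2 ^ 50 * ρ) ^ l * wt s L l) := by gcongr
      _ = _ := by
        rw [← pow_mul, mul_comm l 8, pow_mul, ← mul_assoc, ← mul_pow]; congr 2; ring

end Vale.Agent.P162
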