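import Vale.Agent.P162.Lin

set_option linter.unusedSectionVars false
set_option linter.unusedVariables false
set_option linter.unusedSimpArgs false

open Matrix Finset

namespace Vale.Agent.P162

variable {n m k : Type*} [Fintype n] [DecidableEq n] [Fintype m] [DecidableEq m]
  [Fintype k] [DecidableEq k]

noncomputable def nrm (v : n → ℝ) : ℝ := ‖(WithLp.toLp 2 v : EuclideanSpace ℝ n)‖

lemma nrm_nonneg (v : n → ℝ) : 0 ≤ nrm v := norm_nonneg _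

lemma nrm_sq (v : n → ℝ) : nrm v ^ 2 = v ⬝ᵥ v := by
  rw [nrm, EuclideanSpace.real_norm_sq_eq]; simp [dotProduct, sq]

lemma nrm_add_le (v w : n → ℝ) : nrm (v + w) ≤ nrm v + nrm w := by
  unfold nrm; rw [WithLp.toLp_add]; exact norm_add_le _ _

lemma nrm_smul (c : ℝ) (v : n → ℝ) : nrm (c • v) = |c| * nrm v := by
  unfold nrm; rw [WithLp.toLp_smul, norm_smul]; rfl

lemma nrm_zero : nrm (0 : n → ℝ) = 0 := by simp [nrm]

lemma nrm_sum_le {ι : Type*} (s : Finset ι) (v : ι → n → ℝ) :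
    nrm (∑ i ∈ s, v i) ≤ ∑ i ∈ s, nrm (v i) :=
  le_sum_of_subadditive nrm nrm_zero.le nrm_add_le s v

lemma abs_dot_le (v w : n → ℝ) : |v ⬝ᵥ w| ≤ nrm v * nrm w := by
  apply abs_le_of_sq_le_sq _ (mul_nonneg (nrm_nonneg _) (nrm_nonneg _))
  rw [mul_pow, nrm_sq, nrm_sq]
  simpa [dotProduct, sq] using Finset.sum_mul_sq_le_sq_mul_sq univ v w

lemma nrm_eq_zero {v : n → ℝ} (h : nrm v = 0) : v = 0 := by
  have := nrm_sq v
  rw [h] at this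
  exact dotProduct_self_eq_zero.1 (by linarith)

lemma nrm_le_of_sq {v : n → ℝ} {c : ℝ} (hc : 0 ≤ c) (h : v ⬝ᵥ v ≤ c ^ 2) : nrm v ≤ c := by
  rw [← nrm_sq] at h; exact (abs_le_of_sq_le_sq' h hc).2

lemma nrm_le_nrm {v : n → ℝ} {w : m → ℝ} (h : v ⬝ᵥ v ≤ w ⬝ᵥ w) : nrm v ≤ nrm w :=
  nrm_le_of_sq (nrm_nonneg _) (by rwa [nrm_sq])

def OpLe (M : Matrix m n ℝ) (c : ℝ) : Prop := ∀ v, nrm (M *ᵥ v) ≤ c * nrm v

lemma OpLe.tr {M : Matrix m n ℝ} {c : ℝ} (h : OpLe M c) (hc : 0 ≤ c) : OpLe Mᵀ c := by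
  intro w
  have h1 : nrm (Mᵀ *ᵥ w) ^ 2 ≤ c * nrm (Mᵀ *ᵥ w) * nrm w := by
    rw [nrm_sq, ← dot_tr]
    exact (le_abs_self _).trans ((abs_dot_le _ _).trans
      (mul_le_mul_of_nonneg_right (h _) (nrm_nonneg _)))
  rcases (nrm_nonneg (Mᵀ *ᵥ w)).eq_or_lt with h0 | h0
  · rw [← h0]; exact mul_nonneg hc (nrm_nonneg _)
  · nlinarith

lemma OpLe.mul {M : Matrix m n ℝ} {N : Matrix n k ℝ} {c e : ℝ} (h : OpLe M c) (hc : 0 ≤ c)
    (g : OpLe N e) : OpLe (M * N) (c * e) := by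
  intro v
  rw [← mulVec_mulVec, mul_assoc]
  exact (h _).trans (mul_le_mul_of_nonneg_left (g v) hc)

lemma opLe_proj {P : Matrix n n ℝ} (hP : Pᵀ = P) (hPP : P * P = P) : OpLe P 1 := by
  intro v
  rw [one_mul]
  have h1 : nrm (P *ᵥ v) ^ 2 ≤ nrm v * nrm (P *ᵥ v) := by
    rw [nrm_sq, dot_tmul, hP, hPP]
    exact (le_abs_self _).trans (abs_dot_le _ _)
  rcases (nrm_nonneg (P *ᵥ v)).eq_or_lt with h0 | h0
  · rw [← h0]; exact nrm_nonneg _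
  · nlinarith

lemma opLe_of_tmul_proj {L : Matrix m n ℝ} (h : Lᵀ * L * (Lᵀ * L) = Lᵀ * L) : OpLe L 1 := by
  intro v
  rw [one_mul]
  apply nrm_le_of_sq (nrm_nonneg _)
  rw [dot_tmul]
  have := opLe_proj (tmul_symm L) h v
  have h2 := abs_dot_le v ((Lᵀ * L) *ᵥ v)
  have h3 := nrm_nonneg v
  nlinarith [le_abs_self (v ⬝ᵥ (Lᵀ * L) *ᵥ v)]

lemma opLe_orth {U : Matrix m n ℝ} (h : Uᵀ * U = 1) : OpLe U 1 :=
  opLe_of_tmul_proj (by rw [h]; simp)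

noncomputable def ab (y : ℝ) (M : Matrix m n ℝ) : Matrix n n ℝ :=
  fc (fun x => x ^ (y / 2)) (Mᵀ * M)

noncomputable def T (y : ℝ) (M : Matrix m n ℝ) : ℝ := (ab y M).trace

lemma T_eq (y : ℝ) (M : Matrix m n ℝ) : T y M = ∑ i, ev (Mᵀ * M) i ^ (y / 2) := trace_fc _ _

lemma T_nonneg (y : ℝ) (M : Matrix m n ℝ) : 0 ≤ T y M := by
  rw [T_eq]; exact sum_nonneg fun i _ => Real.rpow_nonneg (ev_nonneg M i) _

lemma ab_symm (y : ℝ) (M : Matrix m n ℝ) : (ab y M)ᵀ = ab y M := fc_symm _ _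

lemma ab_mul {y z : ℝ} (hy : 0 < y) (hz : 0 < z) (M : Matrix m n ℝ) :
    ab y M * ab z M = ab (y + z) M := by
  rw [ab, ab, fc_mul]
  refine fc_congr fun i => ?_
  rw [← Real.rpow_add' (ev_nonneg M i) (by linarith), add_div]

lemma ab_two (M : Matrix m n ℝ) : ab 2 M = Mᵀ * M := by
  rw [ab]; simp [fc_id (tmul_symm M)]

lemma ab_ab {y z : ℝ} (hy : 0 < y) (M : Matrix m n ℝ) : ab z (ab y M) = ab (y * z) M := by
  rw [ab, ab_symm, ab_mul hy hy, ab, fc_fc]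
  refine fc_congr fun i => ?_
  rw [← Real.rpow_mul (ev_nonneg M i)]; congr 1; ring

lemma T_ab {y z : ℝ} (hy : 0 < y) (M : Matrix m n ℝ) : T z (ab y M) = T (y * z) M := by
  rw [T, ab_ab hy, T]

lemma T_nat (j : ℕ) (M : Matrix m n ℝ) : T (2 * j) M = ((Mᵀ * M) ^ j).trace := by
  rw [T, ab, ← fc_pow (tmul_symm M)]
  congr 2; ext x
  rw [← Real.rpow_natCast]; congr 1; ring

lemma T_congr {M : Matrix m n ℝ} {N : Matrix k n ℝ} (h : Mᵀ * M = Nᵀ * N) (y : ℝ) :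
    T y M = T y N := by rw [T, T, ab, ab, h]

lemma ab_eq_mul {y : ℝ} (hy : 0 < y) (N : Matrix m n ℝ) :
    ab y N = Nᵀ * N * fc (fun x => x ^ (y / 2) / x) (Nᵀ * N) := by
  conv_rhs => enter [1]; rw [← fc_id (tmul_symm N)]
  rw [fc_mul, ab]
  refine fc_congr fun i => ?_
  by_cases h : ev (Nᵀ * N) i = 0
  · rw [h, Real.zero_rpow (by linarith)]; simp
  · field_simp

lemma T_tr {y : ℝ} (hy : 0 < y) (M : Matrix m n ℝ) : T y Mᵀ = T y M := by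
  rw [T, T, ab_eq_mul hy, ab_eq_mul hy, transpose_transpose]
  have := fc_intertwine (A := Mᵀ * M) (B := M * Mᵀ) (tmul_symm M) (by simp [transpose_mul])
    (R := M) (by rw [Matrix.mul_assoc]) (fun x => x ^ (y / 2) / x)
  rw [Matrix.mul_assoc Mᵀ, this, ← Matrix.mul_assoc Mᵀ, trace_mul_comm (Mᵀ * _), Matrix.mul_assoc]

lemma subJensen {ι : Type*} [Fintype ι] (w z : ι → ℝ) (hw : ∀ i, 0 ≤ w i) (hz : ∀ i, 0 ≤ z i)
    (h1 : ∑ i, w i ≤ 1) {p : ℝ} (hp : 1 ≤ p) : (∑ i, w i * z i) ^ p ≤ ∑ i, w i * z i ^ p := by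
  have := Real.rpow_arith_mean_le_arith_mean_rpow (univ : Finset (Option ι))
    (fun o => o.elim (1 - ∑ i, w i) w) (fun o => o.elim 0 z)
    (fun o _ => by cases o <;> simp [h1, hw]) (by simp [Fintype.sum_option])
    (fun o _ => by cases o <;> simp [hz]) hp
  simpa [Fintype.sum_option, Real.zero_rpow (show p ≠ 0 by linarith)] using this

lemma jensen2 {q : ℝ} (hq : 2 ≤ q) (M : Matrix m n ℝ) (a b : n → ℝ)
    (h : a ⬝ᵥ a + b ⬝ᵥ b ≤ 1) :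
    ((M *ᵥ a) ⬝ᵥ (M *ᵥ a) + (M *ᵥ b) ⬝ᵥ (M *ᵥ b)) ^ (q / 2) ≤
      a ⬝ᵥ (ab q M *ᵥ a) + b ⬝ᵥ (ab q M *ᵥ b) := by
  set U := eU (Mᵀ * M)
  have hU : Uᵀᵀ * Uᵀ = 1 := by rw [transpose_transpose]; exact (eU_orth _).2
  have e1 : ∀ v, (M *ᵥ v) ⬝ᵥ (M *ᵥ v) = ∑ i, ev (Mᵀ * M) i * (Uᵀ *ᵥ v) i ^ 2 := by
    intro v
    rw [dot_tmul, ← quad_fc (fun x => x), fc_id (tmul_symm M)]
  have e2 : ∀ v : n → ℝ, v ⬝ᵥ v = ∑ i, (Uᵀ *ᵥ v) i ^ 2 := by
    intro v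
    rw [← dot_orth hU]; simp [dotProduct, sq]
  rw [e1, e1, ab, quad_fc, quad_fc, ← sum_add_distrib, ← sum_add_distrib]
  rw [e2, e2, ← sum_add_distrib] at h
  have := subJensen (fun i => (Uᵀ *ᵥ a) i ^ 2 + (Uᵀ *ᵥ b) i ^ 2) (ev (Mᵀ * M))
    (fun i => by positivity) (ev_nonneg M) h (p := q / 2) (by linarith)
  convert this using 2
  · exact sum_congr rfl fun i _ => by ring
  · ring

lemma jensen1 {q : ℝ} (hq : 2 ≤ q) (M : Matrix m n ℝ) (a : n → ℝ) (h : a ⬝ᵥ a ≤ 1) :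
    nrm (M *ᵥ a) ^ q ≤ a ⬝ᵥ (ab q M *ᵥ a) := by
  have := jensen2 hq M a 0 (by simpa using h)
  simp only [mulVec_zero, dotProduct_zero, add_zero] at this
  rw [← nrm_sq, ← Real.rpow_natCast, ← Real.rpow_mul (nrm_nonneg _)] at this
  convert this using 2; push_cast; ring

lemma T_eq_nrm (y : ℝ) (M : Matrix m n ℝ) :
    T y M = ∑ i, nrm (M *ᵥ (eU (Mᵀ * M)).col i) ^ y := by
  rw [T_eq]
  refine sum_congr rfl fun i _ => ?_
  rw [ev_tmul, ← nrm_sq, ← Real.rpow_natCast, ← Real.rpow_mul (nrm_nonneg _)]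
  congr 1; push_cast; ring

lemma sum_nrm_le_T {y : ℝ} (hy : 2 ≤ y) (M : Matrix m n ℝ) (A : Matrix n n ℝ) :
    ∑ i, nrm (M *ᵥ (eU A).col i) ^ y ≤ T y M := by
  rw [T, trace_eq_sum_col (eU_orth A).2]
  exact sum_le_sum fun i _ => jensen1 hy M _ (col_unit A i).le

lemma T_le_of_nrm {y c : ℝ} (hy : 2 ≤ y) (hc : 0 ≤ c) {N : Matrix k n ℝ} {M : Matrix m n ℝ}
    (h : ∀ v, nrm (N *ᵥ v) ≤ c * nrm (M *ᵥ v)) : T y N ≤ c ^ y * T y M := by
  rw [T_eq_nrm]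
  refine le_trans (sum_le_sum fun i _ => Real.rpow_le_rpow (nrm_nonneg _) (h _) (by linarith)) ?_
  simp only [Real.mul_rpow hc (nrm_nonneg _)]
  rw [← mul_sum]
  exact mul_le_mul_of_nonneg_left (sum_nrm_le_T hy M _) (Real.rpow_nonneg hc _)

lemma T_mul_left {y c : ℝ} (hy : 2 ≤ y) (hc : 0 ≤ c) {X : Matrix k m ℝ} (hX : OpLe X c)
    (M : Matrix m n ℝ) : T y (X * M) ≤ c ^ y * T y M :=
  T_le_of_nrm hy hc fun v => by rw [← mulVec_mulVec]; exact hX _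

lemma T_mul_right {y c : ℝ} (hy : 2 ≤ y) (hc : 0 ≤ c) {X : Matrix n k ℝ} (hX : OpLe X c)
    (M : Matrix m n ℝ) : T y (M * X) ≤ c ^ y * T y M := by
  rw [← T_tr (by linarith), transpose_mul, ← T_tr (by linarith) M]
  exact T_mul_left hy hc (hX.tr hc) _

lemma T_mul_left1 {y : ℝ} (hy : 2 ≤ y) {X : Matrix k m ℝ} (hX : OpLe X 1)
    (M : Matrix m n ℝ) : T y (X * M) ≤ T y M := by
  simpa using T_mul_left hy zero_le_one hX M

lemma T_mul_right1 {y : ℝ} (hy : 2 ≤ y) {X : Matrix n k ℝ} (hX : OpLe X 1)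
    (M : Matrix m n ℝ) : T y (M * X) ≤ T y M := by
  simpa using T_mul_right hy zero_le_one hX M

lemma T_sum_le {ι : Type*} {y : ℝ} (hy : 2 ≤ y) (s : Finset ι) (M : ι → Matrix m n ℝ) :
    T y (∑ j ∈ s, M j) ≤ (s.card : ℝ) ^ (y - 1) * ∑ j ∈ s, T y (M j) := by
  rw [T_eq_nrm]
  set U := eU ((∑ j ∈ s, M j)ᵀ * ∑ j ∈ s, M j)
  have h1 : ∀ i, nrm ((∑ j ∈ s, M j) *ᵥ U.col i) ^ y ≤
      (s.card : ℝ) ^ (y - 1) * ∑ j ∈ s, nrm (M j *ᵥ U.col i) ^ y := by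
    intro i
    rw [Matrix.sum_mulVec]
    refine (Real.rpow_le_rpow (nrm_nonneg _) (nrm_sum_le _ _) (by linarith)).trans ?_
    exact Real.rpow_sum_le_const_mul_sum_rpow_of_nonneg s (by linarith) fun j _ => nrm_nonneg _
  refine (sum_le_sum fun i _ => h1 i).trans ?_
  rw [← mul_sum, sum_comm]
  exact mul_le_mul_of_nonneg_left (sum_le_sum fun j _ => sum_nrm_le_T hy _ _) (by positivity)

lemma T_sum_le' {ι : Type*} {y b : ℝ} (hy : 2 ≤ y) (s : Finset ι) (M : ι → Matrix m n ℝ)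
    (h : ∀ j ∈ s, T y (M j) ≤ b) (hb : 0 ≤ b) :
    T y (∑ j ∈ s, M j) ≤ (s.card : ℝ) ^ y * b := by
  refine (T_sum_le hy s M).trans ?_
  have h1 : ∑ j ∈ s, T y (M j) ≤ s.card * b := by simpa using sum_le_card_nsmul s _ b h
  refine (mul_le_mul_of_nonneg_left h1 (by positivity)).trans (le_of_eq ?_)
  rw [← mul_assoc]; congr 1
  rw [← Real.rpow_add_one' (by positivity) (by linarith)]; simp

lemma T_zero {y : ℝ} (hy : 0 < y) : T y (0 : Matrix m n ℝ) = 0 := by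
  rw [T, ab]
  have := fc_smul_one (n := n) (fun x => x ^ (y / 2)) 0
  simp only [zero_smul] at this
  rw [Matrix.mul_zero, this, Real.zero_rpow (by linarith)]; simp

lemma T_le_rpow {y z t : ℝ} (hy : 0 < y) (hz : y ≤ z) (M : Matrix m n ℝ)
    (h : ∀ i, ev (Mᵀ * M) i ^ (y / 2) ≤ t) : T z M ≤ t ^ (z / y - 1) * T y M := by
  rw [T_eq, T_eq, mul_sum]
  refine sum_le_sum fun i _ => ?_
  have h0 := ev_nonneg M i
  have hzy : 0 ≤ z / y - 1 := by rw [sub_nonneg, le_div_iff₀ hy]; linarith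
  have : ev (Mᵀ * M) i ^ (z / 2) =
      (ev (Mᵀ * M) i ^ (y / 2)) ^ (z / y - 1) * ev (Mᵀ * M) i ^ (y / 2) := by
    rw [← Real.rpow_mul h0, ← Real.rpow_add' h0]
    · congr 1; field_simp; ring
    · have : y / 2 * (z / y - 1) + y / 2 = z / 2 := by field_simp; ring
      rw [this]; linarith
  rw [this]
  exact mul_le_mul_of_nonneg_right (Real.rpow_le_rpow (Real.rpow_nonneg h0 _) (h i) hzy)
    (Real.rpow_nonneg h0 _)

lemma ev_le_T (y : ℝ) (M : Matrix m n ℝ) (i : n) : ev (Mᵀ * M) i ^ (y / 2) ≤ T y M := by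
  rw [T_eq]
  exact single_le_sum (f := fun i => ev (Mᵀ * M) i ^ (y / 2))
    (fun j _ => Real.rpow_nonneg (ev_nonneg M j) _) (mem_univ i)

lemma T_le_T_rpow {y z t : ℝ} (hy : 0 < y) (hz : y ≤ z) (M : Matrix m n ℝ) (h : T y M ≤ t) :
    T z M ≤ t ^ (z / y) := by
  have ht : 0 ≤ t := (T_nonneg _ _).trans h
  refine (T_le_rpow hy hz M fun i => (ev_le_T y M i).trans h).trans ?_
  refine (mul_le_mul_of_nonneg_left h (Real.rpow_nonneg ht _)).trans (le_of_eq ?_)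
  rw [← Real.rpow_add_one' ht]
  · simp
  · have : 0 < z / y := div_pos (by linarith) hy
    linarith

lemma T_two (M : Matrix m n ℝ) : T 2 M = ∑ i, ∑ j, M i j ^ 2 := by
  rw [T, ab_two, sum_comm]; simp [trace, mul_apply, sq]

end Vale.Agent.P162
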