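import Vale.Agent.P162.Rp

set_option linter.unusedSectionVars false
set_option linter.unusedVariables false
set_option linter.unusedSimpArgs false

open Matrix Finset Equiv Function

namespace Vale.Agent.P162

variable {ι Ω A B : Type*} [Fintype ι] [DecidableEq ι] [Fintype Ω] [DecidableEq Ω]
  [Fintype A] [DecidableEq A] [Fintype B] [DecidableEq B]

def blk (e : Ω ≃ A × B) : (B → Perm A) →* Perm Ω where
  toFun c := (e.trans (Equiv.prodCongrLeft c)).trans e.symm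
  map_one' := by ext z; simp [Equiv.prodCongrLeft]
  map_mul' c c' := by ext z; simp [Equiv.prodCongrLeft]

lemma blk_apply (e : Ω ≃ A × B) (c : B → Perm A) (z : Ω) :
    blk e c z = e.symm (c (e z).2 (e z).1, (e z).2) := rfl

noncomputable def Mc (e : Ω ≃ A × B) (α : Perm A → ℝ) (S : Finset ι) :
    Matrix (ι → Ω) (ι → Ω) ℝ :=
  of fun v z => ind (∀ τ, (e (v τ)).2 = (e (z τ)).2) * (ind (Set.InjOn v S) *
    ((Fintype.card A : ℝ)⁻¹ ^ Sᶜ.card *
      ex (tens B α) fun c => ∏ τ ∈ S, Q0 A (c (e (v τ)).2 (e (v τ)).1) (e (z τ)).1))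

lemma ex_sum {X J : Type*} [Fintype X] (α : X → ℝ) (s : Finset J) (φ : J → X → ℝ) :
    ex α (fun x => ∑ j ∈ s, φ j x) = ∑ j ∈ s, ex α (φ j) := by
  simp only [ex, mul_sum]; rw [sum_comm]

lemma ex_mul {X : Type*} [Fintype X] (α : X → ℝ) (c : ℝ) (φ : X → ℝ) :
    ex α (fun x => c * φ x) = c * ex α φ := by
  simp only [ex, mul_sum]; exact sum_congr rfl fun _ _ => by ring

lemma ex_tens {X : Type*} [Fintype X] (α : X → ℝ) (φ : B → X → ℝ) :
    ex (tens B α) (fun c => ∏ j, φ j (c j)) = ∏ j, ex α (φ j) := by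
  simp only [ex, tens, ← prod_mul_distrib]
  rw [prod_univ_sum, Fintype.piFinset_univ]

lemma Dg_kap_blk (e : Ω ≃ A × B) (α : Perm A → ℝ) :
    Dg ι Ω * kap ι (push (blk e) (tens B α)) = Dg ι Ω * ∑ S : Finset ι, Mc e α S := by
  ext v z
  rw [Dg, diagonal_mul, diagonal_mul]
  by_cases hv : Injective v
  swap
  · simp [ind_neg hv]
  congr 1
  simp only [kap, of_apply, ex_push, Matrix.sum_apply, Mc, ind_pos hv.injOn, one_mul, ← ex_mul,
    ← ex_sum]
  congr 1; ext c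
  rw [← mul_sum]
  have e1 : ∑ S : Finset ι, (Fintype.card A : ℝ)⁻¹ ^ Sᶜ.card *
      ∏ τ ∈ S, Q0 A (c (e (v τ)).2 (e (v τ)).1) (e (z τ)).1 =
      ∏ τ, (Q0 A (c (e (v τ)).2 (e (v τ)).1) (e (z τ)).1 + (Fintype.card A : ℝ)⁻¹) := by
    rw [prod_add, powerset_univ]
    exact sum_congr rfl fun S _ => by rw [prod_const, mul_comm]; rfl
  rw [e1]
  simp only [Q0, of_apply, sub_add_cancel, prod_boole, mem_univ, true_imp_iff]
  rw [← ind_eq_ite, ← ind_eq_ite, ← ind_and]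
  refine ind_congr ?_
  rw [funext_iff, ← forall_and]
  refine forall_congr' fun τ => ?_
  rw [Function.comp_apply, blk_apply, symm_apply_eq, Prod.ext_iff, and_comm]

lemma Dg_kap_Dg (α : Perm Ω → ℝ) : Dg ι Ω * kap ι α * Dg ι Ω = Dg ι Ω * kap ι α := by
  ext v z
  rw [Dg, mul_diagonal, diagonal_mul]
  by_cases hv : Injective v
  swap
  · simp [ind_neg hv]
  by_cases hz : Injective z
  · simp [ind_pos hz]
  · have : ∀ π : Perm Ω, ¬ π ∘ v = z := fun π h => hz (h ▸ π.injective.comp hv)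
    simp [ind_neg hz, kap, ex, this]

lemma kap_conv (α β : Perm Ω → ℝ) : kap ι (conv α β) = kap ι α * kap ι β := mat_ext fun φ => by
  ext v
  simp only [← mulVec_mulVec, kap_mulVec, ex_conv, Perm.coe_mul, comp_assoc]

lemma Mc_congr (e : Ω ≃ A × B) (α : Perm A → ℝ) (S : Finset ι) {v z v' z' : ι → Ω}
    (h1 : ∀ τ ∈ S, v' τ = v τ) (h2 : ∀ τ ∈ S, z' τ = z τ)
    (h3 : ∀ τ, (e (v' τ)).2 = (e (z' τ)).2 ↔ (e (v τ)).2 = (e (z τ)).2) :
    Mc e α S v' z' = Mc e α S v z := by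
  simp only [Mc, of_apply]
  rw [ind_congr (forall_congr' h3), ind_congr (Set.EqOn.injOn_iff (f₂ := v) h1)]
  congr 4; ext c
  exact prod_congr rfl fun τ hτ => by rw [h1 τ hτ, h2 τ hτ]

lemma Mc_perm (e : Ω ≃ A × B) (α : Perm A → ℝ) (S : Finset ι) (σ : Perm ι)
    (h : ∀ τ, τ ∈ S ↔ σ τ ∈ S) (v z : ι → Ω) : Mc e α S (v ∘ σ) (z ∘ σ) = Mc e α S v z := by
  simp only [Mc, of_apply, Function.comp_apply]
  rw [ind_congr (σ.forall_congr_right (q := fun τ => (e (v τ)).2 = (e (z τ)).2))]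
  have : Set.InjOn (v ∘ σ) S ↔ Set.InjOn v S := by
    constructor
    · intro H a ha b hb hab
      exact σ.symm.injective (H ((h _).2 (by simpa)) ((h _).2 (by simpa)) (by simpa))
    · exact fun H a ha b hb hab => σ.injective (H ((h _).1 ha) ((h _).1 hb) hab)
  rw [ind_congr this]
  congr 4; ext c
  exact prod_equiv σ h fun _ _ => rfl

lemma Mc_kill (e : Ω ≃ A × B) (α : Perm A → ℝ) (β : Perm B → ℝ) {S S' : Finset ι} {τ : ι}
    (h : τ ∉ S) (h' : τ ∉ S') :
    Mc e α S' * Mc (e.trans (Equiv.prodComm A B)) β S * Pi0 ι Ω = 0 := by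
  ext v v''
  have := congrFun (Pi0_kill (τ := τ)
    (φ := (Mc e α S' * Mc (e.trans (Equiv.prodComm A B)) β S) v) fun v' x => ?_) v''
  · rw [← Pi0_tr, mulVec_transpose] at this; exact this
  · simp only [mul_apply]
    let ρ : Perm Ω := blk e fun _ => swap (e (v' τ)).1 (e x).1
    symm
    refine Fintype.sum_equiv (Equiv.piCongrRight fun j => if j = τ then ρ else 1) _ _ fun z => ?_
    have e1 : ∀ j, j ≠ τ → (Equiv.piCongrRight fun j => if j = τ then ρ else 1) z j = z j := by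
      intro j hj; simp [hj]
    have e2 : (Equiv.piCongrRight fun j => if j = τ then ρ else 1) z τ = ρ (z τ) := by simp
    congr 1
    · refine (Mc_congr e α S' (fun _ _ => rfl) (fun j hj => e1 j fun e => h' (e ▸ hj)) ?_).symm
      intro j
      by_cases hj : j = τ
      · subst hj; rw [e2]; simp [ρ, blk_apply]
      · rw [e1 j hj]
    · refine (Mc_congr _ β S (fun j hj => e1 j fun e => h (e ▸ hj))
        (fun j hj => update_of_ne (fun e : j = τ => h (e ▸ hj)) _ _) ?_).symm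
      intro j
      by_cases hj : j = τ
      · subst hj; rw [e2]; simp [ρ, blk_apply, swap_apply_eq_iff]
      · rw [e1 j hj, update_of_ne hj]

lemma sub_pow {X Y : Type*} [Fintype X] [DecidableEq X] [Fintype Y] [DecidableEq Y] (E : X ≃ Y)
    (M : Matrix Y Y ℝ) (j : ℕ) : (M ^ j).submatrix E E = (M.submatrix E E) ^ j := by
  induction j with
  | zero => simp
  | succ j ih => rw [pow_succ, pow_succ, ← ih, submatrix_mul_equiv]

lemma ab_eight {X Y : Type*} [Fintype X] [DecidableEq X] [Fintype Y] [DecidableEq Y]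
    (M : Matrix X Y ℝ) : ab 8 M = (Mᵀ * M) ^ 4 := by
  rw [ab, ← fc_pow (tmul_symm M)]
  congr 1; ext x
  rw [← Real.rpow_natCast]; norm_num

lemma ab_sub {X Y : Type*} [Fintype X] [DecidableEq X] [Fintype Y] [DecidableEq Y] (E : X ≃ Y)
    (M : Matrix Y Y ℝ) : ab 8 (M.submatrix E E) = (ab 8 M).submatrix E E := by
  rw [ab_eight, ab_eight, sub_pow, transpose_submatrix, submatrix_mul_equiv]

lemma T_sub {X Y : Type*} [Fintype X] [DecidableEq X] [Fintype Y] [DecidableEq Y] (E : X ≃ Y)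
    (M : Matrix Y Y ℝ) : T 8 (M.submatrix E E) = T 8 M := by
  rw [T, ab_sub, T]; exact Fintype.sum_equiv E _ _ fun _ => rfl

lemma ab_inv {X : Type*} [Fintype X] [DecidableEq X] (E : Perm X) {M : Matrix X X ℝ}
    (h : ∀ v z, M (E v) (E z) = M v z) (z : X) : ab 8 M (E z) (E z) = ab 8 M z z := by
  have : M.submatrix E E = M := by ext; exact h _ _
  conv_rhs => rw [← this, ab_sub]
  rfl

lemma ab_diag_nonneg {X : Type*} [Fintype X] [DecidableEq X] (M : Matrix X X ℝ) (z : X) :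
    0 ≤ ab 8 M z z := by
  rw [show (8 : ℝ) = 4 + 4 by norm_num, ← ab_mul (by norm_num) (by norm_num)]
  rw [mul_apply]
  refine sum_nonneg fun u _ => ?_
  rw [← transpose_apply (ab 4 M) z u, ab_symm]
  exact mul_self_nonneg _

lemma ab_supp {X Y : Type*} [Fintype X] [DecidableEq X] (f : X → Y) {M : Matrix X X ℝ}
    (h : ∀ v z, M v z ≠ 0 → f v = f z) (v z : X) (h0 : ab 8 M v z ≠ 0) : f v = f z := by
  have hm : ∀ M N : Matrix X X ℝ, (∀ v z, M v z ≠ 0 → f v = f z) → (∀ v z, N v z ≠ 0 → f v = f z) →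
      ∀ v z, (M * N) v z ≠ 0 → f v = f z := by
    intro M N hM hN v z h
    obtain ⟨u, -, hu⟩ := exists_ne_zero_of_sum_ne_zero h
    exact (hM _ _ (left_ne_zero_of_mul hu)).trans (hN _ _ (right_ne_zero_of_mul hu))
  have h1 := hm Mᵀ M (fun v z hv => (h z v hv).symm) h
  rw [ab_eight, show (Mᵀ * M) ^ 4 = (Mᵀ * M) * (Mᵀ * M) * ((Mᵀ * M) * (Mᵀ * M)) by noncomm_ring]
    at h0
  exact hm _ _ (hm _ _ h1 h1) (hm _ _ h1 h1) _ _ h0

lemma Mc_supp (e : Ω ≃ A × B) (α : Perm A → ℝ) (S : Finset ι) (v z : ι → Ω)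
    (h : Mc e α S v z ≠ 0) : (fun τ => (e (v τ)).2) = fun τ => (e (z τ)).2 := by
  by_contra hc
  rw [funext_iff] at hc
  exact h (by simp [Mc, ind_neg hc])

lemma Mc_shift (e : Ω ≃ A × B) (α : Perm A → ℝ) (S : Finset ι) {z z' : ι → Ω}
    (h : ∀ τ ∈ S, z τ = z' τ) : ∃ E : Perm (ι → Ω), E z = z' ∧
      ∀ u v, Mc e α S (E u) (E v) = Mc e α S u v := by
  let ρ : Ω → Ω → Perm Ω := fun x y =>
    (e.trans ((swap (e x).1 (e y).1).prodCongr (swap (e x).2 (e y).2))).trans e.symm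
  refine ⟨Equiv.piCongrRight fun τ => ρ (z τ) (z' τ), ?_, fun u v => Mc_congr e α S ?_ ?_ ?_⟩
  · ext τ; simp [ρ, Prod.map]
  · intro τ hτ; simp [ρ, h τ hτ]
  · intro τ hτ; simp [ρ, h τ hτ]
  · intro τ; simp [ρ]

lemma piece_le (e : Ω ≃ A × B) (α : Perm A → ℝ) (β : Perm B → ℝ) {S S' : Finset ι}
    (hU : ∀ τ, τ ∈ S ∨ τ ∈ S') :
    (S ∩ S').card.factorial * (Fintype.card Ω : ℝ) ^ (Fintype.card ι - (S ∩ S').card) *
      T 8 (Mc e α S' * Mc (e.trans (Equiv.prodComm A B)) β S) ≤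
      T 8 (Mc e α S') * T 8 (Mc (e.trans (Equiv.prodComm A B)) β S) := by
  set X := Mc e α S'
  set Y := Mc (e.trans (Equiv.prodComm A B)) β S
  have h1 : (ab 8 X * ab 8 Yᵀ).trace = ∑ z, ab 8 X z z * ab 8 Yᵀ z z := by
    refine sum_congr rfl fun z _ => sum_eq_single z (fun z' _ hne => ?_) (by simp)
    by_contra hc
    have a := ab_supp _ (Mc_supp e α S') _ _ (left_ne_zero_of_mul hc)
    have b := ab_supp (M := Yᵀ) _ (fun v z h => (Mc_supp _ β S z v h).symm) _ _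
      (right_ne_zero_of_mul hc)
    refine hne (funext fun τ => e.injective (Prod.ext (congrFun b τ) (congrFun a τ).symm))
  refine (mul_le_mul_of_nonneg_left ((alt2 (by norm_num) X Y).trans h1.le) (by positivity)).trans ?_
  rw [← T_tr (by norm_num) Y]
  refine sym_prod (fun z => ab 8 X z z) (fun z => ab 8 Yᵀ z z) (ab_diag_nonneg _)
    (ab_diag_nonneg _) S S' ?_ ?_ hU ?_ ?_
  · intro z z' h
    obtain ⟨E, rfl, hE⟩ := Mc_shift e α S' h
    exact (ab_inv E hE z).symm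
  · intro z z' h
    obtain ⟨E, rfl, hE⟩ := Mc_shift (e.trans (Equiv.prodComm A B)) β S h
    exact (ab_inv (M := Yᵀ) E (fun u v => hE v u) z).symm
  · intro σ hσ z
    refine ab_inv (Equiv.arrowCongr σ.symm (Equiv.refl Ω)) (fun u v => Mc_perm e α S' σ ?_ u v) z
    intro τ
    by_cases h : τ ∈ S ∩ S'
    · refine iff_of_true (mem_inter.1 h).2 ?_
      by_contra hc
      have := σ.injective (hσ (σ τ) (by simp [hc]))
      exact hc (this.symm ▸ (mem_inter.1 h).2)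
    · rw [hσ τ (mem_compl.2 h)]
  · intro z hz
    by_contra hc
    have hc' : ¬ Set.InjOn z S := fun H => hc (H.mono (coe_subset.2 inter_subset_left))
    refine hz ?_
    rw [ab_eight, pow_succ', transpose_transpose, Matrix.mul_assoc, mul_apply]
    exact sum_eq_zero fun u _ => by simp [Y, Mc, ind_neg hc']

end Vale.Agent.P162
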