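import Vale.Agent.P162.Sp1

set_option linter.unusedSectionVars false
set_option linter.unusedVariables false
set_option linter.unusedSimpArgs false

open Matrix Finset Equiv Function

namespace Vale.Agent.P162

variable {ι Ω A B : Type*} [Fintype ι] [DecidableEq ι] [Fintype Ω] [DecidableEq Ω]
  [Fintype A] [DecidableEq A] [Fintype B] [DecidableEq B]

lemma T_blockDiagonal {X W : Type*} [Fintype X] [DecidableEq X] [Fintype W] [DecidableEq W]
    (N : W → Matrix X X ℝ) : T 8 (blockDiagonal N) = ∑ w, T 8 (N w) := by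
  simp only [T, ab_eight]
  rw [blockDiagonal_transpose, ← blockDiagonal_mul, ← blockDiagonal_pow, trace_blockDiagonal]
  rfl

lemma T_proj {X : Type*} [Fintype X] [DecidableEq X] {P : Matrix X X ℝ} (h : Pᵀ = P)
    (h' : P * P = P) : T 8 P = P.trace := by
  rw [T, ab_eight, h, h', IsIdempotentElem.pow_succ_eq 3 h']

lemma T_avg {X : Type*} [Fintype X] [DecidableEq X] [Nonempty X] :
    T 8 (of fun _ _ : X => (Fintype.card X : ℝ)⁻¹) = 1 := by
  rw [T_proj rfl]
  · simp [trace]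
  · ext a b; simp [mul_apply]

lemma T_Zm_empty [IsEmpty ι] {α : Perm Ω → ℝ} (h : ∑ g, α g = 1) : T 8 (Zm ι α) = 1 := by
  have : Zm ι α = 1 := by
    ext v v'
    rw [Zm_apply, ind_pos (Function.injective_of_subsingleton v), Subsingleton.elim v v']
    simp [ex, h]
  rw [this, T_proj (by simp) (by simp)]; simp

lemma T_Mc_le [Nonempty A] (e : Ω ≃ A × B) (α : Perm A → ℝ) (S : Finset ι) (φ : ℕ → ℝ)
    (hφ : ∀ (p : ι → Prop) [DecidablePred p], T 8 (Zm {τ // p τ} α) ≤ φ (univ.filter p).card) :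
    T 8 (Mc e α S) ≤ (Fintype.card B : ℝ) ^ Sᶜ.card *
      ∑ ω : S → B, ∏ j, φ (univ.filter fun τ => ω τ = j).card := by
  let E : (ι → A) × (ι → B) ≃ (ι → Ω) :=
    (Equiv.arrowProdEquivProdArrow ι (fun _ => A) fun _ => B).symm.trans
      (Equiv.piCongrRight fun _ => e.symm)
  let lab : (ι → B) → ι → Option B := fun ω τ => if τ ∈ S then some (ω τ) else none
  let N : (ω : ι → B) → (j : Option B) → Matrix ({τ // lab ω τ = j} → A) ({τ // lab ω τ = j} → A) ℝ :=
    fun ω j => if j = none then of fun _ _ => (Fintype.card ({τ // lab ω τ = j} → A) : ℝ)⁻¹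
      else Zm _ α
  let F : (ω : ι → B) → (ι → A) ≃ ((j : Option B) → {τ // lab ω τ = j} → A) :=
    fun ω => Equiv.piCongrFiberwise (γ₁ := fun _ => A) (f := lab ω) fun _ => Equiv.refl _
  have hl : ∀ ω τ j, lab ω τ = some j ↔ τ ∈ S ∧ ω τ = j := by
    intro ω τ j; simp only [lab]; split_ifs with h <;> simp [h]
  have h1 : (Mc e α S).submatrix E E =
      blockDiagonal fun ω => (piT (N ω)).submatrix (F ω) (F ω) := by
    ext ⟨u, ω⟩ ⟨u', ω'⟩
    have e0 : ∀ u ω τ, e (E (u, ω) τ) = (u τ, ω τ) := fun u ω τ => by simp [E]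
    rw [blockDiagonal_apply', submatrix_apply, Mc, of_apply]
    simp only [e0, ← funext_iff]
    split_ifs with h
    swap
    · rw [ind_neg h, zero_mul]
    subst h
    rw [ind_pos rfl, one_mul, submatrix_apply, piT_apply, Fintype.prod_option]
    simp only [N, if_true, reduceCtorEq, if_false, of_apply, Zm_apply, prod_mul_distrib,
      ← ex_tens]
    rw [mul_left_comm]
    congr 1
    · rw [Fintype.card_fun, Nat.cast_pow, inv_pow, Fintype.card_subtype]
      congr 3; ext τ; simp [lab]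
    congr 1
    · simp only [ind_eq_ite (Injective _), prod_boole, mem_univ, true_imp_iff]
      rw [← ind_eq_ite]
      refine ind_congr ⟨fun H j a b hab => Subtype.ext (H ((hl _ _ _).1 a.2).1
        ((hl _ _ _).1 b.2).1 (e.injective ?_)), fun H a ha b hb hab => ?_⟩
      · rw [e0, e0, ((hl _ _ _).1 a.2).2, ((hl _ _ _).1 b.2).2]
        exact congrArg (·, j) hab
      · have := congrArg e hab
        rw [e0, e0, Prod.mk.injEq] at this
        exact congrArg Subtype.val (@H (ω a) ⟨a, (hl _ _ _).2 ⟨ha, rfl⟩⟩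
          ⟨b, (hl _ _ _).2 ⟨hb, this.2.symm⟩⟩ this.1)
    · congr 1; ext c
      rw [← prod_fiberwise S ω]
      refine prod_congr rfl fun j _ => ?_
      rw [prod_subtype (p := fun τ => lab ω τ = some j) _ (by simp [hl])]
      exact prod_congr rfl fun τ _ => by rw [((hl _ _ _).1 τ.2).2]; rfl
  rw [← T_sub E, h1, T_blockDiagonal]
  simp only [T_sub, T_piT, Fintype.prod_option, N, if_true, reduceCtorEq, if_false, T_avg, one_mul]
  refine (sum_le_sum fun ω _ => prod_le_prod (fun j _ => T_nonneg _ _) fun j _ => hφ _).trans ?_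
  rw [← Equiv.sum_comp (Equiv.piEquivPiSubtypeProd (· ∈ S) fun _ => B).symm, Fintype.sum_prod_type,
    mul_sum]
  refine le_of_eq (sum_congr rfl fun ω _ => ?_)
  rw [sum_congr rfl (g := fun _ => ∏ j, φ (univ.filter fun τ => ω τ = j).card), sum_const,
    card_univ, Fintype.card_fun, nsmul_eq_mul, Nat.cast_pow, Fintype.card_subtype]
  · congr 3; ext; simp
  · intro ω' _
    refine prod_congr rfl fun j _ => ?_
    congr 1
    symm
    refine card_bij (fun τ _ => τ.1) ?_ ?_ ?_
    · intro τ hτ; simpa [hl] using hτ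
    · intro a _ b _ h; exact Subtype.ext h
    · intro τ hτ
      simp only [mem_filter, mem_univ, true_and, hl] at hτ
      exact ⟨⟨τ, hτ.1⟩, by simpa [hτ.1] using hτ.2, rfl⟩

def Good (α : Perm A → ℝ) (L : ℕ) : Prop :=
  ∑ g, α g = 1 ∧ T 8 (cm α) ≤ 3 / 2 ∧
    (∀ j, 1 ≤ j → j ≤ L → T 8 (cm α * pr (Lev A j)) ≤ (Fintype.card A : ℝ)⁻¹ ^ j) ∧
    5 * L ≤ Fintype.card A ∧ Fintype.card A ≤ 2 ^ (16 * (L + 1))

lemma gf_le {a L : ℕ} (ha : 1 ≤ a) (h : a ≤ 2 ^ (16 * (L + 1))) (l : ℕ) :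
    ∑ m ∈ range (l + 1), (if m = 0 then 1 else wt a L m) * ((2 : ℝ) ^ 17)⁻¹ ^ m ≤ 1 + 2 / a := by
  have ha0 : (0 : ℝ) < a := by exact_mod_cast ha
  rw [sum_range_succ', add_comm]
  simp only [if_true, pow_zero, mul_one, Nat.add_one_ne_zero, if_false]
  refine add_le_add_right ?_ _
  have h1 : ∀ m ∈ range l, wt a L (m + 1) * ((2 : ℝ) ^ 17)⁻¹ ^ (m + 1) ≤
      (a : ℝ)⁻¹ * (1 / 2) ^ m := by
    intro m _
    have e : ((2 : ℝ) ^ 17)⁻¹ ^ (m + 1) = ((2 : ℝ) ^ 16)⁻¹ ^ (m + 1) * (1 / 2) ^ (m + 1) := by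
      rw [← mul_pow]; norm_num
    have h2 : ((1 : ℝ) / 2) ^ (m + 1) ≤ (1 / 2) ^ m :=
      pow_le_pow_of_le_one (by norm_num) (by norm_num) (by omega)
    rw [e, ← mul_assoc]
    refine mul_le_mul ?_ h2 (by positivity) (by positivity)
    unfold wt
    split_ifs with hc
    · exact mul_le_of_le_one_right (by positivity) (pow_le_one₀ (by positivity) (by norm_num))
    · rw [one_mul, inv_pow, ← pow_mul]
      refine inv_anti₀ ha0 ?_
      exact_mod_cast h.trans (Nat.pow_le_pow_right (by norm_num) (by omega))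
  refine (sum_le_sum h1).trans ?_
  rw [← mul_sum, div_eq_inv_mul 2]
  exact mul_le_mul_of_nonneg_left (sum_geometric_two_le l) (by positivity)

lemma T_Mc_le' [Nonempty A] (e : Ω ≃ A × B) {α : Perm A → ℝ} {L : ℕ} (h : Good α L)
    (hab : Fintype.card B ≤ 2 * Fintype.card A) (S : Finset ι) :
    T 8 (Mc e α S) ≤ (Fintype.card B : ℝ) ^ Sᶜ.card *
      ((2 ^ 77 / Fintype.card A) ^ S.card * S.card.factorial * 2 ^ 6) := by
  obtain ⟨h1, h2, h3, h4, h5⟩ := h
  set a := Fintype.card A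
  have ha : 1 ≤ a := Fintype.card_pos
  have ha0 : (0 : ℝ) < a := by exact_mod_cast ha
  let w : ℕ → ℝ := fun m => if m = 0 then 1 else wt a L m
  have hw : ∀ m, 0 ≤ w m := fun m => by
    simp only [w, wt]; split_ifs <;> positivity
  refine (T_Mc_le e α S (fun m => (2 ^ 60 / a) ^ m * (m.factorial * w m)) fun p _ => ?_).trans
    (mul_le_mul_of_nonneg_left ?_ (by positivity))
  · rw [← Fintype.card_subtype]
    rcases Nat.eq_zero_or_pos (Fintype.card {τ // p τ}) with h0 | h0
    · have := Fintype.card_eq_zero_iff.1 h0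
      rw [T_Zm_empty h1, h0]; simp [w]
    · simp only [w, if_neg h0.ne', ← mul_assoc]
      exact rp h4 h2 h3 h0
  · simp only [prod_mul_distrib (f := fun _ => _ ^ _), prod_pow_eq_pow_sum]
    have e1 : ∀ ω : S → B, ∑ j, (univ.filter fun τ => ω τ = j).card = S.card := fun ω => by
      rw [← Fintype.card_coe S, ← card_univ]
      exact (card_eq_sum_card_fiberwise fun _ _ => mem_univ _).symm
    simp only [e1]
    rw [← mul_sum]
    have h6 := multi (ι := S) (B := B) w hw (x := (2 ^ 17)⁻¹) (by positivity)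
    rw [Fintype.card_coe] at h6
    have h7 : (∑ m ∈ range (S.card + 1), w m * ((2 : ℝ) ^ 17)⁻¹ ^ m) ^ Fintype.card B ≤ 2 ^ 6 := by
      refine (pow_le_pow_left₀ (sum_nonneg fun m _ => mul_nonneg (hw m) (by positivity))
        ((gf_le ha h5 _).trans ((add_comm _ _).le.trans (Real.add_one_le_exp _))) _).trans ?_
      rw [← Real.exp_nat_mul]
      have : (Fintype.card B : ℝ) * (2 / a) ≤ (4 : ℕ) * 1 := by
        have : (Fintype.card B : ℝ) ≤ 2 * a := by exact_mod_cast hab
        rw [← mul_div_assoc, div_le_iff₀ ha0]; push_cast; linarith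
      refine (Real.exp_le_exp.2 this).trans ?_
      rw [Real.exp_nat_mul]
      exact (pow_le_pow_left₀ (by positivity) Real.exp_one_lt_d9.le 4).trans (by norm_num)
    refine (mul_le_mul_of_nonneg_left (h6.trans (mul_le_mul_of_nonneg_left h7 (by positivity)))
      (by positivity)).trans (le_of_eq ?_)
    rw [inv_pow, div_inv_eq_mul, show (2 : ℝ) ^ 77 / a = 2 ^ 60 / a * 2 ^ 17 by ring, mul_pow]
    ring

lemma piece_ar {a b k l l' v : ℕ} (ha : 1 ≤ a) (hb : 1 ≤ b) (hk : 1 ≤ k) (hl : l ≤ k)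
    (hl' : l' ≤ k) (hv : l + l' = k + v) {t : ℝ}
    (h : v.factorial * ((a * b : ℕ) : ℝ) ^ (k - v) * t ≤
      ((b : ℝ) ^ (k - l') * ((2 ^ 77 / a) ^ l' * l'.factorial * 2 ^ 6)) *
      ((a : ℝ) ^ (k - l) * ((2 ^ 77 / b) ^ l * l.factorial * 2 ^ 6))) :
    t ≤ (2 ^ 167 / ((a * b : ℕ) : ℝ)) ^ k * k.factorial := by
  have ha0 : (0 : ℝ) < a := by exact_mod_cast ha
  have hb0 : (0 : ℝ) < b := by exact_mod_cast hb
  obtain ⟨p, rfl⟩ := Nat.exists_eq_add_of_le hl
  obtain ⟨q, rfl⟩ : ∃ q, l = v + q := ⟨l - v, by omega⟩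
  obtain rfl : l' = v + p := by omega
  rw [show v + q + p - v = p + q by omega, show v + q + p - (v + p) = q by omega,
    show v + q + p - (v + q) = p by omega] at h
  have h1 : (v + q).factorial * (v + p).factorial ≤
      2 ^ (v + q + p) * v.factorial * (v + q + p).factorial := by
    have e1 := Nat.add_choose_mul_factorial_mul_factorial v q
    have e2 := Nat.le_of_dvd (Nat.factorial_pos _)
      (Nat.factorial_mul_factorial_dvd_factorial_add q (v + p))
    have e3 := (Nat.choose_le_two_pow (v + q) q).trans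
      (Nat.pow_le_pow_right (by norm_num) (Nat.le_add_right _ p))
    rw [← e1, show v + q + p = q + (v + p) by ring, mul_assoc (_ * _)]
    rw [show v + q + p = q + (v + p) by ring] at e3
    gcongr
  have h1' : ((v + q).factorial : ℝ) * (v + p).factorial ≤
      2 ^ (v + q + p) * v.factorial * (v + q + p).factorial := by exact_mod_cast h1
  have h2 : (2 : ℝ) ^ 12 ≤ (2 ^ 12) ^ (v + q + p) := le_self_pow₀ (by norm_num) (by omega)
  have h3 : ((2 : ℝ) ^ 77) ^ (v + p + (v + q)) ≤ (2 ^ 77) ^ (2 * (v + q + p)) :=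
    pow_le_pow_right₀ (by norm_num) (by omega)
  refine le_of_mul_le_mul_left (h.trans ?_) (by positivity)
  calc _ = (2 ^ 77) ^ (v + p + (v + q)) * 2 ^ 12 * ((v + q).factorial * (v + p).factorial) /
        ((a : ℝ) * b) ^ v := by
        rw [div_pow, div_pow]; field_simp; ring
    _ ≤ (2 ^ 77) ^ (2 * (v + q + p)) * (2 ^ 12) ^ (v + q + p) *
        (2 ^ (v + q + p) * v.factorial * (v + q + p).factorial) / ((a : ℝ) * b) ^ v := by gcongr
    _ = _ := by
        rw [div_pow, show (2 : ℝ) ^ 167 = (2 ^ 77) ^ 2 * 2 ^ 12 * 2 by norm_num, pow_mul,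
          mul_pow (_ * _), mul_pow (_ ^ 2)]
        push_cast; field_simp; ring

theorem sparse [Nonempty A] [Nonempty B] (e : Ω ≃ A × B) {α : Perm A → ℝ} {β : Perm B → ℝ}
    {L L' : ℕ} (h : Good α L) (h' : Good β L') (hab : Fintype.card B ≤ 2 * Fintype.card A)
    (hba : Fintype.card A ≤ 2 * Fintype.card B) (hk : 1 ≤ Fintype.card ι) :
    T 8 (Zm ι (conv (push (blk e) (tens B α))
      (push (blk (e.trans (Equiv.prodComm A B))) (tens A β)))) ≤
      (2 ^ 183 / Fintype.card Ω) ^ Fintype.card ι * (Fintype.card ι).factorial := by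
  have hn : Fintype.card Ω = Fintype.card A * Fintype.card B := by
    rw [Fintype.card_congr e, Fintype.card_prod]
  have e1 : Zm ι (conv (push (blk e) (tens B α))
      (push (blk (e.trans (Equiv.prodComm A B))) (tens A β))) = Dg ι Ω *
      ∑ p : Finset ι × Finset ι,
        Mc e α p.1 * Mc (e.trans (Equiv.prodComm A B)) β p.2 * Pi0 ι Ω := by
    rw [Zm, kap_conv, ← Matrix.mul_assoc, ← Dg_kap_Dg, Matrix.mul_assoc _ (Dg ι Ω),
      Dg_kap_blk (e.trans (Equiv.prodComm A B)), ← Matrix.mul_assoc, Dg_kap_Dg, Dg_kap_blk, Fintype.sum_prod_type]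
    simp only [← Matrix.sum_mul, ← Matrix.mul_sum, Matrix.mul_assoc]
  rw [e1]
  refine (T_mul_left1 (by norm_num) (opLe_ind' _) _).trans ((T_sum_le' (by norm_num) _ _
    (b := (2 ^ 167 / Fintype.card Ω) ^ Fintype.card ι * (Fintype.card ι).factorial) ?_
    (by positivity)).trans (le_of_eq ?_))
  · rintro ⟨S', S⟩ -
    by_cases hU : ∀ τ, τ ∈ S ∨ τ ∈ S'
    swap
    · push Not at hU
      obtain ⟨τ, h1, h2⟩ := hU
      rw [Mc_kill e α β h1 h2, T_zero (by norm_num)]; positivity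
    refine (T_mul_right1 (by norm_num) opLe_Pi0 _).trans ?_
    have h1 := (piece_le e α β hU).trans (mul_le_mul (T_Mc_le' e h hab S')
      (T_Mc_le' _ h' hba S) (T_nonneg _ _) (by positivity))
    rw [card_compl, card_compl, hn] at h1
    rw [hn]
    refine piece_ar Fintype.card_pos Fintype.card_pos hk (card_le_univ S) (card_le_univ S') ?_ h1
    rw [← card_union_add_card_inter, eq_univ_iff_forall.2 fun τ => mem_union.2 (hU τ), card_univ]
  · rw [card_univ, Fintype.card_prod, Fintype.card_finset, ← mul_assoc,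
      show (2 : ℝ) ^ 183 / Fintype.card Ω = (2 * 2) ^ 8 * (2 ^ 167 / Fintype.card Ω) by ring,
      mul_pow, ← pow_mul, mul_comm 8, pow_mul, mul_pow]
    norm_cast

end Vale.Agent.P162
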