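import Vale.Agent.P162.Dir

set_option linter.unusedSectionVars false
set_option linter.unusedVariables false
set_option linter.unusedSimpArgs false

open Matrix Finset Equiv Function

namespace Vale.Agent.P162

section
variable {Ω A B : Type*} [Fintype Ω] [DecidableEq Ω] [Fintype A] [DecidableEq A]
  [Fintype B] [DecidableEq B]

lemma Ws_one : Ws Ω 1 = Vs ∅ :=
  le_antisymm (iSup_le fun S => Vs_mono (by
    have := S.2; simp only [Nat.lt_one_iff, card_eq_zero] at this; simp [this]))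
    (Vs_le_Ws (by simp))

lemma pr_Ws_one : pr (Ws Ω 1) = of fun _ _ => (Fintype.card (Perm Ω) : ℝ)⁻¹ := by
  rw [Ws_one]
  refine pr_unique (fun v g g' _ => rfl) fun v w hw => ?_
  have : w = fun _ => w 1 := funext fun g => hw g 1 (by simp)
  rw [this]
  have h0 : (Fintype.card (Perm Ω) : ℝ) ≠ 0 := by positivity
  simp [dotProduct, mulVec, ← mul_sum, mul_sub, sum_sub_distrib]
  field_simp; ring

lemma T_full {α : Perm Ω → ℝ} (h : ∑ g, α g = 1) {y : ℝ} (hy : 0 < y) :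
    T y (cm α) = 1 + T y (cm α * pr (orth (Ws Ω 1))) := by
  rw [T_pr hy (by rw [tmul_cm]; exact inv_oWs _ _), pr_orth_eq, Matrix.mul_sub, Matrix.mul_one,
    trace_sub, ← T]
  have : ab y (cm α) * pr (Ws Ω 1) = pr (Ws Ω 1) := by
    ext g g'
    have := congrFun (ab_one h y) g
    simp only [mulVec, dotProduct, mul_one] at this
    simp [pr_Ws_one, mul_apply, ← sum_mul, this]
  rw [this, pr_Ws_one]; simp [trace]

lemma cm_pr_comm {U : Submodule ℝ (Perm Ω → ℝ)} (h : ∀ α, Inv (cm α) U) (α : Perm Ω → ℝ) :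
    pr U * cm α = cm α * pr U := pr_comm (h α) (by rw [cm_tr]; exact h _)

lemma T_chk {U : Submodule ℝ (Perm Ω → ℝ)} (h : ∀ α, Inv (cm α) U) {y : ℝ} (hy : 0 < y)
    (α : Perm Ω → ℝ) : T y (cm (chk α) * pr U) = T y (cm α * pr U) := by
  rw [← T_tr hy (cm α * pr U), transpose_mul, pr_symm, cm_tr, cm_pr_comm h]

lemma good_abk {q : Perm A → ℝ} (h : ∑ g, q g = 1) {y : ℝ} (hy : 0 < y) (h1 : T y (cm q) ≤ 3 / 2)
    {L : ℕ} (h2 : ∀ j, 1 ≤ j → j ≤ L → T y (cm q * pr (Lev A j)) ≤ (Fintype.card A : ℝ)⁻¹ ^ j)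
    (h3 : 5 * L ≤ Fintype.card A) (h4 : Fintype.card A ≤ 2 ^ (16 * (L + 1))) :
    Good (abk (y / 8) q) L := by
  have h8 : 0 < y / 8 := by positivity
  refine ⟨sum_abk h _, ?_, fun j a b => ?_, h3, h4⟩
  · rwa [cm_abk, T_ab h8, div_mul_cancel₀ _ (by norm_num)]
  · rw [cm_abk, ← ab_pr h8 (by rw [tmul_cm]; exact inv_Lev _ _), T_ab h8,
      div_mul_cancel₀ _ (by norm_num)]
    exact h2 j a b

lemma level_le [Nonempty A] [Nonempty B] (e : Ω ≃ A × B) {q₁ : Perm A → ℝ} {q₂ : Perm B → ℝ}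
    {y : ℝ} (hy : 8 ≤ y) {L L' : ℕ} (h : Good (abk (y / 8) q₁) L)
    (h' : Good (abk (y / 8) (chk q₂)) L') (hab : Fintype.card B ≤ 2 * Fintype.card A)
    (hba : Fintype.card A ≤ 2 * Fintype.card B) (S : Finset Ω) (hk : 1 ≤ S.card) :
    T y (cm (conv (push (blk e) (tens B q₁))
      (push (blk (e.trans (Equiv.prodComm A B))) (tens A q₂))) * pr (Lev Ω S.card ⊓ Vs S)) ≤
      (2 ^ 183 / Fintype.card Ω) ^ S.card * S.card.factorial := by
  have hU : ∀ α, Inv (cm α) (Lev Ω S.card ⊓ Vs S) := fun α => (inv_Lev _ _).inf (inv_Vs _ _)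
  have hc := cm_pr_comm hU
  have h8 : 0 < y / 8 := by positivity
  have e1 : ∀ α β : Perm Ω → ℝ, cm (conv α β) * pr (Lev Ω S.card ⊓ Vs S) =
      (cm α * pr (Lev Ω S.card ⊓ Vs S)) * (cm β * pr (Lev Ω S.card ⊓ Vs S)) := fun α β => by
    rw [cm_conv, Matrix.mul_assoc (cm α) (pr _), ← Matrix.mul_assoc (pr _), hc,
      Matrix.mul_assoc (cm β), pr_idem, Matrix.mul_assoc]
  rw [e1]
  refine (alt (q := 8) (by norm_num) hy _ _).trans ?_
  rw [transpose_mul, pr_symm, cm_tr, hc, ab_pr h8 (by rw [tmul_cm]; exact hU _),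
    ab_pr h8 (by rw [tmul_cm]; exact hU _), ← push_chk, ← tens_chk, ab_push, ab_push, abk_tens,
    abk_tens, ← e1]
  have h1 := T_PS_le (y := 8) (by norm_num) (ι := S) (e := Subtype.val) Subtype.val_injective
    (conv (push (blk e) (tens B (abk (y / 8) q₁)))
      (push (blk (e.trans (Equiv.prodComm A B))) (tens A (abk (y / 8) (chk q₂)))))
  have h2 := sparse (ι := S) e h h' hab hba (by rwa [Fintype.card_coe])
  rw [Fintype.card_coe] at h1 h2
  rw [show univ.image (Subtype.val : S → Ω) = S by simp] at h1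
  exact h1.trans h2

lemma T_split (α : Perm Ω → ℝ) {y : ℝ} (hy : 0 < y) (k : ℕ) :
    T y (cm α * pr (orth (Ws Ω 1))) = ∑ j ∈ range k, T y (cm α * pr (Lev Ω (j + 1))) +
      T y (cm α * pr (orth (Ws Ω (k + 1)))) := by
  rw [T_pr hy (by rw [tmul_cm]; exact inv_oWs _ _), T_pr hy (by rw [tmul_cm]; exact inv_oWs _ _),
    sum_congr rfl fun j _ => T_pr hy (by rw [tmul_cm]; exact inv_Lev _ _), ← trace_sum,
    ← trace_add, ← Matrix.mul_sum, ← Matrix.mul_add, pr_orth_eq, pr_orth_eq, pr_Ws_eq,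
    pr_Ws_eq (k + 1), sum_range_succ', sum_range_succ' _ k]
  simp only [range_zero, sum_empty, zero_add]
  congr 2; abel

end

def Claim (d : ℕ) (y : ℝ) : Prop := T y (cm (qd d) * pr (orth (Ws (Fin d → Bool) 1))) ≤ 1 / 2

lemma qd_left {d c : ℕ} (hc : d = c + 1) (h : c < d) (z : Fin d → Bool)
    (π : Perm (Fin d → Bool)) : qd d (Equiv.swap z (flp ⟨c, h⟩ z) * π) = qd d π := by
  subst hc
  rw [qd, List.finRange_succ_last]
  exact qL_left _ _ _ _

lemma Claim.mono {d : ℕ} {y z : ℝ} (h : Claim d y) (hy : 0 < y) (hz : y ≤ z) : Claim d z :=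
  (T_le_T_rpow hy hz _ h).trans (by
    conv_rhs => rw [← Real.rpow_one (1 / 2)]
    exact Real.rpow_le_rpow_of_exponent_ge (by norm_num) (by norm_num) ((one_le_div hy).2 hz))

lemma pow_eight {x : ℕ} (h : 80 ≤ x) : 4096 * x ^ 8 ≤ 2 ^ x := by
  induction x, h using Nat.le_induction with
  | base => norm_num
  | succ x hx ih =>
    have h1 : ((x + 1) * 20) ^ 8 ≤ (21 * x) ^ 8 := Nat.pow_le_pow_left (by omega) 8
    rw [mul_pow, mul_pow] at h1
    rw [pow_succ 2]; omega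

lemma Claim.good {d : ℕ} {y : ℝ} (h : Claim d y) (hy : 16 ≤ y) (hd : 80 ≤ d) :
    (T y (cm (qd d)) ≤ 3 / 2 ∧ T y (cm (chk (qd d))) ≤ 3 / 2) ∧
      Good (abk (y / 8) (qd d)) (d / 16) ∧ Good (abk (y / 8) (chk (qd d))) (d / 16) := by
  have hy0 : 0 < y := by linarith
  have h1 : T y (cm (qd d)) ≤ 3 / 2 := by
    rw [T_full (α := qd d) (sum_qL _) hy0]; unfold Claim at h; linarith
  have h2 : T y (cm (chk (qd d))) ≤ 3 / 2 := by rwa [← cm_tr, T_tr hy0]
  have h3 : 5 * (d / 16) ≤ Fintype.card (Fin d → Bool) := by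
    have := Nat.lt_two_pow_self (n := d)
    simp; omega
  have h4 : Fintype.card (Fin d → Bool) ≤ 2 ^ (16 * (d / 16 + 1)) := by
    simp only [Fintype.card_fun, Fintype.card_bool, Fintype.card_fin]
    exact Nat.pow_le_pow_right (by norm_num) (by omega)
  refine ⟨⟨h1, h2⟩, good_abk (sum_qL _) hy0 h1 (fun j _ hj => ?_) h3 h4,
    good_abk (by rw [sum_chk]; exact sum_qL _) hy0 h2 (fun j _ hj => ?_) h3 h4⟩
  · exact low_level (pow_eight hd) (by omega) hy
  · rw [T_chk (fun α => inv_Lev α j) hy0]; exact low_level (pow_eight hd) (by omega) hy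

lemma lev_ar {n k k₁ p : ℕ} (hp : 1 ≤ p) (hk : 1 ≤ k) (hk' : k ≤ k₁)
    (h : 2 ^ 183 * k₁ * (2 ^ 186) ^ p ≤ n) {η : ℝ} (hη : 1 + (p : ℝ)⁻¹ ≤ η) :
    n.choose k * ((2 ^ 183 / n : ℝ) ^ k * k.factorial) ^ η ≤ (1 / 8) ^ k := by
  have hn : 0 < n := lt_of_lt_of_le (by have : 0 < k₁ := by omega
                                        positivity) h
  have hn' : (0 : ℝ) < n := by exact_mod_cast hn
  set t : ℝ := (2 ^ 183 / n : ℝ) ^ k * k.factorial with ht
  have ht0 : 0 < t := by positivity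
  have h1 : n.choose k * t ≤ (2 ^ 183) ^ k := by
    have := Nat.descFactorial_le_pow n k
    rw [Nat.descFactorial_eq_factorial_mul_choose] at this
    have h2 : (k.factorial * n.choose k : ℝ) ≤ n ^ k := by exact_mod_cast this
    rw [ht, div_pow, div_mul_eq_mul_div, ← mul_div_assoc, div_le_iff₀ (by positivity)]
    calc _ = (2 ^ 183) ^ k * (k.factorial * n.choose k : ℝ) := by ring
      _ ≤ _ := by gcongr
  have h2 : t ≤ (((2 : ℝ) ^ 186)⁻¹ ^ k) ^ p := by
    have h3 : (k.factorial : ℝ) ≤ k₁ ^ k := by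
      exact_mod_cast (Nat.factorial_le_pow k).trans (Nat.pow_le_pow_left hk' k)
    have h4 : (2 ^ 183 * k₁ * (2 ^ 186) ^ p : ℝ) ≤ n := by exact_mod_cast h
    rw [← pow_mul, mul_comm k, pow_mul]
    refine (mul_le_mul_of_nonneg_left h3 (by positivity)).trans ?_
    rw [← mul_pow]
    refine pow_le_pow_left₀ (by positivity) ?_ _
    rwa [inv_pow, div_mul_eq_mul_div, div_le_iff₀ hn', ← div_eq_inv_mul,
      le_div_iff₀ (by positivity)]
  have h3 : t ≤ 1 := h2.trans (pow_le_one₀ (by positivity)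
    (pow_le_one₀ (by positivity) (by norm_num)))
  have h4 : t ^ (p : ℝ)⁻¹ ≤ ((2 : ℝ) ^ 186)⁻¹ ^ k := by
    refine (Real.rpow_le_rpow ht0.le h2 (by positivity)).trans (le_of_eq ?_)
    exact Real.pow_rpow_inv_natCast (by positivity) (by omega)
  refine (mul_le_mul_of_nonneg_left (Real.rpow_le_rpow_of_exponent_ge ht0 h3 hη)
    (by positivity)).trans ?_
  rw [Real.rpow_add ht0, Real.rpow_one, ← mul_assoc]
  refine (mul_le_mul h1 h4 (by positivity) (by positivity)).trans (le_of_eq ?_)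
  rw [← mul_pow]; norm_num

lemma step_core {a b p k₁ : ℕ} {y E : ℝ} (hy : 16 ≤ y) (ha : Claim a y) (hb : Claim b y)
    (ha' : 80 ≤ a) (hab : a ≤ b) (hba : b ≤ a + 1) (hp : 1 ≤ p)
    (hE : T (y * (1 + (p : ℝ)⁻¹)) (cm (qd (a + b))) ≤ E)
    (h1 : 2 ^ 183 * k₁ * (2 ^ 186) ^ p ≤ 2 ^ (a + b)) (h2 : (4 * E) ^ p * E ≤ 2 ^ (k₁ / 2)) :
    Claim (a + b) (y * (1 + (p : ℝ)⁻¹) ^ 2) := by
  have hy0 : 0 < y := by linarith
  have hp0 : 0 < (p : ℝ)⁻¹ := inv_pos.2 (by exact_mod_cast hp)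
  set η : ℝ := 1 + (p : ℝ)⁻¹ with hη
  have hη1 : 1 ≤ η := by linarith
  have hη2 : η ≤ η ^ 2 := by nlinarith
  have hy1 : y ≤ y * η := le_mul_of_one_le_right hy0.le hη1
  have hy2 : y * η ≤ y * η ^ 2 := mul_le_mul_of_nonneg_left hη2 hy0.le
  have hn : Fintype.card (Fin (a + b) → Bool) = 2 ^ (a + b) := by simp
  have hk : 2 * k₁ < 2 ^ (a + b) := by
    rcases Nat.eq_zero_or_pos k₁ with h | h
    · simp [h]
    · have : 1 ≤ (2 ^ 186) ^ p := Nat.one_le_pow _ _ (by norm_num)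
      nlinarith
  obtain ⟨-, ga, -⟩ := ha.good hy ha'
  obtain ⟨-, -, gb⟩ := hb.good hy (by omega)
  rw [Claim, T_split _ (by positivity) k₁]
  have k1 : ∀ j ∈ range k₁, T (y * η ^ 2) (cm (qd (a + b)) * pr (Lev _ (j + 1))) ≤
      (1 / 8) ^ (j + 1) := by
    intro j hj
    have hj' := mem_range.1 hj
    obtain ⟨S, -, hS⟩ := exists_subset_card_eq (s := (univ : Finset (Fin (a + b) → Bool)))
      (n := j + 1) (by rw [card_univ, hn]; omega)
    have h3 := level_le (Fin.appendEquiv a b).symm (by linarith) ga gb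
      (by simp only [Fintype.card_fun, Fintype.card_bool, Fintype.card_fin, ← pow_succ']
          exact Nat.pow_le_pow_right (by norm_num) hba)
      (by simp only [Fintype.card_fun, Fintype.card_bool, Fintype.card_fin, ← pow_succ']
          exact Nat.pow_le_pow_right (by norm_num) (by omega)) S (by omega)
    rw [← qd_add] at h3
    have h4 := T_le_T_rpow hy0 (z := y * η ^ 2) (by linarith) _ h3
    have h5 := T_lev_le (y := y * η ^ 2) (by positivity) (qd (a + b)) S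
    rw [hS, hn] at h4 h5
    refine h5.trans ((mul_le_mul_of_nonneg_left h4 (by positivity)).trans
      (lev_ar hp (by omega) hj' h1 ?_))
    rw [mul_div_cancel_left₀ _ hy0.ne', ← hη]; exact hη2
  have k2 : T (y * η ^ 2) (cm (qd (a + b)) * pr (orth (Ws _ (k₁ + 1)))) ≤ 1 / 4 := by
    have hE0 : 0 ≤ E := (T_nonneg _ _).trans hE
    refine (T_hi (y := y * η) (N := 2 ^ (k₁ / 2)) (t := E) (by positivity) hy2
      (by positivity) (by rw [tmul_cm]; exact inv_oWs _ _)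
      ((T_mul_right1 (by linarith) (opLe_pr _) _).trans hE) fun μ hμ h0 => ?_).trans ?_
    · obtain ⟨c, hc⟩ : ∃ c, a + b = c + 1 := ⟨a + b - 1, by omega⟩
      have := dimC (k := k₁) (by rwa [hn]) inf_le_right (flp ⟨c, by omega⟩) (flp_ne _)
        (fun F hF z g => eig_left (fun π => ?_) hμ hF.1 g) (k₁ / 2) univ _ h0 le_rfl
        (fun h _ => ((by rw [tmul_cm]; exact ri_Eig _ _ : RI _).inf (ri_Ws _).orth) h)
        (by simp; omega)
      · exact_mod_cast this
      · exact qd_left hc _ z π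
    · rw [show y * η ^ 2 / (y * η) - 1 = (p : ℝ)⁻¹ by field_simp; rw [hη]; field_simp; ring]
      refine (pow_le_pow_iff_left₀ (by positivity) (by positivity) (show p ≠ 0 by omega)).1 ?_
      rw [mul_pow, Real.rpow_inv_natCast_pow (by positivity) (by omega), div_mul_eq_mul_div,
        div_pow, div_le_div_iff₀ (by positivity) (by positivity), one_pow, one_mul]
      refine le_trans (le_of_eq ?_) h2
      rw [mul_pow]; ring
  have k3 : ∑ j ∈ range k₁, ((1 : ℝ) / 8) ^ (j + 1) ≤ 1 / 4 := by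
    simp only [pow_succ, ← sum_mul]
    have : ∑ j ∈ range k₁, ((1 : ℝ) / 8) ^ j ≤ 2 := le_trans (sum_le_sum fun j _ =>
      pow_le_pow_left₀ (by norm_num) (by norm_num) j) (sum_geometric_two_le k₁)
    linarith
  linarith [sum_le_sum k1]

end Vale.Agent.P162
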