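import Vale.Agent.P162.Comb

set_option linter.unusedSectionVars false
set_option linter.unusedVariables false
set_option linter.unusedSimpArgs false

open Matrix Finset Equiv Function

namespace Vale.Agent.P162

variable {ι Ω : Type*} [Fintype ι] [DecidableEq ι] [Fintype Ω] [DecidableEq Ω]

def kap (ι : Type*) [Fintype ι] (α : Perm Ω → ℝ) : Matrix (ι → Ω) (ι → Ω) ℝ :=
  of fun v v' => ex α fun π => if π ∘ v = v' then 1 else 0

open Classical in
noncomputable def ind (p : Prop) : ℝ := if p then 1 else 0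

noncomputable def Dg (ι Ω : Type*) [Fintype ι] [DecidableEq Ω] : Matrix (ι → Ω) (ι → Ω) ℝ :=
  diagonal fun v => ind (Injective v)

noncomputable def Q0 (Ω : Type*) [Fintype Ω] [DecidableEq Ω] : Matrix Ω Ω ℝ :=
  of fun a b => (if a = b then 1 else 0) - (Fintype.card Ω : ℝ)⁻¹

noncomputable def Pi0 (ι Ω : Type*) [Fintype ι] [Fintype Ω] [DecidableEq Ω] :
    Matrix (ι → Ω) (ι → Ω) ℝ := piT fun _ : ι => Q0 Ω

noncomputable def Zm (ι : Type*) [Fintype ι] [DecidableEq ι] (α : Perm Ω → ℝ) :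
    Matrix (ι → Ω) (ι → Ω) ℝ := Dg ι Ω * kap ι α * Pi0 ι Ω

noncomputable def Lh (e : ι → Ω) : Matrix (Perm Ω) (ι → Ω) ℝ :=
  of fun g v => if g ∘ e = v then (√((Fintype.card Ω - Fintype.card ι).factorial : ℝ))⁻¹ else 0

lemma ind_pos {p : Prop} (h : p) : ind p = 1 := if_pos h
lemma ind_neg {p : Prop} (h : ¬ p) : ind p = 0 := if_neg h
lemma ind_nonneg (p : Prop) : 0 ≤ ind p := by unfold ind; split_ifs <;> norm_num
lemma ind_le_one (p : Prop) : ind p ≤ 1 := by unfold ind; split_ifs <;> norm_num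
lemma ind_mul_self (p : Prop) : ind p * ind p = ind p := by unfold ind; split_ifs <;> norm_num
lemma ind_congr {p q : Prop} (h : p ↔ q) : ind p = ind q := by rw [propext h]
lemma ind_and (p q : Prop) : ind (p ∧ q) = ind p * ind q := by
  by_cases hp : p <;> by_cases hq : q <;> simp [ind, hp, hq]
lemma ind_eq_ite (p : Prop) [Decidable p] : ind p = if p then 1 else 0 := by
  unfold ind; congr

lemma opLe_ind' {X : Type*} [Fintype X] [DecidableEq X] (p : X → Prop) :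
    OpLe (diagonal fun v => ind (p v)) 1 :=
  opLe_proj (diagonal_transpose _) (by rw [diagonal_mul_diagonal]; simp only [ind_mul_self])

lemma sum_Q0 [Nonempty Ω] (a : Ω) : ∑ b, Q0 Ω a b = 0 := by
  simp [Q0, sum_sub_distrib]

lemma Q0_tr : (Q0 Ω)ᵀ = Q0 Ω := by ext a b; simp [Q0, eq_comm]

lemma Q0_idem : Q0 Ω * Q0 Ω = Q0 Ω := by
  ext a c
  have : Nonempty Ω := ⟨a⟩
  have : ∀ b, Q0 Ω a b * Q0 Ω b c = (if b = c then Q0 Ω a b else 0) -
      Q0 Ω a b * (Fintype.card Ω : ℝ)⁻¹ := by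
    intro b; conv_lhs => enter [2]; simp only [Q0, of_apply]
    split_ifs <;> ring
  simp only [mul_apply, this, sum_sub_distrib, ← sum_mul, sum_Q0]; simp

lemma Pi0_tr : (Pi0 ι Ω)ᵀ = Pi0 ι Ω := by rw [Pi0, piT_tr]; simp only [Q0_tr]

lemma opLe_Pi0 : OpLe (Pi0 ι Ω) 1 :=
  opLe_proj Pi0_tr (by rw [Pi0, piT_mul]; simp only [Q0_idem])

lemma Pi0_kill {φ : (ι → Ω) → ℝ} {τ : ι} (h : ∀ v l, φ (update v τ l) = φ v) :
    Pi0 ι Ω *ᵥ φ = 0 := by
  ext v
  have : Nonempty Ω := ⟨v τ⟩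
  have h0 : (Fintype.card Ω : ℝ) ≠ 0 := by simp
  apply mul_left_cancel₀ h0
  simp only [mulVec, dotProduct]
  rw [← sum_update _ τ, Pi.zero_apply, mul_zero]
  refine sum_eq_zero fun f _ => ?_
  simp only [h, Pi0, piT_apply, ← mul_prod_erase univ _ (mem_univ τ), update_self]
  rw [sum_congr rfl (g := fun l => Q0 Ω (v τ) l * ((∏ j ∈ univ.erase τ, Q0 Ω (v j) (f j)) * φ f))
    fun l _ => by
      rw [prod_congr rfl fun j hj => by rw [update_of_ne (ne_of_mem_erase hj)], mul_assoc],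
    ← sum_mul, sum_Q0, zero_mul]

lemma prod_Q0 (S : Finset ι) (u v : ι → Ω) : ∏ τ ∈ S, Q0 Ω (u τ) (v τ) =
    ∑ A ∈ S.powerset, (-(Fintype.card Ω : ℝ)⁻¹) ^ (S \ A).card * ind (∀ τ ∈ A, u τ = v τ) := by
  simp only [Q0, of_apply, sub_eq_add_neg]
  rw [prod_add]
  refine sum_congr rfl fun A _ => ?_
  rw [prod_const, prod_boole, mul_comm, ind_eq_ite]; congr

lemma Pi0_fix {φ : (ι → Ω) → ℝ} (h : ∀ τ v, ∑ l, φ (update v τ l) = 0) : Pi0 ι Ω *ᵥ φ = φ := by
  ext v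
  simp only [mulVec, dotProduct, Pi0, piT_apply, prod_Q0, sum_mul]
  rw [sum_comm, sum_eq_single univ]
  · have : ∀ x : ι → Ω, ind (∀ τ ∈ (univ : Finset ι), v τ = x τ) = if v = x then 1 else 0 := by
      intro x; rw [← ind_eq_ite]; simp [funext_iff]
    simp only [this]; simp
  · intro A _ hA
    obtain ⟨τ, hτ⟩ : ∃ τ, τ ∉ A := by
      by_contra hc; push Not at hc; exact hA (eq_univ_iff_forall.2 hc)
    have : Nonempty Ω := ⟨v τ⟩
    have h0 : (Fintype.card Ω : ℝ) ≠ 0 := by simp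
    apply mul_left_cancel₀ h0
    rw [← sum_update _ τ, mul_zero]
    refine sum_eq_zero fun f _ => ?_
    rw [sum_congr rfl (g := fun l => ((-(Fintype.card Ω : ℝ)⁻¹) ^ (univ \ A).card *
      ind (∀ τ ∈ A, v τ = f τ)) * φ (update f τ l)) fun l _ => by
        rw [ind_congr (forall₂_congr fun j hj => by
          rw [update_of_ne (fun e : j = τ => hτ (e ▸ hj))])], ← mul_sum, h, mul_zero]
  · simp

lemma Lh_mulVec (e : ι → Ω) (φ : (ι → Ω) → ℝ) (g : Perm Ω) : (Lh e *ᵥ φ) g =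
    (√((Fintype.card Ω - Fintype.card ι).factorial : ℝ))⁻¹ * φ (g ∘ e) := by
  simp [Lh, mulVec, dotProduct]

lemma LhT_mulVec (e : ι → Ω) (F : Perm Ω → ℝ) (v : ι → Ω) : ((Lh e)ᵀ *ᵥ F) v =
    (√((Fintype.card Ω - Fintype.card ι).factorial : ℝ))⁻¹ *
      ∑ g : Perm Ω, ind (g ∘ e = v) * F g := by
  simp [Lh, mulVec, dotProduct, mul_sum, ind_eq_ite]

lemma sum_ind_fiber {e : ι → Ω} (he : Injective e) (S : Finset ι) (v : ι → Ω) :
    ∑ g : Perm Ω, ind (∀ τ ∈ S, g (e τ) = v τ) =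
      ind (Set.InjOn v S) * (Fintype.card Ω - S.card).factorial := by
  classical
  have := card_fiber he S v
  rw [ind_eq_ite (Set.InjOn v S), boole_mul, ← this]
  simp only [ind_eq_ite, sum_boole]

lemma sum_ind_fiber' {e : ι → Ω} (he : Injective e) (v : ι → Ω) :
    ∑ g : Perm Ω, ind (g ∘ e = v) =
      ind (Injective v) * (Fintype.card Ω - Fintype.card ι).factorial := by
  have := sum_ind_fiber he univ v
  simpa [funext_iff] using this

lemma cc (m : ℕ) : (√(m.factorial : ℝ))⁻¹ * (√(m.factorial : ℝ))⁻¹ * m.factorial = 1 := by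
  rw [← mul_inv, Real.mul_self_sqrt (by positivity)]; field_simp

lemma LhT_Lh {e : ι → Ω} (he : Injective e) : (Lh e)ᵀ * Lh e = Dg ι Ω := mat_ext fun φ => by
  ext v
  rw [← mulVec_mulVec, LhT_mulVec, Dg, mulVec_diagonal]
  rw [sum_congr rfl (g := fun g : Perm Ω => ind (g ∘ e = v) *
    ((√((Fintype.card Ω - Fintype.card ι).factorial : ℝ))⁻¹ * φ v)) fun g _ => by
      rw [Lh_mulVec]; by_cases h : g ∘ e = v
      · rw [h]
      · simp [ind_neg h], ← sum_mul, sum_ind_fiber' he]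
  linear_combination (ind (Injective v) * φ v) * cc (Fintype.card Ω - Fintype.card ι)

lemma opLe_Lh {e : ι → Ω} (he : Injective e) : OpLe (Lh e) 1 :=
  opLe_of_tmul_proj (by
    rw [LhT_Lh he, Dg, diagonal_mul_diagonal]; simp only [ind_mul_self])

lemma kap_mulVec (α : Perm Ω → ℝ) (φ : (ι → Ω) → ℝ) (v : ι → Ω) :
    (kap ι α *ᵥ φ) v = ex α fun π => φ (π ∘ v) := by
  simp only [kap, mulVec, dotProduct, ex, of_apply, sum_mul]
  rw [sum_comm]; simp

lemma cm_Lh (α : Perm Ω → ℝ) (e : ι → Ω) : cm α * Lh e = Lh e * kap ι α := mat_ext fun φ => by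
  ext g
  simp only [← mulVec_mulVec, cm_mulVec, Lh_mulVec, kap_mulVec, ex, mul_sum]
  exact sum_congr rfl fun π _ => by rw [Perm.coe_mul, comp_assoc]; ring

lemma Lh_mem (e : ι → Ω) (φ : (ι → Ω) → ℝ) : Lh e *ᵥ φ ∈ Vs (univ.image e) := fun g g' h => by
  rw [Lh_mulVec, Lh_mulVec, show g ∘ e = g' ∘ e from funext fun τ => h _ (by simp)]

lemma Lh_LhT {e : ι → Ω} (he : Injective e) {F : Perm Ω → ℝ} (hF : F ∈ Vs (univ.image e)) :
    Lh e *ᵥ ((Lh e)ᵀ *ᵥ F) = F := by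
  ext g
  rw [Lh_mulVec, LhT_mulVec, sum_congr rfl (g := fun g' : Perm Ω => ind (g' ∘ e = g ∘ e) * F g)
    fun g' _ => by
      by_cases h : g' ∘ e = g ∘ e
      · rw [hF g' g fun x hx => by obtain ⟨τ, -, rfl⟩ := mem_image.1 hx; exact congrFun h τ]
      · simp [ind_neg h], ← sum_mul, sum_ind_fiber' he, ind_pos (g.injective.comp he)]
  linear_combination F g * cc (Fintype.card Ω - Fintype.card ι)

lemma Pi0_LhT (e : ι → Ω) {F : Perm Ω → ℝ} (hF : F ∈ orth (Ws Ω (Fintype.card ι))) :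
    Pi0 ι Ω *ᵥ ((Lh e)ᵀ *ᵥ F) = (Lh e)ᵀ *ᵥ F := by
  refine Pi0_fix fun τ v => ?_
  simp only [LhT_mulVec, ← mul_sum]
  rw [sum_comm]
  simp only [← sum_mul]
  refine mul_eq_zero_of_right _ (hF (fun g => ∑ l, ind (g ∘ e = update v τ l))
    (Vs_le_Ws (S := (univ.erase τ).image e) ?_ fun g g' h => ?_))
  · exact card_image_le.trans_lt (card_erase_lt_of_mem (mem_univ τ))
  · have key : ∀ g : Perm Ω, ∑ l, ind (g ∘ e = update v τ l) =
        ind (∀ j, j ≠ τ → g (e j) = v j) := by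
      intro g
      simp only [eq_update_iff, ind_and, ← sum_mul, Function.comp_apply]
      simp [ind_eq_ite]
    rw [key, key]
    exact ind_congr (forall₂_congr fun j hj => by rw [h (e j) (by simp; exact ⟨j, hj, rfl⟩)])

lemma Zm_eq {e : ι → Ω} (he : Injective e) (α : Perm Ω → ℝ) :
    Zm ι α = (Lh e)ᵀ * (cm α * (Lh e * Pi0 ι Ω)) := by
  rw [Zm, ← LhT_Lh he, ← Matrix.mul_assoc (cm α), cm_Lh]; simp only [Matrix.mul_assoc]

lemma T_PS_le {y : ℝ} (hy : 2 ≤ y) {e : ι → Ω} (he : Injective e) (α : Perm Ω → ℝ) :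
    T y (cm α * pr (Lev Ω (Fintype.card ι) ⊓ Vs (univ.image e))) ≤ T y (Zm ι α) := by
  set P := pr (Lev Ω (Fintype.card ι) ⊓ Vs (univ.image e))
  have : cm α * P = Lh e * (Zm ι α * ((Lh e)ᵀ * P)) := mat_ext fun F => by
    have h := pr_mem (Lev Ω (Fintype.card ι) ⊓ Vs (univ.image e)) F
    rw [Zm_eq he]
    simp only [← mulVec_mulVec]
    rw [Pi0_LhT e h.1.2, Lh_LhT he h.2, Lh_LhT he (inv_Vs α _ _ h.2)]
  rw [this]
  refine (T_mul_left1 hy (opLe_Lh he) _).trans (T_mul_right1 hy ?_ _)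
  simpa using ((opLe_Lh he).tr zero_le_one).mul zero_le_one (opLe_pr _)

lemma Zm_apply (α : Perm Ω → ℝ) (v v' : ι → Ω) :
    Zm ι α v v' = ind (Injective v) * ex α fun π => ∏ τ, Q0 Ω (π (v τ)) (v' τ) := by
  rw [Zm, Matrix.mul_assoc, Dg, diagonal_mul]
  congr 1
  exact kap_mulVec α (fun u => Pi0 ι Ω u v') v

lemma T_lev_le {y : ℝ} (hy : 0 < y) (α : Perm Ω → ℝ) (S : Finset Ω) :
    T y (cm α * pr (Lev Ω S.card)) ≤
      (Fintype.card Ω).choose S.card * T y (cm α * pr (Lev Ω S.card ⊓ Vs S)) := by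
  have := T_cmp (c := 1) (c' := (Fintype.card Ω).choose S.card) hy (M := cm α)
    (U := Lev Ω S.card) (U' := Lev Ω S.card ⊓ Vs S) (by rw [tmul_cm]; exact inv_Lev _ _)
    (by rw [tmul_cm]; exact (inv_Lev _ _).inf (inv_Vs _ _)) fun μ => ?_
  · simpa using this
  · have h := dim_upper (Y := Eig ((cm α)ᵀ * cm α) μ ⊓ Lev Ω S.card)
      (by rw [tmul_cm]; exact (ri_Eig _ _).inf (ri_Lev _)) inf_le_right univ S rfl
    have e : Vs (univ : Finset Ω) = ⊤ := by
      rw [eq_top_iff]; intro F _ g g' h; rw [Equiv.ext fun x => h x (mem_univ _)]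
    rw [e, inf_top_eq, inf_assoc, card_univ] at h
    rw [one_mul]; exact_mod_cast h

lemma T_lev_Vs_le {y : ℝ} (hy : 0 < y) (α : Perm Ω → ℝ) (U : Finset Ω) {j : ℕ}
    (h5 : 5 * j ≤ Fintype.card Ω) :
    ((Fintype.card Ω - j).choose j : ℝ) * T y (cm α * pr (Lev Ω j ⊓ Vs U)) ≤
      U.card.choose j * T y (cm α * pr (Lev Ω j)) := by
  refine T_cmp hy (by rw [tmul_cm]; exact (inv_Lev _ _).inf (inv_Vs _ _))
    (by rw [tmul_cm]; exact inv_Lev _ _) fun μ => ?_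
  obtain ⟨S, -, hS⟩ := exists_subset_card_eq (s := (univ : Finset Ω)) (n := j)
    (by rw [card_univ]; omega)
  have hY : RI (Eig ((cm α)ᵀ * cm α) μ ⊓ Lev Ω j) := by
    rw [tmul_cm]; exact (ri_Eig _ _).inf (ri_Lev _)
  have h1 := dim_upper hY inf_le_right U S hS
  have h2 := dim_lower hY (inf_le_right.trans inf_le_right) h5 S hS
  rw [← inf_assoc]
  norm_cast
  nlinarith [Nat.mul_le_mul_left ((Fintype.card Ω - j).choose j) h1,
    Nat.mul_le_mul_left (U.card.choose j) h2]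

lemma pr_Ws_eq (k : ℕ) : pr (Ws Ω k) = ∑ j ∈ range k, pr (Lev Ω j) := by
  induction k with
  | zero =>
    have : Ws Ω 0 = ⊥ := by rw [eq_bot_iff]; exact iSup_le fun S => absurd S.2 (by simp)
    refine pr_unique (by simp) fun v w hw => ?_
    rw [this, Submodule.mem_bot] at hw; simp [hw]
  | succ k ih => rw [sum_range_succ, ← ih, pr_split (Ws_mono (Nat.le_succ k))]; rfl

end Vale.Agent.P162
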